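import Vale.Agent.P045.R6.Rows

/-! Checks of the rows of a certificate. -/

namespace Vale.Agent.P045.R6

set_option maxRecDepth 100000

theorem c0_0 : chk (nat_lit 0) (nat_lit 100) = true := by decide +kernel

theorem c0_1 : chk (nat_lit 100) (nat_lit 100) = true := by decide +kernel

theorem c0_2 : chk (nat_lit 200) (nat_lit 100) = true := by decide +kernel

theorem c0_3 : chk (nat_lit 300) (nat_lit 100) = true := by decide +kernel

theorem c0_4 : chk (nat_lit 400) (nat_lit 100) = true := by decide +kernel

theorem c0_5 : chk (nat_lit 500) (nat_lit 100) = true := by decide +kernel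

theorem c0_6 : chk (nat_lit 600) (nat_lit 100) = true := by decide +kernel

theorem c0_7 : chk (nat_lit 700) (nat_lit 100) = true := by decide +kernel

theorem c0_8 : chk (nat_lit 800) (nat_lit 100) = true := by decide +kernel

theorem c0_9 : chk (nat_lit 900) (nat_lit 100) = true := by decide +kernel


theorem all0 : ∀ i, 0 ≤ i → i < 1000 → Good i := (good_chain (good_chain (good_chain (good_chain (good_chain (good_chain (good_chain (good_chain (good_chain (good_of_chk c0_0) (good_of_chk c0_1)) (good_of_chk c0_2)) (good_of_chk c0_3)) (good_of_chk c0_4)) (good_of_chk c0_5)) (good_of_chk c0_6)) (good_of_chk c0_7)) (good_of_chk c0_8)) (good_of_chk c0_9))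


end Vale.Agent.P045.R6
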