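import Vale.Agent.P045.R6.Rows

/-! Checks of the rows of a certificate. -/

namespace Vale.Agent.P045.R6

set_option maxRecDepth 100000

theorem c1_0 : chk (nat_lit 1000) (nat_lit 100) = true := by decide +kernel

theorem c1_1 : chk (nat_lit 1100) (nat_lit 100) = true := by decide +kernel

theorem c1_2 : chk (nat_lit 1200) (nat_lit 100) = true := by decide +kernel

theorem c1_3 : chk (nat_lit 1300) (nat_lit 100) = true := by decide +kernel

theorem c1_4 : chk (nat_lit 1400) (nat_lit 100) = true := by decide +kernel

theorem c1_5 : chk (nat_lit 1500) (nat_lit 100) = true := by decide +kernel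

theorem c1_6 : chk (nat_lit 1600) (nat_lit 100) = true := by decide +kernel

theorem c1_7 : chk (nat_lit 1700) (nat_lit 100) = true := by decide +kernel

theorem c1_8 : chk (nat_lit 1800) (nat_lit 100) = true := by decide +kernel

theorem c1_9 : chk (nat_lit 1900) (nat_lit 100) = true := by decide +kernel


theorem all1 : ∀ i, 1000 ≤ i → i < 2000 → Good i := (good_chain (good_chain (good_chain (good_chain (good_chain (good_chain (good_chain (good_chain (good_chain (good_of_chk c1_0) (good_of_chk c1_1)) (good_of_chk c1_2)) (good_of_chk c1_3)) (good_of_chk c1_4)) (good_of_chk c1_5)) (good_of_chk c1_6)) (good_of_chk c1_7)) (good_of_chk c1_8)) (good_of_chk c1_9))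


end Vale.Agent.P045.R6
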