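import Vale.Agent.P045.R6.Rows

/-! Checks of the rows of a certificate. -/

namespace Vale.Agent.P045.R6

set_option maxRecDepth 100000

theorem c10_0 : chk (nat_lit 10000) (nat_lit 100) = true := by decide +kernel

theorem c10_1 : chk (nat_lit 10100) (nat_lit 100) = true := by decide +kernel

theorem c10_2 : chk (nat_lit 10200) (nat_lit 100) = true := by decide +kernel

theorem c10_3 : chk (nat_lit 10300) (nat_lit 100) = true := by decide +kernel

theorem c10_4 : chk (nat_lit 10400) (nat_lit 100) = true := by decide +kernel

theorem c10_5 : chk (nat_lit 10500) (nat_lit 100) = true := by decide +kernel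

theorem c10_6 : chk (nat_lit 10600) (nat_lit 100) = true := by decide +kernel

theorem c10_7 : chk (nat_lit 10700) (nat_lit 100) = true := by decide +kernel

theorem c10_8 : chk (nat_lit 10800) (nat_lit 100) = true := by decide +kernel

theorem c10_9 : chk (nat_lit 10900) (nat_lit 100) = true := by decide +kernel


theorem all10 : ∀ i, 10000 ≤ i → i < 11000 → Good i := (good_chain (good_chain (good_chain (good_chain (good_chain (good_chain (good_chain (good_chain (good_chain (good_of_chk c10_0) (good_of_chk c10_1)) (good_of_chk c10_2)) (good_of_chk c10_3)) (good_of_chk c10_4)) (good_of_chk c10_5)) (good_of_chk c10_6)) (good_of_chk c10_7)) (good_of_chk c10_8)) (good_of_chk c10_9))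


end Vale.Agent.P045.R6
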