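import Vale.Agent.P045.R6.Rows

/-! Checks of the rows of a certificate. -/

namespace Vale.Agent.P045.R6

set_option maxRecDepth 100000

theorem c100_0 : chk (nat_lit 100000) (nat_lit 100) = true := by decide +kernel

theorem c100_1 : chk (nat_lit 100100) (nat_lit 100) = true := by decide +kernel

theorem c100_2 : chk (nat_lit 100200) (nat_lit 100) = true := by decide +kernel

theorem c100_3 : chk (nat_lit 100300) (nat_lit 100) = true := by decide +kernel

theorem c100_4 : chk (nat_lit 100400) (nat_lit 100) = true := by decide +kernel

theorem c100_5 : chk (nat_lit 100500) (nat_lit 100) = true := by decide +kernel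

theorem c100_6 : chk (nat_lit 100600) (nat_lit 100) = true := by decide +kernel

theorem c100_7 : chk (nat_lit 100700) (nat_lit 100) = true := by decide +kernel

theorem c100_8 : chk (nat_lit 100800) (nat_lit 100) = true := by decide +kernel

theorem c100_9 : chk (nat_lit 100900) (nat_lit 100) = true := by decide +kernel


theorem all100 : ∀ i, 100000 ≤ i → i < 101000 → Good i := (good_chain (good_chain (good_chain (good_chain (good_chain (good_chain (good_chain (good_chain (good_chain (good_of_chk c100_0) (good_of_chk c100_1)) (good_of_chk c100_2)) (good_of_chk c100_3)) (good_of_chk c100_4)) (good_of_chk c100_5)) (good_of_chk c100_6)) (good_of_chk c100_7)) (good_of_chk c100_8)) (good_of_chk c100_9))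


end Vale.Agent.P045.R6
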