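import Vale.Agent.P045.R6.Rows

/-! Checks of the rows of a certificate. -/

namespace Vale.Agent.P045.R6

set_option maxRecDepth 100000

theorem c101_0 : chk (nat_lit 101000) (nat_lit 100) = true := by decide +kernel

theorem c101_1 : chk (nat_lit 101100) (nat_lit 100) = true := by decide +kernel

theorem c101_2 : chk (nat_lit 101200) (nat_lit 100) = true := by decide +kernel

theorem c101_3 : chk (nat_lit 101300) (nat_lit 100) = true := by decide +kernel

theorem c101_4 : chk (nat_lit 101400) (nat_lit 100) = true := by decide +kernel

theorem c101_5 : chk (nat_lit 101500) (nat_lit 100) = true := by decide +kernel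

theorem c101_6 : chk (nat_lit 101600) (nat_lit 100) = true := by decide +kernel

theorem c101_7 : chk (nat_lit 101700) (nat_lit 100) = true := by decide +kernel

theorem c101_8 : chk (nat_lit 101800) (nat_lit 100) = true := by decide +kernel

theorem c101_9 : chk (nat_lit 101900) (nat_lit 100) = true := by decide +kernel


theorem all101 : ∀ i, 101000 ≤ i → i < 102000 → Good i := (good_chain (good_chain (good_chain (good_chain (good_chain (good_chain (good_chain (good_chain (good_chain (good_of_chk c101_0) (good_of_chk c101_1)) (good_of_chk c101_2)) (good_of_chk c101_3)) (good_of_chk c101_4)) (good_of_chk c101_5)) (good_of_chk c101_6)) (good_of_chk c101_7)) (good_of_chk c101_8)) (good_of_chk c101_9))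


end Vale.Agent.P045.R6
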