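import Vale.Agent.P045.R6.Rows

/-! Checks of the rows of a certificate. -/

namespace Vale.Agent.P045.R6

set_option maxRecDepth 100000

theorem c102_0 : chk (nat_lit 102000) (nat_lit 100) = true := by decide +kernel

theorem c102_1 : chk (nat_lit 102100) (nat_lit 100) = true := by decide +kernel

theorem c102_2 : chk (nat_lit 102200) (nat_lit 100) = true := by decide +kernel

theorem c102_3 : chk (nat_lit 102300) (nat_lit 100) = true := by decide +kernel

theorem c102_4 : chk (nat_lit 102400) (nat_lit 100) = true := by decide +kernel

theorem c102_5 : chk (nat_lit 102500) (nat_lit 100) = true := by decide +kernel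

theorem c102_6 : chk (nat_lit 102600) (nat_lit 100) = true := by decide +kernel

theorem c102_7 : chk (nat_lit 102700) (nat_lit 100) = true := by decide +kernel

theorem c102_8 : chk (nat_lit 102800) (nat_lit 100) = true := by decide +kernel

theorem c102_9 : chk (nat_lit 102900) (nat_lit 100) = true := by decide +kernel


theorem all102 : ∀ i, 102000 ≤ i → i < 103000 → Good i := (good_chain (good_chain (good_chain (good_chain (good_chain (good_chain (good_chain (good_chain (good_chain (good_of_chk c102_0) (good_of_chk c102_1)) (good_of_chk c102_2)) (good_of_chk c102_3)) (good_of_chk c102_4)) (good_of_chk c102_5)) (good_of_chk c102_6)) (good_of_chk c102_7)) (good_of_chk c102_8)) (good_of_chk c102_9))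


end Vale.Agent.P045.R6
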