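import Vale.Agent.P045.R6.Rows

/-! Checks of the rows of a certificate. -/

namespace Vale.Agent.P045.R6

set_option maxRecDepth 100000

theorem c103_0 : chk (nat_lit 103000) (nat_lit 100) = true := by decide +kernel

theorem c103_1 : chk (nat_lit 103100) (nat_lit 100) = true := by decide +kernel

theorem c103_2 : chk (nat_lit 103200) (nat_lit 100) = true := by decide +kernel

theorem c103_3 : chk (nat_lit 103300) (nat_lit 100) = true := by decide +kernel

theorem c103_4 : chk (nat_lit 103400) (nat_lit 100) = true := by decide +kernel

theorem c103_5 : chk (nat_lit 103500) (nat_lit 100) = true := by decide +kernel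

theorem c103_6 : chk (nat_lit 103600) (nat_lit 100) = true := by decide +kernel

theorem c103_7 : chk (nat_lit 103700) (nat_lit 100) = true := by decide +kernel

theorem c103_8 : chk (nat_lit 103800) (nat_lit 100) = true := by decide +kernel

theorem c103_9 : chk (nat_lit 103900) (nat_lit 100) = true := by decide +kernel


theorem all103 : ∀ i, 103000 ≤ i → i < 104000 → Good i := (good_chain (good_chain (good_chain (good_chain (good_chain (good_chain (good_chain (good_chain (good_chain (good_of_chk c103_0) (good_of_chk c103_1)) (good_of_chk c103_2)) (good_of_chk c103_3)) (good_of_chk c103_4)) (good_of_chk c103_5)) (good_of_chk c103_6)) (good_of_chk c103_7)) (good_of_chk c103_8)) (good_of_chk c103_9))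


end Vale.Agent.P045.R6
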