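import Vale.Agent.P045.R6.Rows

/-! Checks of the rows of a certificate. -/

namespace Vale.Agent.P045.R6

set_option maxRecDepth 100000

theorem c104_0 : chk (nat_lit 104000) (nat_lit 100) = true := by decide +kernel

theorem c104_1 : chk (nat_lit 104100) (nat_lit 100) = true := by decide +kernel

theorem c104_2 : chk (nat_lit 104200) (nat_lit 100) = true := by decide +kernel

theorem c104_3 : chk (nat_lit 104300) (nat_lit 100) = true := by decide +kernel

theorem c104_4 : chk (nat_lit 104400) (nat_lit 100) = true := by decide +kernel

theorem c104_5 : chk (nat_lit 104500) (nat_lit 100) = true := by decide +kernel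

theorem c104_6 : chk (nat_lit 104600) (nat_lit 100) = true := by decide +kernel

theorem c104_7 : chk (nat_lit 104700) (nat_lit 100) = true := by decide +kernel

theorem c104_8 : chk (nat_lit 104800) (nat_lit 100) = true := by decide +kernel

theorem c104_9 : chk (nat_lit 104900) (nat_lit 100) = true := by decide +kernel


theorem all104 : ∀ i, 104000 ≤ i → i < 105000 → Good i := (good_chain (good_chain (good_chain (good_chain (good_chain (good_chain (good_chain (good_chain (good_chain (good_of_chk c104_0) (good_of_chk c104_1)) (good_of_chk c104_2)) (good_of_chk c104_3)) (good_of_chk c104_4)) (good_of_chk c104_5)) (good_of_chk c104_6)) (good_of_chk c104_7)) (good_of_chk c104_8)) (good_of_chk c104_9))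


end Vale.Agent.P045.R6
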