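import Vale.Agent.P045.R6.Rows

/-! Checks of the rows of a certificate. -/

namespace Vale.Agent.P045.R6

set_option maxRecDepth 100000

theorem c105_0 : chk (nat_lit 105000) (nat_lit 100) = true := by decide +kernel

theorem c105_1 : chk (nat_lit 105100) (nat_lit 100) = true := by decide +kernel

theorem c105_2 : chk (nat_lit 105200) (nat_lit 100) = true := by decide +kernel

theorem c105_3 : chk (nat_lit 105300) (nat_lit 100) = true := by decide +kernel

theorem c105_4 : chk (nat_lit 105400) (nat_lit 100) = true := by decide +kernel

theorem c105_5 : chk (nat_lit 105500) (nat_lit 100) = true := by decide +kernel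

theorem c105_6 : chk (nat_lit 105600) (nat_lit 100) = true := by decide +kernel

theorem c105_7 : chk (nat_lit 105700) (nat_lit 100) = true := by decide +kernel

theorem c105_8 : chk (nat_lit 105800) (nat_lit 100) = true := by decide +kernel

theorem c105_9 : chk (nat_lit 105900) (nat_lit 100) = true := by decide +kernel


theorem all105 : ∀ i, 105000 ≤ i → i < 106000 → Good i := (good_chain (good_chain (good_chain (good_chain (good_chain (good_chain (good_chain (good_chain (good_chain (good_of_chk c105_0) (good_of_chk c105_1)) (good_of_chk c105_2)) (good_of_chk c105_3)) (good_of_chk c105_4)) (good_of_chk c105_5)) (good_of_chk c105_6)) (good_of_chk c105_7)) (good_of_chk c105_8)) (good_of_chk c105_9))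


end Vale.Agent.P045.R6
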