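import Vale.Agent.P045.R6.Rows

/-! Checks of the rows of a certificate. -/

namespace Vale.Agent.P045.R6

set_option maxRecDepth 100000

theorem c106_0 : chk (nat_lit 106000) (nat_lit 100) = true := by decide +kernel

theorem c106_1 : chk (nat_lit 106100) (nat_lit 100) = true := by decide +kernel

theorem c106_2 : chk (nat_lit 106200) (nat_lit 100) = true := by decide +kernel

theorem c106_3 : chk (nat_lit 106300) (nat_lit 100) = true := by decide +kernel

theorem c106_4 : chk (nat_lit 106400) (nat_lit 100) = true := by decide +kernel

theorem c106_5 : chk (nat_lit 106500) (nat_lit 100) = true := by decide +kernel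

theorem c106_6 : chk (nat_lit 106600) (nat_lit 100) = true := by decide +kernel

theorem c106_7 : chk (nat_lit 106700) (nat_lit 100) = true := by decide +kernel

theorem c106_8 : chk (nat_lit 106800) (nat_lit 100) = true := by decide +kernel

theorem c106_9 : chk (nat_lit 106900) (nat_lit 100) = true := by decide +kernel


theorem all106 : ∀ i, 106000 ≤ i → i < 107000 → Good i := (good_chain (good_chain (good_chain (good_chain (good_chain (good_chain (good_chain (good_chain (good_chain (good_of_chk c106_0) (good_of_chk c106_1)) (good_of_chk c106_2)) (good_of_chk c106_3)) (good_of_chk c106_4)) (good_of_chk c106_5)) (good_of_chk c106_6)) (good_of_chk c106_7)) (good_of_chk c106_8)) (good_of_chk c106_9))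


end Vale.Agent.P045.R6
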