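import Vale.Agent.P045.R6.Rows

/-! Checks of the rows of a certificate. -/

namespace Vale.Agent.P045.R6

set_option maxRecDepth 100000

theorem c107_0 : chk (nat_lit 107000) (nat_lit 100) = true := by decide +kernel

theorem c107_1 : chk (nat_lit 107100) (nat_lit 100) = true := by decide +kernel

theorem c107_2 : chk (nat_lit 107200) (nat_lit 100) = true := by decide +kernel

theorem c107_3 : chk (nat_lit 107300) (nat_lit 100) = true := by decide +kernel

theorem c107_4 : chk (nat_lit 107400) (nat_lit 100) = true := by decide +kernel

theorem c107_5 : chk (nat_lit 107500) (nat_lit 100) = true := by decide +kernel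

theorem c107_6 : chk (nat_lit 107600) (nat_lit 100) = true := by decide +kernel

theorem c107_7 : chk (nat_lit 107700) (nat_lit 100) = true := by decide +kernel

theorem c107_8 : chk (nat_lit 107800) (nat_lit 100) = true := by decide +kernel

theorem c107_9 : chk (nat_lit 107900) (nat_lit 100) = true := by decide +kernel


theorem all107 : ∀ i, 107000 ≤ i → i < 108000 → Good i := (good_chain (good_chain (good_chain (good_chain (good_chain (good_chain (good_chain (good_chain (good_chain (good_of_chk c107_0) (good_of_chk c107_1)) (good_of_chk c107_2)) (good_of_chk c107_3)) (good_of_chk c107_4)) (good_of_chk c107_5)) (good_of_chk c107_6)) (good_of_chk c107_7)) (good_of_chk c107_8)) (good_of_chk c107_9))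


end Vale.Agent.P045.R6
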