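import Vale.Agent.P045.R6.Rows

/-! Checks of the rows of a certificate. -/

namespace Vale.Agent.P045.R6

set_option maxRecDepth 100000

theorem c108_0 : chk (nat_lit 108000) (nat_lit 100) = true := by decide +kernel

theorem c108_1 : chk (nat_lit 108100) (nat_lit 100) = true := by decide +kernel

theorem c108_2 : chk (nat_lit 108200) (nat_lit 100) = true := by decide +kernel

theorem c108_3 : chk (nat_lit 108300) (nat_lit 100) = true := by decide +kernel

theorem c108_4 : chk (nat_lit 108400) (nat_lit 100) = true := by decide +kernel

theorem c108_5 : chk (nat_lit 108500) (nat_lit 100) = true := by decide +kernel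

theorem c108_6 : chk (nat_lit 108600) (nat_lit 100) = true := by decide +kernel

theorem c108_7 : chk (nat_lit 108700) (nat_lit 100) = true := by decide +kernel

theorem c108_8 : chk (nat_lit 108800) (nat_lit 100) = true := by decide +kernel

theorem c108_9 : chk (nat_lit 108900) (nat_lit 100) = true := by decide +kernel


theorem all108 : ∀ i, 108000 ≤ i → i < 109000 → Good i := (good_chain (good_chain (good_chain (good_chain (good_chain (good_chain (good_chain (good_chain (good_chain (good_of_chk c108_0) (good_of_chk c108_1)) (good_of_chk c108_2)) (good_of_chk c108_3)) (good_of_chk c108_4)) (good_of_chk c108_5)) (good_of_chk c108_6)) (good_of_chk c108_7)) (good_of_chk c108_8)) (good_of_chk c108_9))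


end Vale.Agent.P045.R6
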