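import Vale.Agent.P045.R6.Rows

/-! Checks of the rows of a certificate. -/

namespace Vale.Agent.P045.R6

set_option maxRecDepth 100000

theorem c109_0 : chk (nat_lit 109000) (nat_lit 100) = true := by decide +kernel

theorem c109_1 : chk (nat_lit 109100) (nat_lit 100) = true := by decide +kernel

theorem c109_2 : chk (nat_lit 109200) (nat_lit 100) = true := by decide +kernel

theorem c109_3 : chk (nat_lit 109300) (nat_lit 100) = true := by decide +kernel

theorem c109_4 : chk (nat_lit 109400) (nat_lit 100) = true := by decide +kernel

theorem c109_5 : chk (nat_lit 109500) (nat_lit 100) = true := by decide +kernel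

theorem c109_6 : chk (nat_lit 109600) (nat_lit 100) = true := by decide +kernel

theorem c109_7 : chk (nat_lit 109700) (nat_lit 100) = true := by decide +kernel

theorem c109_8 : chk (nat_lit 109800) (nat_lit 100) = true := by decide +kernel

theorem c109_9 : chk (nat_lit 109900) (nat_lit 100) = true := by decide +kernel


theorem all109 : ∀ i, 109000 ≤ i → i < 110000 → Good i := (good_chain (good_chain (good_chain (good_chain (good_chain (good_chain (good_chain (good_chain (good_chain (good_of_chk c109_0) (good_of_chk c109_1)) (good_of_chk c109_2)) (good_of_chk c109_3)) (good_of_chk c109_4)) (good_of_chk c109_5)) (good_of_chk c109_6)) (good_of_chk c109_7)) (good_of_chk c109_8)) (good_of_chk c109_9))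


end Vale.Agent.P045.R6
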