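import Vale.Agent.P045.R6.Rows

/-! Checks of the rows of a certificate. -/

namespace Vale.Agent.P045.R6

set_option maxRecDepth 100000

theorem c11_0 : chk (nat_lit 11000) (nat_lit 100) = true := by decide +kernel

theorem c11_1 : chk (nat_lit 11100) (nat_lit 100) = true := by decide +kernel

theorem c11_2 : chk (nat_lit 11200) (nat_lit 100) = true := by decide +kernel

theorem c11_3 : chk (nat_lit 11300) (nat_lit 100) = true := by decide +kernel

theorem c11_4 : chk (nat_lit 11400) (nat_lit 100) = true := by decide +kernel

theorem c11_5 : chk (nat_lit 11500) (nat_lit 100) = true := by decide +kernel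

theorem c11_6 : chk (nat_lit 11600) (nat_lit 100) = true := by decide +kernel

theorem c11_7 : chk (nat_lit 11700) (nat_lit 100) = true := by decide +kernel

theorem c11_8 : chk (nat_lit 11800) (nat_lit 100) = true := by decide +kernel

theorem c11_9 : chk (nat_lit 11900) (nat_lit 100) = true := by decide +kernel


theorem all11 : ∀ i, 11000 ≤ i → i < 12000 → Good i := (good_chain (good_chain (good_chain (good_chain (good_chain (good_chain (good_chain (good_chain (good_chain (good_of_chk c11_0) (good_of_chk c11_1)) (good_of_chk c11_2)) (good_of_chk c11_3)) (good_of_chk c11_4)) (good_of_chk c11_5)) (good_of_chk c11_6)) (good_of_chk c11_7)) (good_of_chk c11_8)) (good_of_chk c11_9))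


end Vale.Agent.P045.R6
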