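import Vale.Agent.P045.R6.Rows

/-! Checks of the rows of a certificate. -/

namespace Vale.Agent.P045.R6

set_option maxRecDepth 100000

theorem c110_0 : chk (nat_lit 110000) (nat_lit 100) = true := by decide +kernel

theorem c110_1 : chk (nat_lit 110100) (nat_lit 100) = true := by decide +kernel

theorem c110_2 : chk (nat_lit 110200) (nat_lit 100) = true := by decide +kernel

theorem c110_3 : chk (nat_lit 110300) (nat_lit 100) = true := by decide +kernel

theorem c110_4 : chk (nat_lit 110400) (nat_lit 100) = true := by decide +kernel

theorem c110_5 : chk (nat_lit 110500) (nat_lit 100) = true := by decide +kernel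

theorem c110_6 : chk (nat_lit 110600) (nat_lit 100) = true := by decide +kernel

theorem c110_7 : chk (nat_lit 110700) (nat_lit 100) = true := by decide +kernel

theorem c110_8 : chk (nat_lit 110800) (nat_lit 100) = true := by decide +kernel

theorem c110_9 : chk (nat_lit 110900) (nat_lit 100) = true := by decide +kernel


theorem all110 : ∀ i, 110000 ≤ i → i < 111000 → Good i := (good_chain (good_chain (good_chain (good_chain (good_chain (good_chain (good_chain (good_chain (good_chain (good_of_chk c110_0) (good_of_chk c110_1)) (good_of_chk c110_2)) (good_of_chk c110_3)) (good_of_chk c110_4)) (good_of_chk c110_5)) (good_of_chk c110_6)) (good_of_chk c110_7)) (good_of_chk c110_8)) (good_of_chk c110_9))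


end Vale.Agent.P045.R6
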