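import Vale.Agent.P045.R6.Rows

/-! Checks of the rows of a certificate. -/

namespace Vale.Agent.P045.R6

set_option maxRecDepth 100000

theorem c111_0 : chk (nat_lit 111000) (nat_lit 100) = true := by decide +kernel

theorem c111_1 : chk (nat_lit 111100) (nat_lit 100) = true := by decide +kernel

theorem c111_2 : chk (nat_lit 111200) (nat_lit 100) = true := by decide +kernel

theorem c111_3 : chk (nat_lit 111300) (nat_lit 100) = true := by decide +kernel

theorem c111_4 : chk (nat_lit 111400) (nat_lit 100) = true := by decide +kernel

theorem c111_5 : chk (nat_lit 111500) (nat_lit 100) = true := by decide +kernel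

theorem c111_6 : chk (nat_lit 111600) (nat_lit 100) = true := by decide +kernel

theorem c111_7 : chk (nat_lit 111700) (nat_lit 100) = true := by decide +kernel

theorem c111_8 : chk (nat_lit 111800) (nat_lit 100) = true := by decide +kernel

theorem c111_9 : chk (nat_lit 111900) (nat_lit 100) = true := by decide +kernel


theorem all111 : ∀ i, 111000 ≤ i → i < 112000 → Good i := (good_chain (good_chain (good_chain (good_chain (good_chain (good_chain (good_chain (good_chain (good_chain (good_of_chk c111_0) (good_of_chk c111_1)) (good_of_chk c111_2)) (good_of_chk c111_3)) (good_of_chk c111_4)) (good_of_chk c111_5)) (good_of_chk c111_6)) (good_of_chk c111_7)) (good_of_chk c111_8)) (good_of_chk c111_9))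


end Vale.Agent.P045.R6
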