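import Vale.Agent.P045.R6.Rows

/-! Checks of the rows of a certificate. -/

namespace Vale.Agent.P045.R6

set_option maxRecDepth 100000

theorem c112_0 : chk (nat_lit 112000) (nat_lit 100) = true := by decide +kernel

theorem c112_1 : chk (nat_lit 112100) (nat_lit 100) = true := by decide +kernel

theorem c112_2 : chk (nat_lit 112200) (nat_lit 100) = true := by decide +kernel

theorem c112_3 : chk (nat_lit 112300) (nat_lit 100) = true := by decide +kernel

theorem c112_4 : chk (nat_lit 112400) (nat_lit 100) = true := by decide +kernel

theorem c112_5 : chk (nat_lit 112500) (nat_lit 100) = true := by decide +kernel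

theorem c112_6 : chk (nat_lit 112600) (nat_lit 100) = true := by decide +kernel

theorem c112_7 : chk (nat_lit 112700) (nat_lit 100) = true := by decide +kernel

theorem c112_8 : chk (nat_lit 112800) (nat_lit 100) = true := by decide +kernel

theorem c112_9 : chk (nat_lit 112900) (nat_lit 100) = true := by decide +kernel


theorem all112 : ∀ i, 112000 ≤ i → i < 113000 → Good i := (good_chain (good_chain (good_chain (good_chain (good_chain (good_chain (good_chain (good_chain (good_chain (good_of_chk c112_0) (good_of_chk c112_1)) (good_of_chk c112_2)) (good_of_chk c112_3)) (good_of_chk c112_4)) (good_of_chk c112_5)) (good_of_chk c112_6)) (good_of_chk c112_7)) (good_of_chk c112_8)) (good_of_chk c112_9))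


end Vale.Agent.P045.R6
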