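import Vale.Agent.P045.R6.Rows

/-! Checks of the rows of a certificate. -/

namespace Vale.Agent.P045.R6

set_option maxRecDepth 100000

theorem c113_0 : chk (nat_lit 113000) (nat_lit 100) = true := by decide +kernel

theorem c113_1 : chk (nat_lit 113100) (nat_lit 100) = true := by decide +kernel

theorem c113_2 : chk (nat_lit 113200) (nat_lit 100) = true := by decide +kernel

theorem c113_3 : chk (nat_lit 113300) (nat_lit 100) = true := by decide +kernel

theorem c113_4 : chk (nat_lit 113400) (nat_lit 100) = true := by decide +kernel

theorem c113_5 : chk (nat_lit 113500) (nat_lit 100) = true := by decide +kernel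

theorem c113_6 : chk (nat_lit 113600) (nat_lit 100) = true := by decide +kernel

theorem c113_7 : chk (nat_lit 113700) (nat_lit 100) = true := by decide +kernel

theorem c113_8 : chk (nat_lit 113800) (nat_lit 100) = true := by decide +kernel

theorem c113_9 : chk (nat_lit 113900) (nat_lit 100) = true := by decide +kernel


theorem all113 : ∀ i, 113000 ≤ i → i < 114000 → Good i := (good_chain (good_chain (good_chain (good_chain (good_chain (good_chain (good_chain (good_chain (good_chain (good_of_chk c113_0) (good_of_chk c113_1)) (good_of_chk c113_2)) (good_of_chk c113_3)) (good_of_chk c113_4)) (good_of_chk c113_5)) (good_of_chk c113_6)) (good_of_chk c113_7)) (good_of_chk c113_8)) (good_of_chk c113_9))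


end Vale.Agent.P045.R6
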