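import Vale.Agent.P045.R6.Rows

/-! Checks of the rows of a certificate. -/

namespace Vale.Agent.P045.R6

set_option maxRecDepth 100000

theorem c114_0 : chk (nat_lit 114000) (nat_lit 100) = true := by decide +kernel

theorem c114_1 : chk (nat_lit 114100) (nat_lit 100) = true := by decide +kernel

theorem c114_2 : chk (nat_lit 114200) (nat_lit 100) = true := by decide +kernel

theorem c114_3 : chk (nat_lit 114300) (nat_lit 100) = true := by decide +kernel

theorem c114_4 : chk (nat_lit 114400) (nat_lit 100) = true := by decide +kernel

theorem c114_5 : chk (nat_lit 114500) (nat_lit 100) = true := by decide +kernel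

theorem c114_6 : chk (nat_lit 114600) (nat_lit 100) = true := by decide +kernel

theorem c114_7 : chk (nat_lit 114700) (nat_lit 100) = true := by decide +kernel

theorem c114_8 : chk (nat_lit 114800) (nat_lit 100) = true := by decide +kernel

theorem c114_9 : chk (nat_lit 114900) (nat_lit 100) = true := by decide +kernel


theorem all114 : ∀ i, 114000 ≤ i → i < 115000 → Good i := (good_chain (good_chain (good_chain (good_chain (good_chain (good_chain (good_chain (good_chain (good_chain (good_of_chk c114_0) (good_of_chk c114_1)) (good_of_chk c114_2)) (good_of_chk c114_3)) (good_of_chk c114_4)) (good_of_chk c114_5)) (good_of_chk c114_6)) (good_of_chk c114_7)) (good_of_chk c114_8)) (good_of_chk c114_9))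


end Vale.Agent.P045.R6
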