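import Vale.Agent.P045.R6.Rows

/-! Checks of the rows of a certificate. -/

namespace Vale.Agent.P045.R6

set_option maxRecDepth 100000

theorem c115_0 : chk (nat_lit 115000) (nat_lit 100) = true := by decide +kernel

theorem c115_1 : chk (nat_lit 115100) (nat_lit 100) = true := by decide +kernel

theorem c115_2 : chk (nat_lit 115200) (nat_lit 100) = true := by decide +kernel

theorem c115_3 : chk (nat_lit 115300) (nat_lit 100) = true := by decide +kernel

theorem c115_4 : chk (nat_lit 115400) (nat_lit 100) = true := by decide +kernel

theorem c115_5 : chk (nat_lit 115500) (nat_lit 100) = true := by decide +kernel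

theorem c115_6 : chk (nat_lit 115600) (nat_lit 100) = true := by decide +kernel

theorem c115_7 : chk (nat_lit 115700) (nat_lit 100) = true := by decide +kernel

theorem c115_8 : chk (nat_lit 115800) (nat_lit 100) = true := by decide +kernel

theorem c115_9 : chk (nat_lit 115900) (nat_lit 100) = true := by decide +kernel


theorem all115 : ∀ i, 115000 ≤ i → i < 116000 → Good i := (good_chain (good_chain (good_chain (good_chain (good_chain (good_chain (good_chain (good_chain (good_chain (good_of_chk c115_0) (good_of_chk c115_1)) (good_of_chk c115_2)) (good_of_chk c115_3)) (good_of_chk c115_4)) (good_of_chk c115_5)) (good_of_chk c115_6)) (good_of_chk c115_7)) (good_of_chk c115_8)) (good_of_chk c115_9))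


end Vale.Agent.P045.R6
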