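import Vale.Agent.P045.R6.Rows

/-! Checks of the rows of a certificate. -/

namespace Vale.Agent.P045.R6

set_option maxRecDepth 100000

theorem c116_0 : chk (nat_lit 116000) (nat_lit 100) = true := by decide +kernel

theorem c116_1 : chk (nat_lit 116100) (nat_lit 100) = true := by decide +kernel

theorem c116_2 : chk (nat_lit 116200) (nat_lit 100) = true := by decide +kernel

theorem c116_3 : chk (nat_lit 116300) (nat_lit 100) = true := by decide +kernel

theorem c116_4 : chk (nat_lit 116400) (nat_lit 100) = true := by decide +kernel

theorem c116_5 : chk (nat_lit 116500) (nat_lit 100) = true := by decide +kernel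

theorem c116_6 : chk (nat_lit 116600) (nat_lit 100) = true := by decide +kernel

theorem c116_7 : chk (nat_lit 116700) (nat_lit 100) = true := by decide +kernel

theorem c116_8 : chk (nat_lit 116800) (nat_lit 100) = true := by decide +kernel

theorem c116_9 : chk (nat_lit 116900) (nat_lit 100) = true := by decide +kernel


theorem all116 : ∀ i, 116000 ≤ i → i < 117000 → Good i := (good_chain (good_chain (good_chain (good_chain (good_chain (good_chain (good_chain (good_chain (good_chain (good_of_chk c116_0) (good_of_chk c116_1)) (good_of_chk c116_2)) (good_of_chk c116_3)) (good_of_chk c116_4)) (good_of_chk c116_5)) (good_of_chk c116_6)) (good_of_chk c116_7)) (good_of_chk c116_8)) (good_of_chk c116_9))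


end Vale.Agent.P045.R6
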