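import Vale.Agent.P045.R6.Rows

/-! Checks of the rows of a certificate. -/

namespace Vale.Agent.P045.R6

set_option maxRecDepth 100000

theorem c117_0 : chk (nat_lit 117000) (nat_lit 100) = true := by decide +kernel

theorem c117_1 : chk (nat_lit 117100) (nat_lit 100) = true := by decide +kernel

theorem c117_2 : chk (nat_lit 117200) (nat_lit 100) = true := by decide +kernel

theorem c117_3 : chk (nat_lit 117300) (nat_lit 100) = true := by decide +kernel

theorem c117_4 : chk (nat_lit 117400) (nat_lit 100) = true := by decide +kernel

theorem c117_5 : chk (nat_lit 117500) (nat_lit 100) = true := by decide +kernel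

theorem c117_6 : chk (nat_lit 117600) (nat_lit 100) = true := by decide +kernel

theorem c117_7 : chk (nat_lit 117700) (nat_lit 100) = true := by decide +kernel

theorem c117_8 : chk (nat_lit 117800) (nat_lit 100) = true := by decide +kernel

theorem c117_9 : chk (nat_lit 117900) (nat_lit 100) = true := by decide +kernel


theorem all117 : ∀ i, 117000 ≤ i → i < 118000 → Good i := (good_chain (good_chain (good_chain (good_chain (good_chain (good_chain (good_chain (good_chain (good_chain (good_of_chk c117_0) (good_of_chk c117_1)) (good_of_chk c117_2)) (good_of_chk c117_3)) (good_of_chk c117_4)) (good_of_chk c117_5)) (good_of_chk c117_6)) (good_of_chk c117_7)) (good_of_chk c117_8)) (good_of_chk c117_9))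


end Vale.Agent.P045.R6
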