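import Vale.Agent.P045.R6.Rows

/-! Checks of the rows of a certificate. -/

namespace Vale.Agent.P045.R6

set_option maxRecDepth 100000

theorem c118_0 : chk (nat_lit 118000) (nat_lit 100) = true := by decide +kernel

theorem c118_1 : chk (nat_lit 118100) (nat_lit 100) = true := by decide +kernel

theorem c118_2 : chk (nat_lit 118200) (nat_lit 100) = true := by decide +kernel

theorem c118_3 : chk (nat_lit 118300) (nat_lit 100) = true := by decide +kernel

theorem c118_4 : chk (nat_lit 118400) (nat_lit 100) = true := by decide +kernel

theorem c118_5 : chk (nat_lit 118500) (nat_lit 100) = true := by decide +kernel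

theorem c118_6 : chk (nat_lit 118600) (nat_lit 100) = true := by decide +kernel

theorem c118_7 : chk (nat_lit 118700) (nat_lit 100) = true := by decide +kernel

theorem c118_8 : chk (nat_lit 118800) (nat_lit 100) = true := by decide +kernel

theorem c118_9 : chk (nat_lit 118900) (nat_lit 100) = true := by decide +kernel


theorem all118 : ∀ i, 118000 ≤ i → i < 119000 → Good i := (good_chain (good_chain (good_chain (good_chain (good_chain (good_chain (good_chain (good_chain (good_chain (good_of_chk c118_0) (good_of_chk c118_1)) (good_of_chk c118_2)) (good_of_chk c118_3)) (good_of_chk c118_4)) (good_of_chk c118_5)) (good_of_chk c118_6)) (good_of_chk c118_7)) (good_of_chk c118_8)) (good_of_chk c118_9))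


end Vale.Agent.P045.R6
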