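import Vale.Agent.P045.R6.Rows

/-! Checks of the rows of a certificate. -/

namespace Vale.Agent.P045.R6

set_option maxRecDepth 100000

theorem c119_0 : chk (nat_lit 119000) (nat_lit 100) = true := by decide +kernel

theorem c119_1 : chk (nat_lit 119100) (nat_lit 100) = true := by decide +kernel

theorem c119_2 : chk (nat_lit 119200) (nat_lit 100) = true := by decide +kernel

theorem c119_3 : chk (nat_lit 119300) (nat_lit 100) = true := by decide +kernel

theorem c119_4 : chk (nat_lit 119400) (nat_lit 100) = true := by decide +kernel

theorem c119_5 : chk (nat_lit 119500) (nat_lit 100) = true := by decide +kernel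

theorem c119_6 : chk (nat_lit 119600) (nat_lit 100) = true := by decide +kernel

theorem c119_7 : chk (nat_lit 119700) (nat_lit 100) = true := by decide +kernel

theorem c119_8 : chk (nat_lit 119800) (nat_lit 100) = true := by decide +kernel

theorem c119_9 : chk (nat_lit 119900) (nat_lit 100) = true := by decide +kernel


theorem all119 : ∀ i, 119000 ≤ i → i < 120000 → Good i := (good_chain (good_chain (good_chain (good_chain (good_chain (good_chain (good_chain (good_chain (good_chain (good_of_chk c119_0) (good_of_chk c119_1)) (good_of_chk c119_2)) (good_of_chk c119_3)) (good_of_chk c119_4)) (good_of_chk c119_5)) (good_of_chk c119_6)) (good_of_chk c119_7)) (good_of_chk c119_8)) (good_of_chk c119_9))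


end Vale.Agent.P045.R6
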