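import Vale.Agent.P045.R6.Rows

/-! Checks of the rows of a certificate. -/

namespace Vale.Agent.P045.R6

set_option maxRecDepth 100000

theorem c12_0 : chk (nat_lit 12000) (nat_lit 100) = true := by decide +kernel

theorem c12_1 : chk (nat_lit 12100) (nat_lit 100) = true := by decide +kernel

theorem c12_2 : chk (nat_lit 12200) (nat_lit 100) = true := by decide +kernel

theorem c12_3 : chk (nat_lit 12300) (nat_lit 100) = true := by decide +kernel

theorem c12_4 : chk (nat_lit 12400) (nat_lit 100) = true := by decide +kernel

theorem c12_5 : chk (nat_lit 12500) (nat_lit 100) = true := by decide +kernel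

theorem c12_6 : chk (nat_lit 12600) (nat_lit 100) = true := by decide +kernel

theorem c12_7 : chk (nat_lit 12700) (nat_lit 100) = true := by decide +kernel

theorem c12_8 : chk (nat_lit 12800) (nat_lit 100) = true := by decide +kernel

theorem c12_9 : chk (nat_lit 12900) (nat_lit 100) = true := by decide +kernel


theorem all12 : ∀ i, 12000 ≤ i → i < 13000 → Good i := (good_chain (good_chain (good_chain (good_chain (good_chain (good_chain (good_chain (good_chain (good_chain (good_of_chk c12_0) (good_of_chk c12_1)) (good_of_chk c12_2)) (good_of_chk c12_3)) (good_of_chk c12_4)) (good_of_chk c12_5)) (good_of_chk c12_6)) (good_of_chk c12_7)) (good_of_chk c12_8)) (good_of_chk c12_9))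


end Vale.Agent.P045.R6
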