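import Vale.Agent.P045.R6.Rows

/-! Checks of the rows of a certificate. -/

namespace Vale.Agent.P045.R6

set_option maxRecDepth 100000

theorem c120_0 : chk (nat_lit 120000) (nat_lit 100) = true := by decide +kernel

theorem c120_1 : chk (nat_lit 120100) (nat_lit 100) = true := by decide +kernel

theorem c120_2 : chk (nat_lit 120200) (nat_lit 100) = true := by decide +kernel

theorem c120_3 : chk (nat_lit 120300) (nat_lit 100) = true := by decide +kernel

theorem c120_4 : chk (nat_lit 120400) (nat_lit 100) = true := by decide +kernel

theorem c120_5 : chk (nat_lit 120500) (nat_lit 100) = true := by decide +kernel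

theorem c120_6 : chk (nat_lit 120600) (nat_lit 100) = true := by decide +kernel

theorem c120_7 : chk (nat_lit 120700) (nat_lit 100) = true := by decide +kernel

theorem c120_8 : chk (nat_lit 120800) (nat_lit 100) = true := by decide +kernel

theorem c120_9 : chk (nat_lit 120900) (nat_lit 100) = true := by decide +kernel


theorem all120 : ∀ i, 120000 ≤ i → i < 121000 → Good i := (good_chain (good_chain (good_chain (good_chain (good_chain (good_chain (good_chain (good_chain (good_chain (good_of_chk c120_0) (good_of_chk c120_1)) (good_of_chk c120_2)) (good_of_chk c120_3)) (good_of_chk c120_4)) (good_of_chk c120_5)) (good_of_chk c120_6)) (good_of_chk c120_7)) (good_of_chk c120_8)) (good_of_chk c120_9))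


end Vale.Agent.P045.R6
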