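import Vale.Agent.P045.R6.Rows

/-! Checks of the rows of a certificate. -/

namespace Vale.Agent.P045.R6

set_option maxRecDepth 100000

theorem c121_0 : chk (nat_lit 121000) (nat_lit 100) = true := by decide +kernel

theorem c121_1 : chk (nat_lit 121100) (nat_lit 100) = true := by decide +kernel

theorem c121_2 : chk (nat_lit 121200) (nat_lit 100) = true := by decide +kernel

theorem c121_3 : chk (nat_lit 121300) (nat_lit 100) = true := by decide +kernel

theorem c121_4 : chk (nat_lit 121400) (nat_lit 100) = true := by decide +kernel

theorem c121_5 : chk (nat_lit 121500) (nat_lit 100) = true := by decide +kernel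

theorem c121_6 : chk (nat_lit 121600) (nat_lit 100) = true := by decide +kernel

theorem c121_7 : chk (nat_lit 121700) (nat_lit 100) = true := by decide +kernel

theorem c121_8 : chk (nat_lit 121800) (nat_lit 100) = true := by decide +kernel

theorem c121_9 : chk (nat_lit 121900) (nat_lit 100) = true := by decide +kernel


theorem all121 : ∀ i, 121000 ≤ i → i < 122000 → Good i := (good_chain (good_chain (good_chain (good_chain (good_chain (good_chain (good_chain (good_chain (good_chain (good_of_chk c121_0) (good_of_chk c121_1)) (good_of_chk c121_2)) (good_of_chk c121_3)) (good_of_chk c121_4)) (good_of_chk c121_5)) (good_of_chk c121_6)) (good_of_chk c121_7)) (good_of_chk c121_8)) (good_of_chk c121_9))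


end Vale.Agent.P045.R6
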