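import Vale.Agent.P045.R6.Rows

/-! Checks of the rows of a certificate. -/

namespace Vale.Agent.P045.R6

set_option maxRecDepth 100000

theorem c122_0 : chk (nat_lit 122000) (nat_lit 100) = true := by decide +kernel

theorem c122_1 : chk (nat_lit 122100) (nat_lit 100) = true := by decide +kernel

theorem c122_2 : chk (nat_lit 122200) (nat_lit 100) = true := by decide +kernel

theorem c122_3 : chk (nat_lit 122300) (nat_lit 100) = true := by decide +kernel

theorem c122_4 : chk (nat_lit 122400) (nat_lit 100) = true := by decide +kernel

theorem c122_5 : chk (nat_lit 122500) (nat_lit 100) = true := by decide +kernel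

theorem c122_6 : chk (nat_lit 122600) (nat_lit 100) = true := by decide +kernel

theorem c122_7 : chk (nat_lit 122700) (nat_lit 100) = true := by decide +kernel

theorem c122_8 : chk (nat_lit 122800) (nat_lit 100) = true := by decide +kernel

theorem c122_9 : chk (nat_lit 122900) (nat_lit 100) = true := by decide +kernel


theorem all122 : ∀ i, 122000 ≤ i → i < 123000 → Good i := (good_chain (good_chain (good_chain (good_chain (good_chain (good_chain (good_chain (good_chain (good_chain (good_of_chk c122_0) (good_of_chk c122_1)) (good_of_chk c122_2)) (good_of_chk c122_3)) (good_of_chk c122_4)) (good_of_chk c122_5)) (good_of_chk c122_6)) (good_of_chk c122_7)) (good_of_chk c122_8)) (good_of_chk c122_9))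


end Vale.Agent.P045.R6
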