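import Vale.Agent.P045.R6.Rows

/-! Checks of the rows of a certificate. -/

namespace Vale.Agent.P045.R6

set_option maxRecDepth 100000

theorem c123_0 : chk (nat_lit 123000) (nat_lit 100) = true := by decide +kernel

theorem c123_1 : chk (nat_lit 123100) (nat_lit 100) = true := by decide +kernel

theorem c123_2 : chk (nat_lit 123200) (nat_lit 100) = true := by decide +kernel

theorem c123_3 : chk (nat_lit 123300) (nat_lit 100) = true := by decide +kernel

theorem c123_4 : chk (nat_lit 123400) (nat_lit 100) = true := by decide +kernel

theorem c123_5 : chk (nat_lit 123500) (nat_lit 100) = true := by decide +kernel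

theorem c123_6 : chk (nat_lit 123600) (nat_lit 100) = true := by decide +kernel

theorem c123_7 : chk (nat_lit 123700) (nat_lit 100) = true := by decide +kernel

theorem c123_8 : chk (nat_lit 123800) (nat_lit 100) = true := by decide +kernel

theorem c123_9 : chk (nat_lit 123900) (nat_lit 100) = true := by decide +kernel


theorem all123 : ∀ i, 123000 ≤ i → i < 124000 → Good i := (good_chain (good_chain (good_chain (good_chain (good_chain (good_chain (good_chain (good_chain (good_chain (good_of_chk c123_0) (good_of_chk c123_1)) (good_of_chk c123_2)) (good_of_chk c123_3)) (good_of_chk c123_4)) (good_of_chk c123_5)) (good_of_chk c123_6)) (good_of_chk c123_7)) (good_of_chk c123_8)) (good_of_chk c123_9))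


end Vale.Agent.P045.R6
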