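import Vale.Agent.P045.R6.Rows

/-! Checks of the rows of a certificate. -/

namespace Vale.Agent.P045.R6

set_option maxRecDepth 100000

theorem c124_0 : chk (nat_lit 124000) (nat_lit 100) = true := by decide +kernel

theorem c124_1 : chk (nat_lit 124100) (nat_lit 100) = true := by decide +kernel

theorem c124_2 : chk (nat_lit 124200) (nat_lit 100) = true := by decide +kernel

theorem c124_3 : chk (nat_lit 124300) (nat_lit 100) = true := by decide +kernel

theorem c124_4 : chk (nat_lit 124400) (nat_lit 100) = true := by decide +kernel

theorem c124_5 : chk (nat_lit 124500) (nat_lit 100) = true := by decide +kernel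

theorem c124_6 : chk (nat_lit 124600) (nat_lit 100) = true := by decide +kernel

theorem c124_7 : chk (nat_lit 124700) (nat_lit 100) = true := by decide +kernel

theorem c124_8 : chk (nat_lit 124800) (nat_lit 100) = true := by decide +kernel

theorem c124_9 : chk (nat_lit 124900) (nat_lit 100) = true := by decide +kernel


theorem all124 : ∀ i, 124000 ≤ i → i < 125000 → Good i := (good_chain (good_chain (good_chain (good_chain (good_chain (good_chain (good_chain (good_chain (good_chain (good_of_chk c124_0) (good_of_chk c124_1)) (good_of_chk c124_2)) (good_of_chk c124_3)) (good_of_chk c124_4)) (good_of_chk c124_5)) (good_of_chk c124_6)) (good_of_chk c124_7)) (good_of_chk c124_8)) (good_of_chk c124_9))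


end Vale.Agent.P045.R6
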