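import Vale.Agent.P045.R6.Rows

/-! Checks of the rows of a certificate. -/

namespace Vale.Agent.P045.R6

set_option maxRecDepth 100000

theorem c125_0 : chk (nat_lit 125000) (nat_lit 100) = true := by decide +kernel

theorem c125_1 : chk (nat_lit 125100) (nat_lit 100) = true := by decide +kernel

theorem c125_2 : chk (nat_lit 125200) (nat_lit 100) = true := by decide +kernel

theorem c125_3 : chk (nat_lit 125300) (nat_lit 100) = true := by decide +kernel

theorem c125_4 : chk (nat_lit 125400) (nat_lit 100) = true := by decide +kernel

theorem c125_5 : chk (nat_lit 125500) (nat_lit 100) = true := by decide +kernel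

theorem c125_6 : chk (nat_lit 125600) (nat_lit 100) = true := by decide +kernel

theorem c125_7 : chk (nat_lit 125700) (nat_lit 100) = true := by decide +kernel

theorem c125_8 : chk (nat_lit 125800) (nat_lit 100) = true := by decide +kernel

theorem c125_9 : chk (nat_lit 125900) (nat_lit 100) = true := by decide +kernel


theorem all125 : ∀ i, 125000 ≤ i → i < 126000 → Good i := (good_chain (good_chain (good_chain (good_chain (good_chain (good_chain (good_chain (good_chain (good_chain (good_of_chk c125_0) (good_of_chk c125_1)) (good_of_chk c125_2)) (good_of_chk c125_3)) (good_of_chk c125_4)) (good_of_chk c125_5)) (good_of_chk c125_6)) (good_of_chk c125_7)) (good_of_chk c125_8)) (good_of_chk c125_9))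


end Vale.Agent.P045.R6
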