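import Vale.Agent.P045.R6.Rows

/-! Checks of the rows of a certificate. -/

namespace Vale.Agent.P045.R6

set_option maxRecDepth 100000

theorem c126_0 : chk (nat_lit 126000) (nat_lit 100) = true := by decide +kernel

theorem c126_1 : chk (nat_lit 126100) (nat_lit 100) = true := by decide +kernel

theorem c126_2 : chk (nat_lit 126200) (nat_lit 100) = true := by decide +kernel

theorem c126_3 : chk (nat_lit 126300) (nat_lit 100) = true := by decide +kernel

theorem c126_4 : chk (nat_lit 126400) (nat_lit 100) = true := by decide +kernel

theorem c126_5 : chk (nat_lit 126500) (nat_lit 100) = true := by decide +kernel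

theorem c126_6 : chk (nat_lit 126600) (nat_lit 100) = true := by decide +kernel

theorem c126_7 : chk (nat_lit 126700) (nat_lit 100) = true := by decide +kernel

theorem c126_8 : chk (nat_lit 126800) (nat_lit 100) = true := by decide +kernel

theorem c126_9 : chk (nat_lit 126900) (nat_lit 100) = true := by decide +kernel


theorem all126 : ∀ i, 126000 ≤ i → i < 127000 → Good i := (good_chain (good_chain (good_chain (good_chain (good_chain (good_chain (good_chain (good_chain (good_chain (good_of_chk c126_0) (good_of_chk c126_1)) (good_of_chk c126_2)) (good_of_chk c126_3)) (good_of_chk c126_4)) (good_of_chk c126_5)) (good_of_chk c126_6)) (good_of_chk c126_7)) (good_of_chk c126_8)) (good_of_chk c126_9))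


end Vale.Agent.P045.R6
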