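import Vale.Agent.P045.R6.Rows

/-! Checks of the rows of a certificate. -/

namespace Vale.Agent.P045.R6

set_option maxRecDepth 100000

theorem c127_0 : chk (nat_lit 127000) (nat_lit 100) = true := by decide +kernel

theorem c127_1 : chk (nat_lit 127100) (nat_lit 100) = true := by decide +kernel

theorem c127_2 : chk (nat_lit 127200) (nat_lit 100) = true := by decide +kernel

theorem c127_3 : chk (nat_lit 127300) (nat_lit 100) = true := by decide +kernel

theorem c127_4 : chk (nat_lit 127400) (nat_lit 100) = true := by decide +kernel

theorem c127_5 : chk (nat_lit 127500) (nat_lit 100) = true := by decide +kernel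

theorem c127_6 : chk (nat_lit 127600) (nat_lit 100) = true := by decide +kernel

theorem c127_7 : chk (nat_lit 127700) (nat_lit 100) = true := by decide +kernel

theorem c127_8 : chk (nat_lit 127800) (nat_lit 100) = true := by decide +kernel

theorem c127_9 : chk (nat_lit 127900) (nat_lit 100) = true := by decide +kernel


theorem all127 : ∀ i, 127000 ≤ i → i < 128000 → Good i := (good_chain (good_chain (good_chain (good_chain (good_chain (good_chain (good_chain (good_chain (good_chain (good_of_chk c127_0) (good_of_chk c127_1)) (good_of_chk c127_2)) (good_of_chk c127_3)) (good_of_chk c127_4)) (good_of_chk c127_5)) (good_of_chk c127_6)) (good_of_chk c127_7)) (good_of_chk c127_8)) (good_of_chk c127_9))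


end Vale.Agent.P045.R6
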