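import Vale.Agent.P045.R6.Rows

/-! Checks of the rows of a certificate. -/

namespace Vale.Agent.P045.R6

set_option maxRecDepth 100000

theorem c128_0 : chk (nat_lit 128000) (nat_lit 100) = true := by decide +kernel

theorem c128_1 : chk (nat_lit 128100) (nat_lit 100) = true := by decide +kernel

theorem c128_2 : chk (nat_lit 128200) (nat_lit 100) = true := by decide +kernel

theorem c128_3 : chk (nat_lit 128300) (nat_lit 100) = true := by decide +kernel

theorem c128_4 : chk (nat_lit 128400) (nat_lit 100) = true := by decide +kernel

theorem c128_5 : chk (nat_lit 128500) (nat_lit 100) = true := by decide +kernel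

theorem c128_6 : chk (nat_lit 128600) (nat_lit 100) = true := by decide +kernel

theorem c128_7 : chk (nat_lit 128700) (nat_lit 100) = true := by decide +kernel

theorem c128_8 : chk (nat_lit 128800) (nat_lit 100) = true := by decide +kernel

theorem c128_9 : chk (nat_lit 128900) (nat_lit 100) = true := by decide +kernel


theorem all128 : ∀ i, 128000 ≤ i → i < 129000 → Good i := (good_chain (good_chain (good_chain (good_chain (good_chain (good_chain (good_chain (good_chain (good_chain (good_of_chk c128_0) (good_of_chk c128_1)) (good_of_chk c128_2)) (good_of_chk c128_3)) (good_of_chk c128_4)) (good_of_chk c128_5)) (good_of_chk c128_6)) (good_of_chk c128_7)) (good_of_chk c128_8)) (good_of_chk c128_9))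


end Vale.Agent.P045.R6
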