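import Vale.Agent.P045.R6.Rows

/-! Checks of the rows of a certificate. -/

namespace Vale.Agent.P045.R6

set_option maxRecDepth 100000

theorem c129_0 : chk (nat_lit 129000) (nat_lit 100) = true := by decide +kernel

theorem c129_1 : chk (nat_lit 129100) (nat_lit 100) = true := by decide +kernel

theorem c129_2 : chk (nat_lit 129200) (nat_lit 100) = true := by decide +kernel

theorem c129_3 : chk (nat_lit 129300) (nat_lit 100) = true := by decide +kernel

theorem c129_4 : chk (nat_lit 129400) (nat_lit 100) = true := by decide +kernel

theorem c129_5 : chk (nat_lit 129500) (nat_lit 100) = true := by decide +kernel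

theorem c129_6 : chk (nat_lit 129600) (nat_lit 100) = true := by decide +kernel

theorem c129_7 : chk (nat_lit 129700) (nat_lit 100) = true := by decide +kernel

theorem c129_8 : chk (nat_lit 129800) (nat_lit 100) = true := by decide +kernel

theorem c129_9 : chk (nat_lit 129900) (nat_lit 100) = true := by decide +kernel


theorem all129 : ∀ i, 129000 ≤ i → i < 130000 → Good i := (good_chain (good_chain (good_chain (good_chain (good_chain (good_chain (good_chain (good_chain (good_chain (good_of_chk c129_0) (good_of_chk c129_1)) (good_of_chk c129_2)) (good_of_chk c129_3)) (good_of_chk c129_4)) (good_of_chk c129_5)) (good_of_chk c129_6)) (good_of_chk c129_7)) (good_of_chk c129_8)) (good_of_chk c129_9))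


end Vale.Agent.P045.R6
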