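import Vale.Agent.P045.R6.Rows

/-! Checks of the rows of a certificate. -/

namespace Vale.Agent.P045.R6

set_option maxRecDepth 100000

theorem c13_0 : chk (nat_lit 13000) (nat_lit 100) = true := by decide +kernel

theorem c13_1 : chk (nat_lit 13100) (nat_lit 100) = true := by decide +kernel

theorem c13_2 : chk (nat_lit 13200) (nat_lit 100) = true := by decide +kernel

theorem c13_3 : chk (nat_lit 13300) (nat_lit 100) = true := by decide +kernel

theorem c13_4 : chk (nat_lit 13400) (nat_lit 100) = true := by decide +kernel

theorem c13_5 : chk (nat_lit 13500) (nat_lit 100) = true := by decide +kernel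

theorem c13_6 : chk (nat_lit 13600) (nat_lit 100) = true := by decide +kernel

theorem c13_7 : chk (nat_lit 13700) (nat_lit 100) = true := by decide +kernel

theorem c13_8 : chk (nat_lit 13800) (nat_lit 100) = true := by decide +kernel

theorem c13_9 : chk (nat_lit 13900) (nat_lit 100) = true := by decide +kernel


theorem all13 : ∀ i, 13000 ≤ i → i < 14000 → Good i := (good_chain (good_chain (good_chain (good_chain (good_chain (good_chain (good_chain (good_chain (good_chain (good_of_chk c13_0) (good_of_chk c13_1)) (good_of_chk c13_2)) (good_of_chk c13_3)) (good_of_chk c13_4)) (good_of_chk c13_5)) (good_of_chk c13_6)) (good_of_chk c13_7)) (good_of_chk c13_8)) (good_of_chk c13_9))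


end Vale.Agent.P045.R6
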