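import Vale.Agent.P045.R6.Rows

/-! Checks of the rows of a certificate. -/

namespace Vale.Agent.P045.R6

set_option maxRecDepth 100000

theorem c130_0 : chk (nat_lit 130000) (nat_lit 100) = true := by decide +kernel

theorem c130_1 : chk (nat_lit 130100) (nat_lit 100) = true := by decide +kernel

theorem c130_2 : chk (nat_lit 130200) (nat_lit 100) = true := by decide +kernel

theorem c130_3 : chk (nat_lit 130300) (nat_lit 100) = true := by decide +kernel

theorem c130_4 : chk (nat_lit 130400) (nat_lit 100) = true := by decide +kernel

theorem c130_5 : chk (nat_lit 130500) (nat_lit 100) = true := by decide +kernel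

theorem c130_6 : chk (nat_lit 130600) (nat_lit 100) = true := by decide +kernel

theorem c130_7 : chk (nat_lit 130700) (nat_lit 100) = true := by decide +kernel

theorem c130_8 : chk (nat_lit 130800) (nat_lit 100) = true := by decide +kernel

theorem c130_9 : chk (nat_lit 130900) (nat_lit 100) = true := by decide +kernel


theorem all130 : ∀ i, 130000 ≤ i → i < 131000 → Good i := (good_chain (good_chain (good_chain (good_chain (good_chain (good_chain (good_chain (good_chain (good_chain (good_of_chk c130_0) (good_of_chk c130_1)) (good_of_chk c130_2)) (good_of_chk c130_3)) (good_of_chk c130_4)) (good_of_chk c130_5)) (good_of_chk c130_6)) (good_of_chk c130_7)) (good_of_chk c130_8)) (good_of_chk c130_9))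


end Vale.Agent.P045.R6
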