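import Vale.Agent.P045.R6.Rows

/-! Checks of the rows of a certificate. -/

namespace Vale.Agent.P045.R6

set_option maxRecDepth 100000

theorem c131_0 : chk (nat_lit 131000) (nat_lit 100) = true := by decide +kernel

theorem c131_1 : chk (nat_lit 131100) (nat_lit 100) = true := by decide +kernel

theorem c131_2 : chk (nat_lit 131200) (nat_lit 100) = true := by decide +kernel

theorem c131_3 : chk (nat_lit 131300) (nat_lit 100) = true := by decide +kernel

theorem c131_4 : chk (nat_lit 131400) (nat_lit 100) = true := by decide +kernel

theorem c131_5 : chk (nat_lit 131500) (nat_lit 100) = true := by decide +kernel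

theorem c131_6 : chk (nat_lit 131600) (nat_lit 100) = true := by decide +kernel

theorem c131_7 : chk (nat_lit 131700) (nat_lit 100) = true := by decide +kernel

theorem c131_8 : chk (nat_lit 131800) (nat_lit 100) = true := by decide +kernel

theorem c131_9 : chk (nat_lit 131900) (nat_lit 100) = true := by decide +kernel


theorem all131 : ∀ i, 131000 ≤ i → i < 132000 → Good i := (good_chain (good_chain (good_chain (good_chain (good_chain (good_chain (good_chain (good_chain (good_chain (good_of_chk c131_0) (good_of_chk c131_1)) (good_of_chk c131_2)) (good_of_chk c131_3)) (good_of_chk c131_4)) (good_of_chk c131_5)) (good_of_chk c131_6)) (good_of_chk c131_7)) (good_of_chk c131_8)) (good_of_chk c131_9))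


end Vale.Agent.P045.R6
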