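import Vale.Agent.P045.R6.Rows

/-! Checks of the rows of a certificate. -/

namespace Vale.Agent.P045.R6

set_option maxRecDepth 100000

theorem c132_0 : chk (nat_lit 132000) (nat_lit 100) = true := by decide +kernel

theorem c132_1 : chk (nat_lit 132100) (nat_lit 100) = true := by decide +kernel

theorem c132_2 : chk (nat_lit 132200) (nat_lit 100) = true := by decide +kernel

theorem c132_3 : chk (nat_lit 132300) (nat_lit 100) = true := by decide +kernel

theorem c132_4 : chk (nat_lit 132400) (nat_lit 100) = true := by decide +kernel

theorem c132_5 : chk (nat_lit 132500) (nat_lit 100) = true := by decide +kernel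

theorem c132_6 : chk (nat_lit 132600) (nat_lit 100) = true := by decide +kernel

theorem c132_7 : chk (nat_lit 132700) (nat_lit 100) = true := by decide +kernel

theorem c132_8 : chk (nat_lit 132800) (nat_lit 100) = true := by decide +kernel

theorem c132_9 : chk (nat_lit 132900) (nat_lit 100) = true := by decide +kernel


theorem all132 : ∀ i, 132000 ≤ i → i < 133000 → Good i := (good_chain (good_chain (good_chain (good_chain (good_chain (good_chain (good_chain (good_chain (good_chain (good_of_chk c132_0) (good_of_chk c132_1)) (good_of_chk c132_2)) (good_of_chk c132_3)) (good_of_chk c132_4)) (good_of_chk c132_5)) (good_of_chk c132_6)) (good_of_chk c132_7)) (good_of_chk c132_8)) (good_of_chk c132_9))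


end Vale.Agent.P045.R6
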