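import Vale.Agent.P045.R6.Rows

/-! Checks of the rows of a certificate. -/

namespace Vale.Agent.P045.R6

set_option maxRecDepth 100000

theorem c133_0 : chk (nat_lit 133000) (nat_lit 100) = true := by decide +kernel

theorem c133_1 : chk (nat_lit 133100) (nat_lit 100) = true := by decide +kernel

theorem c133_2 : chk (nat_lit 133200) (nat_lit 100) = true := by decide +kernel

theorem c133_3 : chk (nat_lit 133300) (nat_lit 100) = true := by decide +kernel

theorem c133_4 : chk (nat_lit 133400) (nat_lit 100) = true := by decide +kernel

theorem c133_5 : chk (nat_lit 133500) (nat_lit 100) = true := by decide +kernel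

theorem c133_6 : chk (nat_lit 133600) (nat_lit 100) = true := by decide +kernel

theorem c133_7 : chk (nat_lit 133700) (nat_lit 100) = true := by decide +kernel

theorem c133_8 : chk (nat_lit 133800) (nat_lit 100) = true := by decide +kernel

theorem c133_9 : chk (nat_lit 133900) (nat_lit 100) = true := by decide +kernel


theorem all133 : ∀ i, 133000 ≤ i → i < 134000 → Good i := (good_chain (good_chain (good_chain (good_chain (good_chain (good_chain (good_chain (good_chain (good_chain (good_of_chk c133_0) (good_of_chk c133_1)) (good_of_chk c133_2)) (good_of_chk c133_3)) (good_of_chk c133_4)) (good_of_chk c133_5)) (good_of_chk c133_6)) (good_of_chk c133_7)) (good_of_chk c133_8)) (good_of_chk c133_9))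


end Vale.Agent.P045.R6
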