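import Vale.Agent.P045.R6.Rows

/-! Checks of the rows of a certificate. -/

namespace Vale.Agent.P045.R6

set_option maxRecDepth 100000

theorem c134_0 : chk (nat_lit 134000) (nat_lit 100) = true := by decide +kernel

theorem c134_1 : chk (nat_lit 134100) (nat_lit 100) = true := by decide +kernel

theorem c134_2 : chk (nat_lit 134200) (nat_lit 100) = true := by decide +kernel

theorem c134_3 : chk (nat_lit 134300) (nat_lit 100) = true := by decide +kernel

theorem c134_4 : chk (nat_lit 134400) (nat_lit 100) = true := by decide +kernel

theorem c134_5 : chk (nat_lit 134500) (nat_lit 100) = true := by decide +kernel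

theorem c134_6 : chk (nat_lit 134600) (nat_lit 100) = true := by decide +kernel

theorem c134_7 : chk (nat_lit 134700) (nat_lit 100) = true := by decide +kernel

theorem c134_8 : chk (nat_lit 134800) (nat_lit 100) = true := by decide +kernel

theorem c134_9 : chk (nat_lit 134900) (nat_lit 100) = true := by decide +kernel


theorem all134 : ∀ i, 134000 ≤ i → i < 135000 → Good i := (good_chain (good_chain (good_chain (good_chain (good_chain (good_chain (good_chain (good_chain (good_chain (good_of_chk c134_0) (good_of_chk c134_1)) (good_of_chk c134_2)) (good_of_chk c134_3)) (good_of_chk c134_4)) (good_of_chk c134_5)) (good_of_chk c134_6)) (good_of_chk c134_7)) (good_of_chk c134_8)) (good_of_chk c134_9))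


end Vale.Agent.P045.R6
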