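import Vale.Agent.P045.R6.Rows

/-! Checks of the rows of a certificate. -/

namespace Vale.Agent.P045.R6

set_option maxRecDepth 100000

theorem c135_0 : chk (nat_lit 135000) (nat_lit 100) = true := by decide +kernel

theorem c135_1 : chk (nat_lit 135100) (nat_lit 100) = true := by decide +kernel

theorem c135_2 : chk (nat_lit 135200) (nat_lit 100) = true := by decide +kernel

theorem c135_3 : chk (nat_lit 135300) (nat_lit 100) = true := by decide +kernel

theorem c135_4 : chk (nat_lit 135400) (nat_lit 100) = true := by decide +kernel

theorem c135_5 : chk (nat_lit 135500) (nat_lit 100) = true := by decide +kernel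

theorem c135_6 : chk (nat_lit 135600) (nat_lit 100) = true := by decide +kernel

theorem c135_7 : chk (nat_lit 135700) (nat_lit 100) = true := by decide +kernel

theorem c135_8 : chk (nat_lit 135800) (nat_lit 100) = true := by decide +kernel

theorem c135_9 : chk (nat_lit 135900) (nat_lit 100) = true := by decide +kernel


theorem all135 : ∀ i, 135000 ≤ i → i < 136000 → Good i := (good_chain (good_chain (good_chain (good_chain (good_chain (good_chain (good_chain (good_chain (good_chain (good_of_chk c135_0) (good_of_chk c135_1)) (good_of_chk c135_2)) (good_of_chk c135_3)) (good_of_chk c135_4)) (good_of_chk c135_5)) (good_of_chk c135_6)) (good_of_chk c135_7)) (good_of_chk c135_8)) (good_of_chk c135_9))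


end Vale.Agent.P045.R6
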