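import Vale.Agent.P045.R6.Rows

/-! Checks of the rows of a certificate. -/

namespace Vale.Agent.P045.R6

set_option maxRecDepth 100000

theorem c136_0 : chk (nat_lit 136000) (nat_lit 100) = true := by decide +kernel

theorem c136_1 : chk (nat_lit 136100) (nat_lit 100) = true := by decide +kernel

theorem c136_2 : chk (nat_lit 136200) (nat_lit 100) = true := by decide +kernel

theorem c136_3 : chk (nat_lit 136300) (nat_lit 100) = true := by decide +kernel

theorem c136_4 : chk (nat_lit 136400) (nat_lit 100) = true := by decide +kernel

theorem c136_5 : chk (nat_lit 136500) (nat_lit 100) = true := by decide +kernel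

theorem c136_6 : chk (nat_lit 136600) (nat_lit 100) = true := by decide +kernel

theorem c136_7 : chk (nat_lit 136700) (nat_lit 100) = true := by decide +kernel

theorem c136_8 : chk (nat_lit 136800) (nat_lit 100) = true := by decide +kernel

theorem c136_9 : chk (nat_lit 136900) (nat_lit 100) = true := by decide +kernel


theorem all136 : ∀ i, 136000 ≤ i → i < 137000 → Good i := (good_chain (good_chain (good_chain (good_chain (good_chain (good_chain (good_chain (good_chain (good_chain (good_of_chk c136_0) (good_of_chk c136_1)) (good_of_chk c136_2)) (good_of_chk c136_3)) (good_of_chk c136_4)) (good_of_chk c136_5)) (good_of_chk c136_6)) (good_of_chk c136_7)) (good_of_chk c136_8)) (good_of_chk c136_9))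


end Vale.Agent.P045.R6
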