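import Vale.Agent.P045.R6.Rows

/-! Checks of the rows of a certificate. -/

namespace Vale.Agent.P045.R6

set_option maxRecDepth 100000

theorem c137_0 : chk (nat_lit 137000) (nat_lit 100) = true := by decide +kernel

theorem c137_1 : chk (nat_lit 137100) (nat_lit 100) = true := by decide +kernel

theorem c137_2 : chk (nat_lit 137200) (nat_lit 100) = true := by decide +kernel

theorem c137_3 : chk (nat_lit 137300) (nat_lit 100) = true := by decide +kernel

theorem c137_4 : chk (nat_lit 137400) (nat_lit 100) = true := by decide +kernel

theorem c137_5 : chk (nat_lit 137500) (nat_lit 100) = true := by decide +kernel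

theorem c137_6 : chk (nat_lit 137600) (nat_lit 100) = true := by decide +kernel

theorem c137_7 : chk (nat_lit 137700) (nat_lit 100) = true := by decide +kernel

theorem c137_8 : chk (nat_lit 137800) (nat_lit 100) = true := by decide +kernel

theorem c137_9 : chk (nat_lit 137900) (nat_lit 100) = true := by decide +kernel


theorem all137 : ∀ i, 137000 ≤ i → i < 138000 → Good i := (good_chain (good_chain (good_chain (good_chain (good_chain (good_chain (good_chain (good_chain (good_chain (good_of_chk c137_0) (good_of_chk c137_1)) (good_of_chk c137_2)) (good_of_chk c137_3)) (good_of_chk c137_4)) (good_of_chk c137_5)) (good_of_chk c137_6)) (good_of_chk c137_7)) (good_of_chk c137_8)) (good_of_chk c137_9))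


end Vale.Agent.P045.R6
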