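import Vale.Agent.P045.R6.Rows

/-! Checks of the rows of a certificate. -/

namespace Vale.Agent.P045.R6

set_option maxRecDepth 100000

theorem c138_0 : chk (nat_lit 138000) (nat_lit 100) = true := by decide +kernel

theorem c138_1 : chk (nat_lit 138100) (nat_lit 100) = true := by decide +kernel

theorem c138_2 : chk (nat_lit 138200) (nat_lit 100) = true := by decide +kernel

theorem c138_3 : chk (nat_lit 138300) (nat_lit 100) = true := by decide +kernel

theorem c138_4 : chk (nat_lit 138400) (nat_lit 100) = true := by decide +kernel

theorem c138_5 : chk (nat_lit 138500) (nat_lit 100) = true := by decide +kernel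

theorem c138_6 : chk (nat_lit 138600) (nat_lit 100) = true := by decide +kernel

theorem c138_7 : chk (nat_lit 138700) (nat_lit 100) = true := by decide +kernel

theorem c138_8 : chk (nat_lit 138800) (nat_lit 100) = true := by decide +kernel

theorem c138_9 : chk (nat_lit 138900) (nat_lit 100) = true := by decide +kernel


theorem all138 : ∀ i, 138000 ≤ i → i < 139000 → Good i := (good_chain (good_chain (good_chain (good_chain (good_chain (good_chain (good_chain (good_chain (good_chain (good_of_chk c138_0) (good_of_chk c138_1)) (good_of_chk c138_2)) (good_of_chk c138_3)) (good_of_chk c138_4)) (good_of_chk c138_5)) (good_of_chk c138_6)) (good_of_chk c138_7)) (good_of_chk c138_8)) (good_of_chk c138_9))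


end Vale.Agent.P045.R6
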