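import Vale.Agent.P045.R6.Rows

/-! Checks of the rows of a certificate. -/

namespace Vale.Agent.P045.R6

set_option maxRecDepth 100000

theorem c139_0 : chk (nat_lit 139000) (nat_lit 100) = true := by decide +kernel

theorem c139_1 : chk (nat_lit 139100) (nat_lit 100) = true := by decide +kernel

theorem c139_2 : chk (nat_lit 139200) (nat_lit 100) = true := by decide +kernel

theorem c139_3 : chk (nat_lit 139300) (nat_lit 100) = true := by decide +kernel

theorem c139_4 : chk (nat_lit 139400) (nat_lit 100) = true := by decide +kernel

theorem c139_5 : chk (nat_lit 139500) (nat_lit 100) = true := by decide +kernel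

theorem c139_6 : chk (nat_lit 139600) (nat_lit 100) = true := by decide +kernel

theorem c139_7 : chk (nat_lit 139700) (nat_lit 100) = true := by decide +kernel

theorem c139_8 : chk (nat_lit 139800) (nat_lit 100) = true := by decide +kernel

theorem c139_9 : chk (nat_lit 139900) (nat_lit 100) = true := by decide +kernel


theorem all139 : ∀ i, 139000 ≤ i → i < 140000 → Good i := (good_chain (good_chain (good_chain (good_chain (good_chain (good_chain (good_chain (good_chain (good_chain (good_of_chk c139_0) (good_of_chk c139_1)) (good_of_chk c139_2)) (good_of_chk c139_3)) (good_of_chk c139_4)) (good_of_chk c139_5)) (good_of_chk c139_6)) (good_of_chk c139_7)) (good_of_chk c139_8)) (good_of_chk c139_9))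


end Vale.Agent.P045.R6
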