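import Vale.Agent.P045.R6.Rows

/-! Checks of the rows of a certificate. -/

namespace Vale.Agent.P045.R6

set_option maxRecDepth 100000

theorem c14_0 : chk (nat_lit 14000) (nat_lit 100) = true := by decide +kernel

theorem c14_1 : chk (nat_lit 14100) (nat_lit 100) = true := by decide +kernel

theorem c14_2 : chk (nat_lit 14200) (nat_lit 100) = true := by decide +kernel

theorem c14_3 : chk (nat_lit 14300) (nat_lit 100) = true := by decide +kernel

theorem c14_4 : chk (nat_lit 14400) (nat_lit 100) = true := by decide +kernel

theorem c14_5 : chk (nat_lit 14500) (nat_lit 100) = true := by decide +kernel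

theorem c14_6 : chk (nat_lit 14600) (nat_lit 100) = true := by decide +kernel

theorem c14_7 : chk (nat_lit 14700) (nat_lit 100) = true := by decide +kernel

theorem c14_8 : chk (nat_lit 14800) (nat_lit 100) = true := by decide +kernel

theorem c14_9 : chk (nat_lit 14900) (nat_lit 100) = true := by decide +kernel


theorem all14 : ∀ i, 14000 ≤ i → i < 15000 → Good i := (good_chain (good_chain (good_chain (good_chain (good_chain (good_chain (good_chain (good_chain (good_chain (good_of_chk c14_0) (good_of_chk c14_1)) (good_of_chk c14_2)) (good_of_chk c14_3)) (good_of_chk c14_4)) (good_of_chk c14_5)) (good_of_chk c14_6)) (good_of_chk c14_7)) (good_of_chk c14_8)) (good_of_chk c14_9))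


end Vale.Agent.P045.R6
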