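import Vale.Agent.P045.R6.Rows

/-! Checks of the rows of a certificate. -/

namespace Vale.Agent.P045.R6

set_option maxRecDepth 100000

theorem c140_0 : chk (nat_lit 140000) (nat_lit 100) = true := by decide +kernel

theorem c140_1 : chk (nat_lit 140100) (nat_lit 100) = true := by decide +kernel

theorem c140_2 : chk (nat_lit 140200) (nat_lit 100) = true := by decide +kernel

theorem c140_3 : chk (nat_lit 140300) (nat_lit 100) = true := by decide +kernel

theorem c140_4 : chk (nat_lit 140400) (nat_lit 100) = true := by decide +kernel

theorem c140_5 : chk (nat_lit 140500) (nat_lit 100) = true := by decide +kernel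

theorem c140_6 : chk (nat_lit 140600) (nat_lit 100) = true := by decide +kernel

theorem c140_7 : chk (nat_lit 140700) (nat_lit 100) = true := by decide +kernel

theorem c140_8 : chk (nat_lit 140800) (nat_lit 100) = true := by decide +kernel

theorem c140_9 : chk (nat_lit 140900) (nat_lit 100) = true := by decide +kernel


theorem all140 : ∀ i, 140000 ≤ i → i < 141000 → Good i := (good_chain (good_chain (good_chain (good_chain (good_chain (good_chain (good_chain (good_chain (good_chain (good_of_chk c140_0) (good_of_chk c140_1)) (good_of_chk c140_2)) (good_of_chk c140_3)) (good_of_chk c140_4)) (good_of_chk c140_5)) (good_of_chk c140_6)) (good_of_chk c140_7)) (good_of_chk c140_8)) (good_of_chk c140_9))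


end Vale.Agent.P045.R6
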