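import Vale.Agent.P045.R6.Rows

/-! Checks of the rows of a certificate. -/

namespace Vale.Agent.P045.R6

set_option maxRecDepth 100000

theorem c141_0 : chk (nat_lit 141000) (nat_lit 100) = true := by decide +kernel

theorem c141_1 : chk (nat_lit 141100) (nat_lit 100) = true := by decide +kernel

theorem c141_2 : chk (nat_lit 141200) (nat_lit 100) = true := by decide +kernel

theorem c141_3 : chk (nat_lit 141300) (nat_lit 100) = true := by decide +kernel

theorem c141_4 : chk (nat_lit 141400) (nat_lit 100) = true := by decide +kernel

theorem c141_5 : chk (nat_lit 141500) (nat_lit 100) = true := by decide +kernel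

theorem c141_6 : chk (nat_lit 141600) (nat_lit 100) = true := by decide +kernel

theorem c141_7 : chk (nat_lit 141700) (nat_lit 100) = true := by decide +kernel

theorem c141_8 : chk (nat_lit 141800) (nat_lit 100) = true := by decide +kernel

theorem c141_9 : chk (nat_lit 141900) (nat_lit 100) = true := by decide +kernel


theorem all141 : ∀ i, 141000 ≤ i → i < 142000 → Good i := (good_chain (good_chain (good_chain (good_chain (good_chain (good_chain (good_chain (good_chain (good_chain (good_of_chk c141_0) (good_of_chk c141_1)) (good_of_chk c141_2)) (good_of_chk c141_3)) (good_of_chk c141_4)) (good_of_chk c141_5)) (good_of_chk c141_6)) (good_of_chk c141_7)) (good_of_chk c141_8)) (good_of_chk c141_9))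


end Vale.Agent.P045.R6
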