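import Vale.Agent.P045.R6.Rows

/-! Checks of the rows of a certificate. -/

namespace Vale.Agent.P045.R6

set_option maxRecDepth 100000

theorem c142_0 : chk (nat_lit 142000) (nat_lit 100) = true := by decide +kernel

theorem c142_1 : chk (nat_lit 142100) (nat_lit 100) = true := by decide +kernel

theorem c142_2 : chk (nat_lit 142200) (nat_lit 100) = true := by decide +kernel

theorem c142_3 : chk (nat_lit 142300) (nat_lit 100) = true := by decide +kernel

theorem c142_4 : chk (nat_lit 142400) (nat_lit 100) = true := by decide +kernel

theorem c142_5 : chk (nat_lit 142500) (nat_lit 100) = true := by decide +kernel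

theorem c142_6 : chk (nat_lit 142600) (nat_lit 100) = true := by decide +kernel

theorem c142_7 : chk (nat_lit 142700) (nat_lit 100) = true := by decide +kernel

theorem c142_8 : chk (nat_lit 142800) (nat_lit 100) = true := by decide +kernel

theorem c142_9 : chk (nat_lit 142900) (nat_lit 100) = true := by decide +kernel


theorem all142 : ∀ i, 142000 ≤ i → i < 143000 → Good i := (good_chain (good_chain (good_chain (good_chain (good_chain (good_chain (good_chain (good_chain (good_chain (good_of_chk c142_0) (good_of_chk c142_1)) (good_of_chk c142_2)) (good_of_chk c142_3)) (good_of_chk c142_4)) (good_of_chk c142_5)) (good_of_chk c142_6)) (good_of_chk c142_7)) (good_of_chk c142_8)) (good_of_chk c142_9))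


end Vale.Agent.P045.R6
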