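import Vale.Agent.P045.R6.Rows

/-! Checks of the rows of a certificate. -/

namespace Vale.Agent.P045.R6

set_option maxRecDepth 100000

theorem c143_0 : chk (nat_lit 143000) (nat_lit 100) = true := by decide +kernel

theorem c143_1 : chk (nat_lit 143100) (nat_lit 100) = true := by decide +kernel

theorem c143_2 : chk (nat_lit 143200) (nat_lit 100) = true := by decide +kernel

theorem c143_3 : chk (nat_lit 143300) (nat_lit 100) = true := by decide +kernel

theorem c143_4 : chk (nat_lit 143400) (nat_lit 100) = true := by decide +kernel

theorem c143_5 : chk (nat_lit 143500) (nat_lit 100) = true := by decide +kernel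

theorem c143_6 : chk (nat_lit 143600) (nat_lit 100) = true := by decide +kernel

theorem c143_7 : chk (nat_lit 143700) (nat_lit 100) = true := by decide +kernel

theorem c143_8 : chk (nat_lit 143800) (nat_lit 100) = true := by decide +kernel

theorem c143_9 : chk (nat_lit 143900) (nat_lit 100) = true := by decide +kernel


theorem all143 : ∀ i, 143000 ≤ i → i < 144000 → Good i := (good_chain (good_chain (good_chain (good_chain (good_chain (good_chain (good_chain (good_chain (good_chain (good_of_chk c143_0) (good_of_chk c143_1)) (good_of_chk c143_2)) (good_of_chk c143_3)) (good_of_chk c143_4)) (good_of_chk c143_5)) (good_of_chk c143_6)) (good_of_chk c143_7)) (good_of_chk c143_8)) (good_of_chk c143_9))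


end Vale.Agent.P045.R6
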