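import Vale.Agent.P045.R6.Rows

/-! Checks of the rows of a certificate. -/

namespace Vale.Agent.P045.R6

set_option maxRecDepth 100000

theorem c144_0 : chk (nat_lit 144000) (nat_lit 100) = true := by decide +kernel

theorem c144_1 : chk (nat_lit 144100) (nat_lit 100) = true := by decide +kernel

theorem c144_2 : chk (nat_lit 144200) (nat_lit 100) = true := by decide +kernel

theorem c144_3 : chk (nat_lit 144300) (nat_lit 100) = true := by decide +kernel

theorem c144_4 : chk (nat_lit 144400) (nat_lit 100) = true := by decide +kernel

theorem c144_5 : chk (nat_lit 144500) (nat_lit 100) = true := by decide +kernel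

theorem c144_6 : chk (nat_lit 144600) (nat_lit 100) = true := by decide +kernel

theorem c144_7 : chk (nat_lit 144700) (nat_lit 100) = true := by decide +kernel

theorem c144_8 : chk (nat_lit 144800) (nat_lit 100) = true := by decide +kernel

theorem c144_9 : chk (nat_lit 144900) (nat_lit 100) = true := by decide +kernel


theorem all144 : ∀ i, 144000 ≤ i → i < 145000 → Good i := (good_chain (good_chain (good_chain (good_chain (good_chain (good_chain (good_chain (good_chain (good_chain (good_of_chk c144_0) (good_of_chk c144_1)) (good_of_chk c144_2)) (good_of_chk c144_3)) (good_of_chk c144_4)) (good_of_chk c144_5)) (good_of_chk c144_6)) (good_of_chk c144_7)) (good_of_chk c144_8)) (good_of_chk c144_9))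


end Vale.Agent.P045.R6
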