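import Vale.Agent.P045.R6.Rows

/-! Checks of the rows of a certificate. -/

namespace Vale.Agent.P045.R6

set_option maxRecDepth 100000

theorem c145_0 : chk (nat_lit 145000) (nat_lit 100) = true := by decide +kernel

theorem c145_1 : chk (nat_lit 145100) (nat_lit 100) = true := by decide +kernel

theorem c145_2 : chk (nat_lit 145200) (nat_lit 100) = true := by decide +kernel

theorem c145_3 : chk (nat_lit 145300) (nat_lit 100) = true := by decide +kernel

theorem c145_4 : chk (nat_lit 145400) (nat_lit 100) = true := by decide +kernel

theorem c145_5 : chk (nat_lit 145500) (nat_lit 100) = true := by decide +kernel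

theorem c145_6 : chk (nat_lit 145600) (nat_lit 100) = true := by decide +kernel

theorem c145_7 : chk (nat_lit 145700) (nat_lit 100) = true := by decide +kernel

theorem c145_8 : chk (nat_lit 145800) (nat_lit 100) = true := by decide +kernel

theorem c145_9 : chk (nat_lit 145900) (nat_lit 100) = true := by decide +kernel


theorem all145 : ∀ i, 145000 ≤ i → i < 146000 → Good i := (good_chain (good_chain (good_chain (good_chain (good_chain (good_chain (good_chain (good_chain (good_chain (good_of_chk c145_0) (good_of_chk c145_1)) (good_of_chk c145_2)) (good_of_chk c145_3)) (good_of_chk c145_4)) (good_of_chk c145_5)) (good_of_chk c145_6)) (good_of_chk c145_7)) (good_of_chk c145_8)) (good_of_chk c145_9))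


end Vale.Agent.P045.R6
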