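import Vale.Agent.P045.R6.Rows

/-! Checks of the rows of a certificate. -/

namespace Vale.Agent.P045.R6

set_option maxRecDepth 100000

theorem c146_0 : chk (nat_lit 146000) (nat_lit 100) = true := by decide +kernel

theorem c146_1 : chk (nat_lit 146100) (nat_lit 100) = true := by decide +kernel

theorem c146_2 : chk (nat_lit 146200) (nat_lit 100) = true := by decide +kernel

theorem c146_3 : chk (nat_lit 146300) (nat_lit 100) = true := by decide +kernel

theorem c146_4 : chk (nat_lit 146400) (nat_lit 100) = true := by decide +kernel

theorem c146_5 : chk (nat_lit 146500) (nat_lit 100) = true := by decide +kernel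

theorem c146_6 : chk (nat_lit 146600) (nat_lit 100) = true := by decide +kernel

theorem c146_7 : chk (nat_lit 146700) (nat_lit 100) = true := by decide +kernel

theorem c146_8 : chk (nat_lit 146800) (nat_lit 100) = true := by decide +kernel

theorem c146_9 : chk (nat_lit 146900) (nat_lit 100) = true := by decide +kernel


theorem all146 : ∀ i, 146000 ≤ i → i < 147000 → Good i := (good_chain (good_chain (good_chain (good_chain (good_chain (good_chain (good_chain (good_chain (good_chain (good_of_chk c146_0) (good_of_chk c146_1)) (good_of_chk c146_2)) (good_of_chk c146_3)) (good_of_chk c146_4)) (good_of_chk c146_5)) (good_of_chk c146_6)) (good_of_chk c146_7)) (good_of_chk c146_8)) (good_of_chk c146_9))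


end Vale.Agent.P045.R6
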