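import Vale.Agent.P045.R6.Rows

/-! Checks of the rows of a certificate. -/

namespace Vale.Agent.P045.R6

set_option maxRecDepth 100000

theorem c147_0 : chk (nat_lit 147000) (nat_lit 100) = true := by decide +kernel

theorem c147_1 : chk (nat_lit 147100) (nat_lit 100) = true := by decide +kernel

theorem c147_2 : chk (nat_lit 147200) (nat_lit 100) = true := by decide +kernel

theorem c147_3 : chk (nat_lit 147300) (nat_lit 100) = true := by decide +kernel

theorem c147_4 : chk (nat_lit 147400) (nat_lit 100) = true := by decide +kernel

theorem c147_5 : chk (nat_lit 147500) (nat_lit 100) = true := by decide +kernel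

theorem c147_6 : chk (nat_lit 147600) (nat_lit 100) = true := by decide +kernel

theorem c147_7 : chk (nat_lit 147700) (nat_lit 100) = true := by decide +kernel

theorem c147_8 : chk (nat_lit 147800) (nat_lit 100) = true := by decide +kernel

theorem c147_9 : chk (nat_lit 147900) (nat_lit 100) = true := by decide +kernel


theorem all147 : ∀ i, 147000 ≤ i → i < 148000 → Good i := (good_chain (good_chain (good_chain (good_chain (good_chain (good_chain (good_chain (good_chain (good_chain (good_of_chk c147_0) (good_of_chk c147_1)) (good_of_chk c147_2)) (good_of_chk c147_3)) (good_of_chk c147_4)) (good_of_chk c147_5)) (good_of_chk c147_6)) (good_of_chk c147_7)) (good_of_chk c147_8)) (good_of_chk c147_9))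


end Vale.Agent.P045.R6
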