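import Vale.Agent.P045.R6.Rows

/-! Checks of the rows of a certificate. -/

namespace Vale.Agent.P045.R6

set_option maxRecDepth 100000

theorem c148_0 : chk (nat_lit 148000) (nat_lit 100) = true := by decide +kernel

theorem c148_1 : chk (nat_lit 148100) (nat_lit 100) = true := by decide +kernel

theorem c148_2 : chk (nat_lit 148200) (nat_lit 100) = true := by decide +kernel

theorem c148_3 : chk (nat_lit 148300) (nat_lit 100) = true := by decide +kernel

theorem c148_4 : chk (nat_lit 148400) (nat_lit 100) = true := by decide +kernel

theorem c148_5 : chk (nat_lit 148500) (nat_lit 100) = true := by decide +kernel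

theorem c148_6 : chk (nat_lit 148600) (nat_lit 100) = true := by decide +kernel

theorem c148_7 : chk (nat_lit 148700) (nat_lit 100) = true := by decide +kernel

theorem c148_8 : chk (nat_lit 148800) (nat_lit 100) = true := by decide +kernel

theorem c148_9 : chk (nat_lit 148900) (nat_lit 100) = true := by decide +kernel


theorem all148 : ∀ i, 148000 ≤ i → i < 149000 → Good i := (good_chain (good_chain (good_chain (good_chain (good_chain (good_chain (good_chain (good_chain (good_chain (good_of_chk c148_0) (good_of_chk c148_1)) (good_of_chk c148_2)) (good_of_chk c148_3)) (good_of_chk c148_4)) (good_of_chk c148_5)) (good_of_chk c148_6)) (good_of_chk c148_7)) (good_of_chk c148_8)) (good_of_chk c148_9))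


end Vale.Agent.P045.R6
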