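import Vale.Agent.P045.R6.Rows

/-! Checks of the rows of a certificate. -/

namespace Vale.Agent.P045.R6

set_option maxRecDepth 100000

theorem c149_0 : chk (nat_lit 149000) (nat_lit 100) = true := by decide +kernel

theorem c149_1 : chk (nat_lit 149100) (nat_lit 100) = true := by decide +kernel

theorem c149_2 : chk (nat_lit 149200) (nat_lit 100) = true := by decide +kernel

theorem c149_3 : chk (nat_lit 149300) (nat_lit 100) = true := by decide +kernel

theorem c149_4 : chk (nat_lit 149400) (nat_lit 100) = true := by decide +kernel

theorem c149_5 : chk (nat_lit 149500) (nat_lit 100) = true := by decide +kernel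

theorem c149_6 : chk (nat_lit 149600) (nat_lit 100) = true := by decide +kernel

theorem c149_7 : chk (nat_lit 149700) (nat_lit 100) = true := by decide +kernel

theorem c149_8 : chk (nat_lit 149800) (nat_lit 100) = true := by decide +kernel

theorem c149_9 : chk (nat_lit 149900) (nat_lit 100) = true := by decide +kernel


theorem all149 : ∀ i, 149000 ≤ i → i < 150000 → Good i := (good_chain (good_chain (good_chain (good_chain (good_chain (good_chain (good_chain (good_chain (good_chain (good_of_chk c149_0) (good_of_chk c149_1)) (good_of_chk c149_2)) (good_of_chk c149_3)) (good_of_chk c149_4)) (good_of_chk c149_5)) (good_of_chk c149_6)) (good_of_chk c149_7)) (good_of_chk c149_8)) (good_of_chk c149_9))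


end Vale.Agent.P045.R6
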