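import Vale.Agent.P045.R6.Rows

/-! Checks of the rows of a certificate. -/

namespace Vale.Agent.P045.R6

set_option maxRecDepth 100000

theorem c15_0 : chk (nat_lit 15000) (nat_lit 100) = true := by decide +kernel

theorem c15_1 : chk (nat_lit 15100) (nat_lit 100) = true := by decide +kernel

theorem c15_2 : chk (nat_lit 15200) (nat_lit 100) = true := by decide +kernel

theorem c15_3 : chk (nat_lit 15300) (nat_lit 100) = true := by decide +kernel

theorem c15_4 : chk (nat_lit 15400) (nat_lit 100) = true := by decide +kernel

theorem c15_5 : chk (nat_lit 15500) (nat_lit 100) = true := by decide +kernel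

theorem c15_6 : chk (nat_lit 15600) (nat_lit 100) = true := by decide +kernel

theorem c15_7 : chk (nat_lit 15700) (nat_lit 100) = true := by decide +kernel

theorem c15_8 : chk (nat_lit 15800) (nat_lit 100) = true := by decide +kernel

theorem c15_9 : chk (nat_lit 15900) (nat_lit 100) = true := by decide +kernel


theorem all15 : ∀ i, 15000 ≤ i → i < 16000 → Good i := (good_chain (good_chain (good_chain (good_chain (good_chain (good_chain (good_chain (good_chain (good_chain (good_of_chk c15_0) (good_of_chk c15_1)) (good_of_chk c15_2)) (good_of_chk c15_3)) (good_of_chk c15_4)) (good_of_chk c15_5)) (good_of_chk c15_6)) (good_of_chk c15_7)) (good_of_chk c15_8)) (good_of_chk c15_9))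


end Vale.Agent.P045.R6
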