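import Vale.Agent.P045.R6.Rows

/-! Checks of the rows of a certificate. -/

namespace Vale.Agent.P045.R6

set_option maxRecDepth 100000

theorem c150_0 : chk (nat_lit 150000) (nat_lit 100) = true := by decide +kernel

theorem c150_1 : chk (nat_lit 150100) (nat_lit 100) = true := by decide +kernel

theorem c150_2 : chk (nat_lit 150200) (nat_lit 100) = true := by decide +kernel

theorem c150_3 : chk (nat_lit 150300) (nat_lit 100) = true := by decide +kernel

theorem c150_4 : chk (nat_lit 150400) (nat_lit 100) = true := by decide +kernel

theorem c150_5 : chk (nat_lit 150500) (nat_lit 100) = true := by decide +kernel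

theorem c150_6 : chk (nat_lit 150600) (nat_lit 100) = true := by decide +kernel

theorem c150_7 : chk (nat_lit 150700) (nat_lit 100) = true := by decide +kernel

theorem c150_8 : chk (nat_lit 150800) (nat_lit 100) = true := by decide +kernel

theorem c150_9 : chk (nat_lit 150900) (nat_lit 100) = true := by decide +kernel


theorem all150 : ∀ i, 150000 ≤ i → i < 151000 → Good i := (good_chain (good_chain (good_chain (good_chain (good_chain (good_chain (good_chain (good_chain (good_chain (good_of_chk c150_0) (good_of_chk c150_1)) (good_of_chk c150_2)) (good_of_chk c150_3)) (good_of_chk c150_4)) (good_of_chk c150_5)) (good_of_chk c150_6)) (good_of_chk c150_7)) (good_of_chk c150_8)) (good_of_chk c150_9))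


end Vale.Agent.P045.R6
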