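import Vale.Agent.P045.R6.Rows

/-! Checks of the rows of a certificate. -/

namespace Vale.Agent.P045.R6

set_option maxRecDepth 100000

theorem c151_0 : chk (nat_lit 151000) (nat_lit 100) = true := by decide +kernel

theorem c151_1 : chk (nat_lit 151100) (nat_lit 100) = true := by decide +kernel

theorem c151_2 : chk (nat_lit 151200) (nat_lit 100) = true := by decide +kernel

theorem c151_3 : chk (nat_lit 151300) (nat_lit 100) = true := by decide +kernel

theorem c151_4 : chk (nat_lit 151400) (nat_lit 100) = true := by decide +kernel

theorem c151_5 : chk (nat_lit 151500) (nat_lit 100) = true := by decide +kernel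

theorem c151_6 : chk (nat_lit 151600) (nat_lit 100) = true := by decide +kernel

theorem c151_7 : chk (nat_lit 151700) (nat_lit 100) = true := by decide +kernel

theorem c151_8 : chk (nat_lit 151800) (nat_lit 100) = true := by decide +kernel

theorem c151_9 : chk (nat_lit 151900) (nat_lit 100) = true := by decide +kernel


theorem all151 : ∀ i, 151000 ≤ i → i < 152000 → Good i := (good_chain (good_chain (good_chain (good_chain (good_chain (good_chain (good_chain (good_chain (good_chain (good_of_chk c151_0) (good_of_chk c151_1)) (good_of_chk c151_2)) (good_of_chk c151_3)) (good_of_chk c151_4)) (good_of_chk c151_5)) (good_of_chk c151_6)) (good_of_chk c151_7)) (good_of_chk c151_8)) (good_of_chk c151_9))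


end Vale.Agent.P045.R6
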