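import Vale.Agent.P045.R6.Rows

/-! Checks of the rows of a certificate. -/

namespace Vale.Agent.P045.R6

set_option maxRecDepth 100000

theorem c152_0 : chk (nat_lit 152000) (nat_lit 100) = true := by decide +kernel

theorem c152_1 : chk (nat_lit 152100) (nat_lit 100) = true := by decide +kernel

theorem c152_2 : chk (nat_lit 152200) (nat_lit 100) = true := by decide +kernel

theorem c152_3 : chk (nat_lit 152300) (nat_lit 100) = true := by decide +kernel

theorem c152_4 : chk (nat_lit 152400) (nat_lit 100) = true := by decide +kernel

theorem c152_5 : chk (nat_lit 152500) (nat_lit 100) = true := by decide +kernel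

theorem c152_6 : chk (nat_lit 152600) (nat_lit 100) = true := by decide +kernel

theorem c152_7 : chk (nat_lit 152700) (nat_lit 100) = true := by decide +kernel

theorem c152_8 : chk (nat_lit 152800) (nat_lit 100) = true := by decide +kernel

theorem c152_9 : chk (nat_lit 152900) (nat_lit 100) = true := by decide +kernel


theorem all152 : ∀ i, 152000 ≤ i → i < 153000 → Good i := (good_chain (good_chain (good_chain (good_chain (good_chain (good_chain (good_chain (good_chain (good_chain (good_of_chk c152_0) (good_of_chk c152_1)) (good_of_chk c152_2)) (good_of_chk c152_3)) (good_of_chk c152_4)) (good_of_chk c152_5)) (good_of_chk c152_6)) (good_of_chk c152_7)) (good_of_chk c152_8)) (good_of_chk c152_9))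


end Vale.Agent.P045.R6
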