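import Vale.Agent.P045.R6.Rows

/-! Checks of the rows of a certificate. -/

namespace Vale.Agent.P045.R6

set_option maxRecDepth 100000

theorem c153_0 : chk (nat_lit 153000) (nat_lit 100) = true := by decide +kernel

theorem c153_1 : chk (nat_lit 153100) (nat_lit 100) = true := by decide +kernel

theorem c153_2 : chk (nat_lit 153200) (nat_lit 100) = true := by decide +kernel

theorem c153_3 : chk (nat_lit 153300) (nat_lit 100) = true := by decide +kernel

theorem c153_4 : chk (nat_lit 153400) (nat_lit 100) = true := by decide +kernel

theorem c153_5 : chk (nat_lit 153500) (nat_lit 100) = true := by decide +kernel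

theorem c153_6 : chk (nat_lit 153600) (nat_lit 100) = true := by decide +kernel

theorem c153_7 : chk (nat_lit 153700) (nat_lit 100) = true := by decide +kernel

theorem c153_8 : chk (nat_lit 153800) (nat_lit 100) = true := by decide +kernel

theorem c153_9 : chk (nat_lit 153900) (nat_lit 100) = true := by decide +kernel


theorem all153 : ∀ i, 153000 ≤ i → i < 154000 → Good i := (good_chain (good_chain (good_chain (good_chain (good_chain (good_chain (good_chain (good_chain (good_chain (good_of_chk c153_0) (good_of_chk c153_1)) (good_of_chk c153_2)) (good_of_chk c153_3)) (good_of_chk c153_4)) (good_of_chk c153_5)) (good_of_chk c153_6)) (good_of_chk c153_7)) (good_of_chk c153_8)) (good_of_chk c153_9))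


end Vale.Agent.P045.R6
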