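import Vale.Agent.P045.R6.Rows

/-! Checks of the rows of a certificate. -/

namespace Vale.Agent.P045.R6

set_option maxRecDepth 100000

theorem c154_0 : chk (nat_lit 154000) (nat_lit 100) = true := by decide +kernel

theorem c154_1 : chk (nat_lit 154100) (nat_lit 100) = true := by decide +kernel

theorem c154_2 : chk (nat_lit 154200) (nat_lit 100) = true := by decide +kernel

theorem c154_3 : chk (nat_lit 154300) (nat_lit 100) = true := by decide +kernel

theorem c154_4 : chk (nat_lit 154400) (nat_lit 100) = true := by decide +kernel

theorem c154_5 : chk (nat_lit 154500) (nat_lit 100) = true := by decide +kernel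

theorem c154_6 : chk (nat_lit 154600) (nat_lit 100) = true := by decide +kernel

theorem c154_7 : chk (nat_lit 154700) (nat_lit 100) = true := by decide +kernel

theorem c154_8 : chk (nat_lit 154800) (nat_lit 100) = true := by decide +kernel

theorem c154_9 : chk (nat_lit 154900) (nat_lit 100) = true := by decide +kernel


theorem all154 : ∀ i, 154000 ≤ i → i < 155000 → Good i := (good_chain (good_chain (good_chain (good_chain (good_chain (good_chain (good_chain (good_chain (good_chain (good_of_chk c154_0) (good_of_chk c154_1)) (good_of_chk c154_2)) (good_of_chk c154_3)) (good_of_chk c154_4)) (good_of_chk c154_5)) (good_of_chk c154_6)) (good_of_chk c154_7)) (good_of_chk c154_8)) (good_of_chk c154_9))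


end Vale.Agent.P045.R6
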