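import Vale.Agent.P045.R6.Rows

/-! Checks of the rows of a certificate. -/

namespace Vale.Agent.P045.R6

set_option maxRecDepth 100000

theorem c155_0 : chk (nat_lit 155000) (nat_lit 100) = true := by decide +kernel

theorem c155_1 : chk (nat_lit 155100) (nat_lit 100) = true := by decide +kernel

theorem c155_2 : chk (nat_lit 155200) (nat_lit 100) = true := by decide +kernel

theorem c155_3 : chk (nat_lit 155300) (nat_lit 100) = true := by decide +kernel

theorem c155_4 : chk (nat_lit 155400) (nat_lit 100) = true := by decide +kernel

theorem c155_5 : chk (nat_lit 155500) (nat_lit 100) = true := by decide +kernel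

theorem c155_6 : chk (nat_lit 155600) (nat_lit 100) = true := by decide +kernel

theorem c155_7 : chk (nat_lit 155700) (nat_lit 100) = true := by decide +kernel

theorem c155_8 : chk (nat_lit 155800) (nat_lit 100) = true := by decide +kernel

theorem c155_9 : chk (nat_lit 155900) (nat_lit 100) = true := by decide +kernel


theorem all155 : ∀ i, 155000 ≤ i → i < 156000 → Good i := (good_chain (good_chain (good_chain (good_chain (good_chain (good_chain (good_chain (good_chain (good_chain (good_of_chk c155_0) (good_of_chk c155_1)) (good_of_chk c155_2)) (good_of_chk c155_3)) (good_of_chk c155_4)) (good_of_chk c155_5)) (good_of_chk c155_6)) (good_of_chk c155_7)) (good_of_chk c155_8)) (good_of_chk c155_9))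


end Vale.Agent.P045.R6
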