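import Vale.Agent.P045.R6.Rows

/-! Checks of the rows of a certificate. -/

namespace Vale.Agent.P045.R6

set_option maxRecDepth 100000

theorem c156_0 : chk (nat_lit 156000) (nat_lit 100) = true := by decide +kernel

theorem c156_1 : chk (nat_lit 156100) (nat_lit 100) = true := by decide +kernel

theorem c156_2 : chk (nat_lit 156200) (nat_lit 100) = true := by decide +kernel

theorem c156_3 : chk (nat_lit 156300) (nat_lit 100) = true := by decide +kernel

theorem c156_4 : chk (nat_lit 156400) (nat_lit 100) = true := by decide +kernel

theorem c156_5 : chk (nat_lit 156500) (nat_lit 100) = true := by decide +kernel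

theorem c156_6 : chk (nat_lit 156600) (nat_lit 100) = true := by decide +kernel

theorem c156_7 : chk (nat_lit 156700) (nat_lit 100) = true := by decide +kernel

theorem c156_8 : chk (nat_lit 156800) (nat_lit 100) = true := by decide +kernel

theorem c156_9 : chk (nat_lit 156900) (nat_lit 100) = true := by decide +kernel


theorem all156 : ∀ i, 156000 ≤ i → i < 157000 → Good i := (good_chain (good_chain (good_chain (good_chain (good_chain (good_chain (good_chain (good_chain (good_chain (good_of_chk c156_0) (good_of_chk c156_1)) (good_of_chk c156_2)) (good_of_chk c156_3)) (good_of_chk c156_4)) (good_of_chk c156_5)) (good_of_chk c156_6)) (good_of_chk c156_7)) (good_of_chk c156_8)) (good_of_chk c156_9))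


end Vale.Agent.P045.R6
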