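import Vale.Agent.P045.R6.Rows

/-! Checks of the rows of a certificate. -/

namespace Vale.Agent.P045.R6

set_option maxRecDepth 100000

theorem c157_0 : chk (nat_lit 157000) (nat_lit 100) = true := by decide +kernel

theorem c157_1 : chk (nat_lit 157100) (nat_lit 100) = true := by decide +kernel

theorem c157_2 : chk (nat_lit 157200) (nat_lit 100) = true := by decide +kernel

theorem c157_3 : chk (nat_lit 157300) (nat_lit 100) = true := by decide +kernel

theorem c157_4 : chk (nat_lit 157400) (nat_lit 100) = true := by decide +kernel

theorem c157_5 : chk (nat_lit 157500) (nat_lit 100) = true := by decide +kernel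

theorem c157_6 : chk (nat_lit 157600) (nat_lit 100) = true := by decide +kernel

theorem c157_7 : chk (nat_lit 157700) (nat_lit 100) = true := by decide +kernel

theorem c157_8 : chk (nat_lit 157800) (nat_lit 100) = true := by decide +kernel

theorem c157_9 : chk (nat_lit 157900) (nat_lit 100) = true := by decide +kernel


theorem all157 : ∀ i, 157000 ≤ i → i < 158000 → Good i := (good_chain (good_chain (good_chain (good_chain (good_chain (good_chain (good_chain (good_chain (good_chain (good_of_chk c157_0) (good_of_chk c157_1)) (good_of_chk c157_2)) (good_of_chk c157_3)) (good_of_chk c157_4)) (good_of_chk c157_5)) (good_of_chk c157_6)) (good_of_chk c157_7)) (good_of_chk c157_8)) (good_of_chk c157_9))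


end Vale.Agent.P045.R6
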