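import Vale.Agent.P045.R6.Rows

/-! Checks of the rows of a certificate. -/

namespace Vale.Agent.P045.R6

set_option maxRecDepth 100000

theorem c158_0 : chk (nat_lit 158000) (nat_lit 100) = true := by decide +kernel

theorem c158_1 : chk (nat_lit 158100) (nat_lit 100) = true := by decide +kernel

theorem c158_2 : chk (nat_lit 158200) (nat_lit 100) = true := by decide +kernel

theorem c158_3 : chk (nat_lit 158300) (nat_lit 100) = true := by decide +kernel

theorem c158_4 : chk (nat_lit 158400) (nat_lit 100) = true := by decide +kernel

theorem c158_5 : chk (nat_lit 158500) (nat_lit 100) = true := by decide +kernel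

theorem c158_6 : chk (nat_lit 158600) (nat_lit 100) = true := by decide +kernel

theorem c158_7 : chk (nat_lit 158700) (nat_lit 100) = true := by decide +kernel

theorem c158_8 : chk (nat_lit 158800) (nat_lit 100) = true := by decide +kernel

theorem c158_9 : chk (nat_lit 158900) (nat_lit 100) = true := by decide +kernel


theorem all158 : ∀ i, 158000 ≤ i → i < 159000 → Good i := (good_chain (good_chain (good_chain (good_chain (good_chain (good_chain (good_chain (good_chain (good_chain (good_of_chk c158_0) (good_of_chk c158_1)) (good_of_chk c158_2)) (good_of_chk c158_3)) (good_of_chk c158_4)) (good_of_chk c158_5)) (good_of_chk c158_6)) (good_of_chk c158_7)) (good_of_chk c158_8)) (good_of_chk c158_9))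


end Vale.Agent.P045.R6
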