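import Vale.Agent.P045.R6.Rows

/-! Checks of the rows of a certificate. -/

namespace Vale.Agent.P045.R6

set_option maxRecDepth 100000

theorem c159_0 : chk (nat_lit 159000) (nat_lit 100) = true := by decide +kernel

theorem c159_1 : chk (nat_lit 159100) (nat_lit 100) = true := by decide +kernel

theorem c159_2 : chk (nat_lit 159200) (nat_lit 100) = true := by decide +kernel

theorem c159_3 : chk (nat_lit 159300) (nat_lit 100) = true := by decide +kernel

theorem c159_4 : chk (nat_lit 159400) (nat_lit 100) = true := by decide +kernel

theorem c159_5 : chk (nat_lit 159500) (nat_lit 100) = true := by decide +kernel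

theorem c159_6 : chk (nat_lit 159600) (nat_lit 100) = true := by decide +kernel

theorem c159_7 : chk (nat_lit 159700) (nat_lit 100) = true := by decide +kernel

theorem c159_8 : chk (nat_lit 159800) (nat_lit 100) = true := by decide +kernel

theorem c159_9 : chk (nat_lit 159900) (nat_lit 100) = true := by decide +kernel


theorem all159 : ∀ i, 159000 ≤ i → i < 160000 → Good i := (good_chain (good_chain (good_chain (good_chain (good_chain (good_chain (good_chain (good_chain (good_chain (good_of_chk c159_0) (good_of_chk c159_1)) (good_of_chk c159_2)) (good_of_chk c159_3)) (good_of_chk c159_4)) (good_of_chk c159_5)) (good_of_chk c159_6)) (good_of_chk c159_7)) (good_of_chk c159_8)) (good_of_chk c159_9))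


end Vale.Agent.P045.R6
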