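import Vale.Agent.P045.R6.Rows

/-! Checks of the rows of a certificate. -/

namespace Vale.Agent.P045.R6

set_option maxRecDepth 100000

theorem c16_0 : chk (nat_lit 16000) (nat_lit 100) = true := by decide +kernel

theorem c16_1 : chk (nat_lit 16100) (nat_lit 100) = true := by decide +kernel

theorem c16_2 : chk (nat_lit 16200) (nat_lit 100) = true := by decide +kernel

theorem c16_3 : chk (nat_lit 16300) (nat_lit 100) = true := by decide +kernel

theorem c16_4 : chk (nat_lit 16400) (nat_lit 100) = true := by decide +kernel

theorem c16_5 : chk (nat_lit 16500) (nat_lit 100) = true := by decide +kernel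

theorem c16_6 : chk (nat_lit 16600) (nat_lit 100) = true := by decide +kernel

theorem c16_7 : chk (nat_lit 16700) (nat_lit 100) = true := by decide +kernel

theorem c16_8 : chk (nat_lit 16800) (nat_lit 100) = true := by decide +kernel

theorem c16_9 : chk (nat_lit 16900) (nat_lit 100) = true := by decide +kernel


theorem all16 : ∀ i, 16000 ≤ i → i < 17000 → Good i := (good_chain (good_chain (good_chain (good_chain (good_chain (good_chain (good_chain (good_chain (good_chain (good_of_chk c16_0) (good_of_chk c16_1)) (good_of_chk c16_2)) (good_of_chk c16_3)) (good_of_chk c16_4)) (good_of_chk c16_5)) (good_of_chk c16_6)) (good_of_chk c16_7)) (good_of_chk c16_8)) (good_of_chk c16_9))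


end Vale.Agent.P045.R6
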