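import Vale.Agent.P045.R6.Rows

/-! Checks of the rows of a certificate. -/

namespace Vale.Agent.P045.R6

set_option maxRecDepth 100000

theorem c160_0 : chk (nat_lit 160000) (nat_lit 100) = true := by decide +kernel

theorem c160_1 : chk (nat_lit 160100) (nat_lit 100) = true := by decide +kernel

theorem c160_2 : chk (nat_lit 160200) (nat_lit 100) = true := by decide +kernel

theorem c160_3 : chk (nat_lit 160300) (nat_lit 100) = true := by decide +kernel

theorem c160_4 : chk (nat_lit 160400) (nat_lit 100) = true := by decide +kernel

theorem c160_5 : chk (nat_lit 160500) (nat_lit 100) = true := by decide +kernel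

theorem c160_6 : chk (nat_lit 160600) (nat_lit 100) = true := by decide +kernel

theorem c160_7 : chk (nat_lit 160700) (nat_lit 100) = true := by decide +kernel

theorem c160_8 : chk (nat_lit 160800) (nat_lit 100) = true := by decide +kernel

theorem c160_9 : chk (nat_lit 160900) (nat_lit 100) = true := by decide +kernel


theorem all160 : ∀ i, 160000 ≤ i → i < 161000 → Good i := (good_chain (good_chain (good_chain (good_chain (good_chain (good_chain (good_chain (good_chain (good_chain (good_of_chk c160_0) (good_of_chk c160_1)) (good_of_chk c160_2)) (good_of_chk c160_3)) (good_of_chk c160_4)) (good_of_chk c160_5)) (good_of_chk c160_6)) (good_of_chk c160_7)) (good_of_chk c160_8)) (good_of_chk c160_9))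


end Vale.Agent.P045.R6
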