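import Vale.Agent.P045.R6.Rows

/-! Checks of the rows of a certificate. -/

namespace Vale.Agent.P045.R6

set_option maxRecDepth 100000

theorem c161_0 : chk (nat_lit 161000) (nat_lit 100) = true := by decide +kernel

theorem c161_1 : chk (nat_lit 161100) (nat_lit 100) = true := by decide +kernel

theorem c161_2 : chk (nat_lit 161200) (nat_lit 100) = true := by decide +kernel

theorem c161_3 : chk (nat_lit 161300) (nat_lit 100) = true := by decide +kernel

theorem c161_4 : chk (nat_lit 161400) (nat_lit 100) = true := by decide +kernel

theorem c161_5 : chk (nat_lit 161500) (nat_lit 100) = true := by decide +kernel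

theorem c161_6 : chk (nat_lit 161600) (nat_lit 100) = true := by decide +kernel

theorem c161_7 : chk (nat_lit 161700) (nat_lit 100) = true := by decide +kernel

theorem c161_8 : chk (nat_lit 161800) (nat_lit 100) = true := by decide +kernel

theorem c161_9 : chk (nat_lit 161900) (nat_lit 100) = true := by decide +kernel


theorem all161 : ∀ i, 161000 ≤ i → i < 162000 → Good i := (good_chain (good_chain (good_chain (good_chain (good_chain (good_chain (good_chain (good_chain (good_chain (good_of_chk c161_0) (good_of_chk c161_1)) (good_of_chk c161_2)) (good_of_chk c161_3)) (good_of_chk c161_4)) (good_of_chk c161_5)) (good_of_chk c161_6)) (good_of_chk c161_7)) (good_of_chk c161_8)) (good_of_chk c161_9))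


end Vale.Agent.P045.R6
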