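import Vale.Agent.P045.R6.Rows

/-! Checks of the rows of a certificate. -/

namespace Vale.Agent.P045.R6

set_option maxRecDepth 100000

theorem c162_0 : chk (nat_lit 162000) (nat_lit 100) = true := by decide +kernel

theorem c162_1 : chk (nat_lit 162100) (nat_lit 100) = true := by decide +kernel

theorem c162_2 : chk (nat_lit 162200) (nat_lit 100) = true := by decide +kernel

theorem c162_3 : chk (nat_lit 162300) (nat_lit 100) = true := by decide +kernel

theorem c162_4 : chk (nat_lit 162400) (nat_lit 100) = true := by decide +kernel

theorem c162_5 : chk (nat_lit 162500) (nat_lit 100) = true := by decide +kernel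

theorem c162_6 : chk (nat_lit 162600) (nat_lit 100) = true := by decide +kernel

theorem c162_7 : chk (nat_lit 162700) (nat_lit 100) = true := by decide +kernel

theorem c162_8 : chk (nat_lit 162800) (nat_lit 100) = true := by decide +kernel

theorem c162_9 : chk (nat_lit 162900) (nat_lit 100) = true := by decide +kernel


theorem all162 : ∀ i, 162000 ≤ i → i < 163000 → Good i := (good_chain (good_chain (good_chain (good_chain (good_chain (good_chain (good_chain (good_chain (good_chain (good_of_chk c162_0) (good_of_chk c162_1)) (good_of_chk c162_2)) (good_of_chk c162_3)) (good_of_chk c162_4)) (good_of_chk c162_5)) (good_of_chk c162_6)) (good_of_chk c162_7)) (good_of_chk c162_8)) (good_of_chk c162_9))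


end Vale.Agent.P045.R6
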