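import Vale.Agent.P045.R6.Rows

/-! Checks of the rows of a certificate. -/

namespace Vale.Agent.P045.R6

set_option maxRecDepth 100000

theorem c163_0 : chk (nat_lit 163000) (nat_lit 100) = true := by decide +kernel

theorem c163_1 : chk (nat_lit 163100) (nat_lit 100) = true := by decide +kernel

theorem c163_2 : chk (nat_lit 163200) (nat_lit 100) = true := by decide +kernel

theorem c163_3 : chk (nat_lit 163300) (nat_lit 100) = true := by decide +kernel

theorem c163_4 : chk (nat_lit 163400) (nat_lit 100) = true := by decide +kernel

theorem c163_5 : chk (nat_lit 163500) (nat_lit 100) = true := by decide +kernel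

theorem c163_6 : chk (nat_lit 163600) (nat_lit 100) = true := by decide +kernel

theorem c163_7 : chk (nat_lit 163700) (nat_lit 100) = true := by decide +kernel

theorem c163_8 : chk (nat_lit 163800) (nat_lit 100) = true := by decide +kernel

theorem c163_9 : chk (nat_lit 163900) (nat_lit 100) = true := by decide +kernel


theorem all163 : ∀ i, 163000 ≤ i → i < 164000 → Good i := (good_chain (good_chain (good_chain (good_chain (good_chain (good_chain (good_chain (good_chain (good_chain (good_of_chk c163_0) (good_of_chk c163_1)) (good_of_chk c163_2)) (good_of_chk c163_3)) (good_of_chk c163_4)) (good_of_chk c163_5)) (good_of_chk c163_6)) (good_of_chk c163_7)) (good_of_chk c163_8)) (good_of_chk c163_9))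


end Vale.Agent.P045.R6
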