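import Vale.Agent.P045.R6.Rows

/-! Checks of the rows of a certificate. -/

namespace Vale.Agent.P045.R6

set_option maxRecDepth 100000

theorem c164_0 : chk (nat_lit 164000) (nat_lit 100) = true := by decide +kernel

theorem c164_1 : chk (nat_lit 164100) (nat_lit 100) = true := by decide +kernel

theorem c164_2 : chk (nat_lit 164200) (nat_lit 100) = true := by decide +kernel

theorem c164_3 : chk (nat_lit 164300) (nat_lit 100) = true := by decide +kernel

theorem c164_4 : chk (nat_lit 164400) (nat_lit 100) = true := by decide +kernel

theorem c164_5 : chk (nat_lit 164500) (nat_lit 100) = true := by decide +kernel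

theorem c164_6 : chk (nat_lit 164600) (nat_lit 100) = true := by decide +kernel

theorem c164_7 : chk (nat_lit 164700) (nat_lit 100) = true := by decide +kernel

theorem c164_8 : chk (nat_lit 164800) (nat_lit 100) = true := by decide +kernel

theorem c164_9 : chk (nat_lit 164900) (nat_lit 100) = true := by decide +kernel


theorem all164 : ∀ i, 164000 ≤ i → i < 165000 → Good i := (good_chain (good_chain (good_chain (good_chain (good_chain (good_chain (good_chain (good_chain (good_chain (good_of_chk c164_0) (good_of_chk c164_1)) (good_of_chk c164_2)) (good_of_chk c164_3)) (good_of_chk c164_4)) (good_of_chk c164_5)) (good_of_chk c164_6)) (good_of_chk c164_7)) (good_of_chk c164_8)) (good_of_chk c164_9))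


end Vale.Agent.P045.R6
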