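import Vale.Agent.P045.R6.Rows

/-! Checks of the rows of a certificate. -/

namespace Vale.Agent.P045.R6

set_option maxRecDepth 100000

theorem c165_0 : chk (nat_lit 165000) (nat_lit 100) = true := by decide +kernel

theorem c165_1 : chk (nat_lit 165100) (nat_lit 100) = true := by decide +kernel

theorem c165_2 : chk (nat_lit 165200) (nat_lit 100) = true := by decide +kernel

theorem c165_3 : chk (nat_lit 165300) (nat_lit 100) = true := by decide +kernel

theorem c165_4 : chk (nat_lit 165400) (nat_lit 100) = true := by decide +kernel

theorem c165_5 : chk (nat_lit 165500) (nat_lit 100) = true := by decide +kernel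

theorem c165_6 : chk (nat_lit 165600) (nat_lit 100) = true := by decide +kernel

theorem c165_7 : chk (nat_lit 165700) (nat_lit 100) = true := by decide +kernel

theorem c165_8 : chk (nat_lit 165800) (nat_lit 100) = true := by decide +kernel

theorem c165_9 : chk (nat_lit 165900) (nat_lit 100) = true := by decide +kernel


theorem all165 : ∀ i, 165000 ≤ i → i < 166000 → Good i := (good_chain (good_chain (good_chain (good_chain (good_chain (good_chain (good_chain (good_chain (good_chain (good_of_chk c165_0) (good_of_chk c165_1)) (good_of_chk c165_2)) (good_of_chk c165_3)) (good_of_chk c165_4)) (good_of_chk c165_5)) (good_of_chk c165_6)) (good_of_chk c165_7)) (good_of_chk c165_8)) (good_of_chk c165_9))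


end Vale.Agent.P045.R6
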