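import Vale.Agent.P045.R6.Rows

/-! Checks of the rows of a certificate. -/

namespace Vale.Agent.P045.R6

set_option maxRecDepth 100000

theorem c166_0 : chk (nat_lit 166000) (nat_lit 100) = true := by decide +kernel

theorem c166_1 : chk (nat_lit 166100) (nat_lit 100) = true := by decide +kernel

theorem c166_2 : chk (nat_lit 166200) (nat_lit 100) = true := by decide +kernel

theorem c166_3 : chk (nat_lit 166300) (nat_lit 100) = true := by decide +kernel

theorem c166_4 : chk (nat_lit 166400) (nat_lit 100) = true := by decide +kernel

theorem c166_5 : chk (nat_lit 166500) (nat_lit 100) = true := by decide +kernel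

theorem c166_6 : chk (nat_lit 166600) (nat_lit 100) = true := by decide +kernel

theorem c166_7 : chk (nat_lit 166700) (nat_lit 100) = true := by decide +kernel

theorem c166_8 : chk (nat_lit 166800) (nat_lit 100) = true := by decide +kernel

theorem c166_9 : chk (nat_lit 166900) (nat_lit 100) = true := by decide +kernel


theorem all166 : ∀ i, 166000 ≤ i → i < 167000 → Good i := (good_chain (good_chain (good_chain (good_chain (good_chain (good_chain (good_chain (good_chain (good_chain (good_of_chk c166_0) (good_of_chk c166_1)) (good_of_chk c166_2)) (good_of_chk c166_3)) (good_of_chk c166_4)) (good_of_chk c166_5)) (good_of_chk c166_6)) (good_of_chk c166_7)) (good_of_chk c166_8)) (good_of_chk c166_9))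


end Vale.Agent.P045.R6
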