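import Vale.Agent.P045.R6.Rows

/-! Checks of the rows of a certificate. -/

namespace Vale.Agent.P045.R6

set_option maxRecDepth 100000

theorem c167_0 : chk (nat_lit 167000) (nat_lit 100) = true := by decide +kernel

theorem c167_1 : chk (nat_lit 167100) (nat_lit 100) = true := by decide +kernel

theorem c167_2 : chk (nat_lit 167200) (nat_lit 100) = true := by decide +kernel

theorem c167_3 : chk (nat_lit 167300) (nat_lit 100) = true := by decide +kernel

theorem c167_4 : chk (nat_lit 167400) (nat_lit 100) = true := by decide +kernel

theorem c167_5 : chk (nat_lit 167500) (nat_lit 100) = true := by decide +kernel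

theorem c167_6 : chk (nat_lit 167600) (nat_lit 100) = true := by decide +kernel

theorem c167_7 : chk (nat_lit 167700) (nat_lit 100) = true := by decide +kernel

theorem c167_8 : chk (nat_lit 167800) (nat_lit 100) = true := by decide +kernel

theorem c167_9 : chk (nat_lit 167900) (nat_lit 100) = true := by decide +kernel


theorem all167 : ∀ i, 167000 ≤ i → i < 168000 → Good i := (good_chain (good_chain (good_chain (good_chain (good_chain (good_chain (good_chain (good_chain (good_chain (good_of_chk c167_0) (good_of_chk c167_1)) (good_of_chk c167_2)) (good_of_chk c167_3)) (good_of_chk c167_4)) (good_of_chk c167_5)) (good_of_chk c167_6)) (good_of_chk c167_7)) (good_of_chk c167_8)) (good_of_chk c167_9))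


end Vale.Agent.P045.R6
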