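import Vale.Agent.P045.R6.Rows

/-! Checks of the rows of a certificate. -/

namespace Vale.Agent.P045.R6

set_option maxRecDepth 100000

theorem c168_0 : chk (nat_lit 168000) (nat_lit 100) = true := by decide +kernel

theorem c168_1 : chk (nat_lit 168100) (nat_lit 100) = true := by decide +kernel

theorem c168_2 : chk (nat_lit 168200) (nat_lit 100) = true := by decide +kernel

theorem c168_3 : chk (nat_lit 168300) (nat_lit 100) = true := by decide +kernel

theorem c168_4 : chk (nat_lit 168400) (nat_lit 100) = true := by decide +kernel

theorem c168_5 : chk (nat_lit 168500) (nat_lit 100) = true := by decide +kernel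

theorem c168_6 : chk (nat_lit 168600) (nat_lit 100) = true := by decide +kernel

theorem c168_7 : chk (nat_lit 168700) (nat_lit 100) = true := by decide +kernel

theorem c168_8 : chk (nat_lit 168800) (nat_lit 100) = true := by decide +kernel

theorem c168_9 : chk (nat_lit 168900) (nat_lit 100) = true := by decide +kernel


theorem all168 : ∀ i, 168000 ≤ i → i < 169000 → Good i := (good_chain (good_chain (good_chain (good_chain (good_chain (good_chain (good_chain (good_chain (good_chain (good_of_chk c168_0) (good_of_chk c168_1)) (good_of_chk c168_2)) (good_of_chk c168_3)) (good_of_chk c168_4)) (good_of_chk c168_5)) (good_of_chk c168_6)) (good_of_chk c168_7)) (good_of_chk c168_8)) (good_of_chk c168_9))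


end Vale.Agent.P045.R6
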