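import Vale.Agent.P045.R6.Rows

/-! Checks of the rows of a certificate. -/

namespace Vale.Agent.P045.R6

set_option maxRecDepth 100000

theorem c169_0 : chk (nat_lit 169000) (nat_lit 100) = true := by decide +kernel

theorem c169_1 : chk (nat_lit 169100) (nat_lit 100) = true := by decide +kernel

theorem c169_2 : chk (nat_lit 169200) (nat_lit 100) = true := by decide +kernel

theorem c169_3 : chk (nat_lit 169300) (nat_lit 100) = true := by decide +kernel

theorem c169_4 : chk (nat_lit 169400) (nat_lit 100) = true := by decide +kernel

theorem c169_5 : chk (nat_lit 169500) (nat_lit 100) = true := by decide +kernel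

theorem c169_6 : chk (nat_lit 169600) (nat_lit 100) = true := by decide +kernel

theorem c169_7 : chk (nat_lit 169700) (nat_lit 100) = true := by decide +kernel

theorem c169_8 : chk (nat_lit 169800) (nat_lit 100) = true := by decide +kernel

theorem c169_9 : chk (nat_lit 169900) (nat_lit 100) = true := by decide +kernel


theorem all169 : ∀ i, 169000 ≤ i → i < 170000 → Good i := (good_chain (good_chain (good_chain (good_chain (good_chain (good_chain (good_chain (good_chain (good_chain (good_of_chk c169_0) (good_of_chk c169_1)) (good_of_chk c169_2)) (good_of_chk c169_3)) (good_of_chk c169_4)) (good_of_chk c169_5)) (good_of_chk c169_6)) (good_of_chk c169_7)) (good_of_chk c169_8)) (good_of_chk c169_9))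


end Vale.Agent.P045.R6
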