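import Vale.Agent.P045.R6.Rows

/-! Checks of the rows of a certificate. -/

namespace Vale.Agent.P045.R6

set_option maxRecDepth 100000

theorem c17_0 : chk (nat_lit 17000) (nat_lit 100) = true := by decide +kernel

theorem c17_1 : chk (nat_lit 17100) (nat_lit 100) = true := by decide +kernel

theorem c17_2 : chk (nat_lit 17200) (nat_lit 100) = true := by decide +kernel

theorem c17_3 : chk (nat_lit 17300) (nat_lit 100) = true := by decide +kernel

theorem c17_4 : chk (nat_lit 17400) (nat_lit 100) = true := by decide +kernel

theorem c17_5 : chk (nat_lit 17500) (nat_lit 100) = true := by decide +kernel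

theorem c17_6 : chk (nat_lit 17600) (nat_lit 100) = true := by decide +kernel

theorem c17_7 : chk (nat_lit 17700) (nat_lit 100) = true := by decide +kernel

theorem c17_8 : chk (nat_lit 17800) (nat_lit 100) = true := by decide +kernel

theorem c17_9 : chk (nat_lit 17900) (nat_lit 100) = true := by decide +kernel


theorem all17 : ∀ i, 17000 ≤ i → i < 18000 → Good i := (good_chain (good_chain (good_chain (good_chain (good_chain (good_chain (good_chain (good_chain (good_chain (good_of_chk c17_0) (good_of_chk c17_1)) (good_of_chk c17_2)) (good_of_chk c17_3)) (good_of_chk c17_4)) (good_of_chk c17_5)) (good_of_chk c17_6)) (good_of_chk c17_7)) (good_of_chk c17_8)) (good_of_chk c17_9))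


end Vale.Agent.P045.R6
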