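import Vale.Agent.P045.R6.Rows

/-! Checks of the rows of a certificate. -/

namespace Vale.Agent.P045.R6

set_option maxRecDepth 100000

theorem c170_0 : chk (nat_lit 170000) (nat_lit 100) = true := by decide +kernel

theorem c170_1 : chk (nat_lit 170100) (nat_lit 100) = true := by decide +kernel

theorem c170_2 : chk (nat_lit 170200) (nat_lit 100) = true := by decide +kernel

theorem c170_3 : chk (nat_lit 170300) (nat_lit 100) = true := by decide +kernel

theorem c170_4 : chk (nat_lit 170400) (nat_lit 100) = true := by decide +kernel

theorem c170_5 : chk (nat_lit 170500) (nat_lit 100) = true := by decide +kernel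

theorem c170_6 : chk (nat_lit 170600) (nat_lit 100) = true := by decide +kernel

theorem c170_7 : chk (nat_lit 170700) (nat_lit 100) = true := by decide +kernel

theorem c170_8 : chk (nat_lit 170800) (nat_lit 100) = true := by decide +kernel

theorem c170_9 : chk (nat_lit 170900) (nat_lit 100) = true := by decide +kernel


theorem all170 : ∀ i, 170000 ≤ i → i < 171000 → Good i := (good_chain (good_chain (good_chain (good_chain (good_chain (good_chain (good_chain (good_chain (good_chain (good_of_chk c170_0) (good_of_chk c170_1)) (good_of_chk c170_2)) (good_of_chk c170_3)) (good_of_chk c170_4)) (good_of_chk c170_5)) (good_of_chk c170_6)) (good_of_chk c170_7)) (good_of_chk c170_8)) (good_of_chk c170_9))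


end Vale.Agent.P045.R6
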