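import Vale.Agent.P045.R6.Rows

/-! Checks of the rows of a certificate. -/

namespace Vale.Agent.P045.R6

set_option maxRecDepth 100000

theorem c171_0 : chk (nat_lit 171000) (nat_lit 100) = true := by decide +kernel

theorem c171_1 : chk (nat_lit 171100) (nat_lit 100) = true := by decide +kernel

theorem c171_2 : chk (nat_lit 171200) (nat_lit 100) = true := by decide +kernel

theorem c171_3 : chk (nat_lit 171300) (nat_lit 100) = true := by decide +kernel

theorem c171_4 : chk (nat_lit 171400) (nat_lit 100) = true := by decide +kernel

theorem c171_5 : chk (nat_lit 171500) (nat_lit 100) = true := by decide +kernel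

theorem c171_6 : chk (nat_lit 171600) (nat_lit 100) = true := by decide +kernel

theorem c171_7 : chk (nat_lit 171700) (nat_lit 100) = true := by decide +kernel

theorem c171_8 : chk (nat_lit 171800) (nat_lit 100) = true := by decide +kernel

theorem c171_9 : chk (nat_lit 171900) (nat_lit 100) = true := by decide +kernel


theorem all171 : ∀ i, 171000 ≤ i → i < 172000 → Good i := (good_chain (good_chain (good_chain (good_chain (good_chain (good_chain (good_chain (good_chain (good_chain (good_of_chk c171_0) (good_of_chk c171_1)) (good_of_chk c171_2)) (good_of_chk c171_3)) (good_of_chk c171_4)) (good_of_chk c171_5)) (good_of_chk c171_6)) (good_of_chk c171_7)) (good_of_chk c171_8)) (good_of_chk c171_9))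


end Vale.Agent.P045.R6
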