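import Vale.Agent.P045.R6.Rows

/-! Checks of the rows of a certificate. -/

namespace Vale.Agent.P045.R6

set_option maxRecDepth 100000

theorem c172_0 : chk (nat_lit 172000) (nat_lit 100) = true := by decide +kernel

theorem c172_1 : chk (nat_lit 172100) (nat_lit 100) = true := by decide +kernel

theorem c172_2 : chk (nat_lit 172200) (nat_lit 100) = true := by decide +kernel

theorem c172_3 : chk (nat_lit 172300) (nat_lit 100) = true := by decide +kernel

theorem c172_4 : chk (nat_lit 172400) (nat_lit 100) = true := by decide +kernel

theorem c172_5 : chk (nat_lit 172500) (nat_lit 100) = true := by decide +kernel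

theorem c172_6 : chk (nat_lit 172600) (nat_lit 100) = true := by decide +kernel

theorem c172_7 : chk (nat_lit 172700) (nat_lit 100) = true := by decide +kernel

theorem c172_8 : chk (nat_lit 172800) (nat_lit 100) = true := by decide +kernel

theorem c172_9 : chk (nat_lit 172900) (nat_lit 100) = true := by decide +kernel


theorem all172 : ∀ i, 172000 ≤ i → i < 173000 → Good i := (good_chain (good_chain (good_chain (good_chain (good_chain (good_chain (good_chain (good_chain (good_chain (good_of_chk c172_0) (good_of_chk c172_1)) (good_of_chk c172_2)) (good_of_chk c172_3)) (good_of_chk c172_4)) (good_of_chk c172_5)) (good_of_chk c172_6)) (good_of_chk c172_7)) (good_of_chk c172_8)) (good_of_chk c172_9))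


end Vale.Agent.P045.R6
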