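import Vale.Agent.P045.R6.Rows

/-! Checks of the rows of a certificate. -/

namespace Vale.Agent.P045.R6

set_option maxRecDepth 100000

theorem c173_0 : chk (nat_lit 173000) (nat_lit 100) = true := by decide +kernel

theorem c173_1 : chk (nat_lit 173100) (nat_lit 100) = true := by decide +kernel

theorem c173_2 : chk (nat_lit 173200) (nat_lit 100) = true := by decide +kernel

theorem c173_3 : chk (nat_lit 173300) (nat_lit 100) = true := by decide +kernel

theorem c173_4 : chk (nat_lit 173400) (nat_lit 100) = true := by decide +kernel

theorem c173_5 : chk (nat_lit 173500) (nat_lit 100) = true := by decide +kernel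

theorem c173_6 : chk (nat_lit 173600) (nat_lit 100) = true := by decide +kernel

theorem c173_7 : chk (nat_lit 173700) (nat_lit 100) = true := by decide +kernel

theorem c173_8 : chk (nat_lit 173800) (nat_lit 100) = true := by decide +kernel

theorem c173_9 : chk (nat_lit 173900) (nat_lit 100) = true := by decide +kernel


theorem all173 : ∀ i, 173000 ≤ i → i < 174000 → Good i := (good_chain (good_chain (good_chain (good_chain (good_chain (good_chain (good_chain (good_chain (good_chain (good_of_chk c173_0) (good_of_chk c173_1)) (good_of_chk c173_2)) (good_of_chk c173_3)) (good_of_chk c173_4)) (good_of_chk c173_5)) (good_of_chk c173_6)) (good_of_chk c173_7)) (good_of_chk c173_8)) (good_of_chk c173_9))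


end Vale.Agent.P045.R6
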