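import Vale.Agent.P045.R6.Rows

/-! Checks of the rows of a certificate. -/

namespace Vale.Agent.P045.R6

set_option maxRecDepth 100000

theorem c174_0 : chk (nat_lit 174000) (nat_lit 100) = true := by decide +kernel

theorem c174_1 : chk (nat_lit 174100) (nat_lit 100) = true := by decide +kernel

theorem c174_2 : chk (nat_lit 174200) (nat_lit 100) = true := by decide +kernel

theorem c174_3 : chk (nat_lit 174300) (nat_lit 100) = true := by decide +kernel

theorem c174_4 : chk (nat_lit 174400) (nat_lit 100) = true := by decide +kernel

theorem c174_5 : chk (nat_lit 174500) (nat_lit 100) = true := by decide +kernel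

theorem c174_6 : chk (nat_lit 174600) (nat_lit 100) = true := by decide +kernel

theorem c174_7 : chk (nat_lit 174700) (nat_lit 100) = true := by decide +kernel

theorem c174_8 : chk (nat_lit 174800) (nat_lit 100) = true := by decide +kernel

theorem c174_9 : chk (nat_lit 174900) (nat_lit 100) = true := by decide +kernel


theorem all174 : ∀ i, 174000 ≤ i → i < 175000 → Good i := (good_chain (good_chain (good_chain (good_chain (good_chain (good_chain (good_chain (good_chain (good_chain (good_of_chk c174_0) (good_of_chk c174_1)) (good_of_chk c174_2)) (good_of_chk c174_3)) (good_of_chk c174_4)) (good_of_chk c174_5)) (good_of_chk c174_6)) (good_of_chk c174_7)) (good_of_chk c174_8)) (good_of_chk c174_9))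


end Vale.Agent.P045.R6
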