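import Vale.Agent.P045.R6.Rows

/-! Checks of the rows of a certificate. -/

namespace Vale.Agent.P045.R6

set_option maxRecDepth 100000

theorem c175_0 : chk (nat_lit 175000) (nat_lit 100) = true := by decide +kernel

theorem c175_1 : chk (nat_lit 175100) (nat_lit 100) = true := by decide +kernel

theorem c175_2 : chk (nat_lit 175200) (nat_lit 100) = true := by decide +kernel

theorem c175_3 : chk (nat_lit 175300) (nat_lit 100) = true := by decide +kernel

theorem c175_4 : chk (nat_lit 175400) (nat_lit 100) = true := by decide +kernel

theorem c175_5 : chk (nat_lit 175500) (nat_lit 100) = true := by decide +kernel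

theorem c175_6 : chk (nat_lit 175600) (nat_lit 100) = true := by decide +kernel

theorem c175_7 : chk (nat_lit 175700) (nat_lit 100) = true := by decide +kernel

theorem c175_8 : chk (nat_lit 175800) (nat_lit 100) = true := by decide +kernel

theorem c175_9 : chk (nat_lit 175900) (nat_lit 100) = true := by decide +kernel


theorem all175 : ∀ i, 175000 ≤ i → i < 176000 → Good i := (good_chain (good_chain (good_chain (good_chain (good_chain (good_chain (good_chain (good_chain (good_chain (good_of_chk c175_0) (good_of_chk c175_1)) (good_of_chk c175_2)) (good_of_chk c175_3)) (good_of_chk c175_4)) (good_of_chk c175_5)) (good_of_chk c175_6)) (good_of_chk c175_7)) (good_of_chk c175_8)) (good_of_chk c175_9))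


end Vale.Agent.P045.R6
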