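import Vale.Agent.P045.R6.Rows

/-! Checks of the rows of a certificate. -/

namespace Vale.Agent.P045.R6

set_option maxRecDepth 100000

theorem c176_0 : chk (nat_lit 176000) (nat_lit 100) = true := by decide +kernel

theorem c176_1 : chk (nat_lit 176100) (nat_lit 100) = true := by decide +kernel

theorem c176_2 : chk (nat_lit 176200) (nat_lit 100) = true := by decide +kernel

theorem c176_3 : chk (nat_lit 176300) (nat_lit 100) = true := by decide +kernel

theorem c176_4 : chk (nat_lit 176400) (nat_lit 100) = true := by decide +kernel

theorem c176_5 : chk (nat_lit 176500) (nat_lit 100) = true := by decide +kernel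

theorem c176_6 : chk (nat_lit 176600) (nat_lit 100) = true := by decide +kernel

theorem c176_7 : chk (nat_lit 176700) (nat_lit 100) = true := by decide +kernel

theorem c176_8 : chk (nat_lit 176800) (nat_lit 100) = true := by decide +kernel

theorem c176_9 : chk (nat_lit 176900) (nat_lit 100) = true := by decide +kernel


theorem all176 : ∀ i, 176000 ≤ i → i < 177000 → Good i := (good_chain (good_chain (good_chain (good_chain (good_chain (good_chain (good_chain (good_chain (good_chain (good_of_chk c176_0) (good_of_chk c176_1)) (good_of_chk c176_2)) (good_of_chk c176_3)) (good_of_chk c176_4)) (good_of_chk c176_5)) (good_of_chk c176_6)) (good_of_chk c176_7)) (good_of_chk c176_8)) (good_of_chk c176_9))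


end Vale.Agent.P045.R6
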