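import Vale.Agent.P045.R6.Rows

/-! Checks of the rows of a certificate. -/

namespace Vale.Agent.P045.R6

set_option maxRecDepth 100000

theorem c177_0 : chk (nat_lit 177000) (nat_lit 100) = true := by decide +kernel

theorem c177_1 : chk (nat_lit 177100) (nat_lit 100) = true := by decide +kernel

theorem c177_2 : chk (nat_lit 177200) (nat_lit 100) = true := by decide +kernel

theorem c177_3 : chk (nat_lit 177300) (nat_lit 100) = true := by decide +kernel

theorem c177_4 : chk (nat_lit 177400) (nat_lit 100) = true := by decide +kernel

theorem c177_5 : chk (nat_lit 177500) (nat_lit 100) = true := by decide +kernel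

theorem c177_6 : chk (nat_lit 177600) (nat_lit 100) = true := by decide +kernel

theorem c177_7 : chk (nat_lit 177700) (nat_lit 100) = true := by decide +kernel

theorem c177_8 : chk (nat_lit 177800) (nat_lit 100) = true := by decide +kernel

theorem c177_9 : chk (nat_lit 177900) (nat_lit 100) = true := by decide +kernel


theorem all177 : ∀ i, 177000 ≤ i → i < 178000 → Good i := (good_chain (good_chain (good_chain (good_chain (good_chain (good_chain (good_chain (good_chain (good_chain (good_of_chk c177_0) (good_of_chk c177_1)) (good_of_chk c177_2)) (good_of_chk c177_3)) (good_of_chk c177_4)) (good_of_chk c177_5)) (good_of_chk c177_6)) (good_of_chk c177_7)) (good_of_chk c177_8)) (good_of_chk c177_9))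


end Vale.Agent.P045.R6
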