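import Vale.Agent.P045.R6.Rows

/-! Checks of the rows of a certificate. -/

namespace Vale.Agent.P045.R6

set_option maxRecDepth 100000

theorem c178_0 : chk (nat_lit 178000) (nat_lit 100) = true := by decide +kernel

theorem c178_1 : chk (nat_lit 178100) (nat_lit 100) = true := by decide +kernel

theorem c178_2 : chk (nat_lit 178200) (nat_lit 100) = true := by decide +kernel

theorem c178_3 : chk (nat_lit 178300) (nat_lit 100) = true := by decide +kernel

theorem c178_4 : chk (nat_lit 178400) (nat_lit 100) = true := by decide +kernel

theorem c178_5 : chk (nat_lit 178500) (nat_lit 100) = true := by decide +kernel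

theorem c178_6 : chk (nat_lit 178600) (nat_lit 100) = true := by decide +kernel

theorem c178_7 : chk (nat_lit 178700) (nat_lit 100) = true := by decide +kernel

theorem c178_8 : chk (nat_lit 178800) (nat_lit 100) = true := by decide +kernel

theorem c178_9 : chk (nat_lit 178900) (nat_lit 100) = true := by decide +kernel


theorem all178 : ∀ i, 178000 ≤ i → i < 179000 → Good i := (good_chain (good_chain (good_chain (good_chain (good_chain (good_chain (good_chain (good_chain (good_chain (good_of_chk c178_0) (good_of_chk c178_1)) (good_of_chk c178_2)) (good_of_chk c178_3)) (good_of_chk c178_4)) (good_of_chk c178_5)) (good_of_chk c178_6)) (good_of_chk c178_7)) (good_of_chk c178_8)) (good_of_chk c178_9))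


end Vale.Agent.P045.R6
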