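import Vale.Agent.P045.R6.Rows

/-! Checks of the rows of a certificate. -/

namespace Vale.Agent.P045.R6

set_option maxRecDepth 100000

theorem c179_0 : chk (nat_lit 179000) (nat_lit 100) = true := by decide +kernel

theorem c179_1 : chk (nat_lit 179100) (nat_lit 100) = true := by decide +kernel

theorem c179_2 : chk (nat_lit 179200) (nat_lit 100) = true := by decide +kernel

theorem c179_3 : chk (nat_lit 179300) (nat_lit 100) = true := by decide +kernel

theorem c179_4 : chk (nat_lit 179400) (nat_lit 100) = true := by decide +kernel

theorem c179_5 : chk (nat_lit 179500) (nat_lit 100) = true := by decide +kernel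

theorem c179_6 : chk (nat_lit 179600) (nat_lit 100) = true := by decide +kernel

theorem c179_7 : chk (nat_lit 179700) (nat_lit 100) = true := by decide +kernel

theorem c179_8 : chk (nat_lit 179800) (nat_lit 100) = true := by decide +kernel

theorem c179_9 : chk (nat_lit 179900) (nat_lit 100) = true := by decide +kernel


theorem all179 : ∀ i, 179000 ≤ i → i < 180000 → Good i := (good_chain (good_chain (good_chain (good_chain (good_chain (good_chain (good_chain (good_chain (good_chain (good_of_chk c179_0) (good_of_chk c179_1)) (good_of_chk c179_2)) (good_of_chk c179_3)) (good_of_chk c179_4)) (good_of_chk c179_5)) (good_of_chk c179_6)) (good_of_chk c179_7)) (good_of_chk c179_8)) (good_of_chk c179_9))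


end Vale.Agent.P045.R6
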