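import Vale.Agent.P045.R6.Rows

/-! Checks of the rows of a certificate. -/

namespace Vale.Agent.P045.R6

set_option maxRecDepth 100000

theorem c18_0 : chk (nat_lit 18000) (nat_lit 100) = true := by decide +kernel

theorem c18_1 : chk (nat_lit 18100) (nat_lit 100) = true := by decide +kernel

theorem c18_2 : chk (nat_lit 18200) (nat_lit 100) = true := by decide +kernel

theorem c18_3 : chk (nat_lit 18300) (nat_lit 100) = true := by decide +kernel

theorem c18_4 : chk (nat_lit 18400) (nat_lit 100) = true := by decide +kernel

theorem c18_5 : chk (nat_lit 18500) (nat_lit 100) = true := by decide +kernel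

theorem c18_6 : chk (nat_lit 18600) (nat_lit 100) = true := by decide +kernel

theorem c18_7 : chk (nat_lit 18700) (nat_lit 100) = true := by decide +kernel

theorem c18_8 : chk (nat_lit 18800) (nat_lit 100) = true := by decide +kernel

theorem c18_9 : chk (nat_lit 18900) (nat_lit 100) = true := by decide +kernel


theorem all18 : ∀ i, 18000 ≤ i → i < 19000 → Good i := (good_chain (good_chain (good_chain (good_chain (good_chain (good_chain (good_chain (good_chain (good_chain (good_of_chk c18_0) (good_of_chk c18_1)) (good_of_chk c18_2)) (good_of_chk c18_3)) (good_of_chk c18_4)) (good_of_chk c18_5)) (good_of_chk c18_6)) (good_of_chk c18_7)) (good_of_chk c18_8)) (good_of_chk c18_9))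


end Vale.Agent.P045.R6
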