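import Vale.Agent.P045.R6.Rows

/-! Checks of the rows of a certificate. -/

namespace Vale.Agent.P045.R6

set_option maxRecDepth 100000

theorem c180_0 : chk (nat_lit 180000) (nat_lit 100) = true := by decide +kernel

theorem c180_1 : chk (nat_lit 180100) (nat_lit 100) = true := by decide +kernel

theorem c180_2 : chk (nat_lit 180200) (nat_lit 100) = true := by decide +kernel

theorem c180_3 : chk (nat_lit 180300) (nat_lit 100) = true := by decide +kernel

theorem c180_4 : chk (nat_lit 180400) (nat_lit 100) = true := by decide +kernel

theorem c180_5 : chk (nat_lit 180500) (nat_lit 100) = true := by decide +kernel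

theorem c180_6 : chk (nat_lit 180600) (nat_lit 100) = true := by decide +kernel

theorem c180_7 : chk (nat_lit 180700) (nat_lit 100) = true := by decide +kernel

theorem c180_8 : chk (nat_lit 180800) (nat_lit 100) = true := by decide +kernel

theorem c180_9 : chk (nat_lit 180900) (nat_lit 100) = true := by decide +kernel


theorem all180 : ∀ i, 180000 ≤ i → i < 181000 → Good i := (good_chain (good_chain (good_chain (good_chain (good_chain (good_chain (good_chain (good_chain (good_chain (good_of_chk c180_0) (good_of_chk c180_1)) (good_of_chk c180_2)) (good_of_chk c180_3)) (good_of_chk c180_4)) (good_of_chk c180_5)) (good_of_chk c180_6)) (good_of_chk c180_7)) (good_of_chk c180_8)) (good_of_chk c180_9))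


end Vale.Agent.P045.R6
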