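import Vale.Agent.P045.R6.Rows

/-! Checks of the rows of a certificate. -/

namespace Vale.Agent.P045.R6

set_option maxRecDepth 100000

theorem c181_0 : chk (nat_lit 181000) (nat_lit 100) = true := by decide +kernel

theorem c181_1 : chk (nat_lit 181100) (nat_lit 100) = true := by decide +kernel

theorem c181_2 : chk (nat_lit 181200) (nat_lit 100) = true := by decide +kernel

theorem c181_3 : chk (nat_lit 181300) (nat_lit 100) = true := by decide +kernel

theorem c181_4 : chk (nat_lit 181400) (nat_lit 100) = true := by decide +kernel

theorem c181_5 : chk (nat_lit 181500) (nat_lit 100) = true := by decide +kernel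

theorem c181_6 : chk (nat_lit 181600) (nat_lit 100) = true := by decide +kernel

theorem c181_7 : chk (nat_lit 181700) (nat_lit 100) = true := by decide +kernel

theorem c181_8 : chk (nat_lit 181800) (nat_lit 100) = true := by decide +kernel

theorem c181_9 : chk (nat_lit 181900) (nat_lit 100) = true := by decide +kernel


theorem all181 : ∀ i, 181000 ≤ i → i < 182000 → Good i := (good_chain (good_chain (good_chain (good_chain (good_chain (good_chain (good_chain (good_chain (good_chain (good_of_chk c181_0) (good_of_chk c181_1)) (good_of_chk c181_2)) (good_of_chk c181_3)) (good_of_chk c181_4)) (good_of_chk c181_5)) (good_of_chk c181_6)) (good_of_chk c181_7)) (good_of_chk c181_8)) (good_of_chk c181_9))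


end Vale.Agent.P045.R6
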