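import Vale.Agent.P045.R6.Rows

/-! Checks of the rows of a certificate. -/

namespace Vale.Agent.P045.R6

set_option maxRecDepth 100000

theorem c182_0 : chk (nat_lit 182000) (nat_lit 100) = true := by decide +kernel

theorem c182_1 : chk (nat_lit 182100) (nat_lit 100) = true := by decide +kernel

theorem c182_2 : chk (nat_lit 182200) (nat_lit 100) = true := by decide +kernel

theorem c182_3 : chk (nat_lit 182300) (nat_lit 100) = true := by decide +kernel

theorem c182_4 : chk (nat_lit 182400) (nat_lit 100) = true := by decide +kernel

theorem c182_5 : chk (nat_lit 182500) (nat_lit 100) = true := by decide +kernel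

theorem c182_6 : chk (nat_lit 182600) (nat_lit 100) = true := by decide +kernel

theorem c182_7 : chk (nat_lit 182700) (nat_lit 100) = true := by decide +kernel

theorem c182_8 : chk (nat_lit 182800) (nat_lit 100) = true := by decide +kernel

theorem c182_9 : chk (nat_lit 182900) (nat_lit 100) = true := by decide +kernel


theorem all182 : ∀ i, 182000 ≤ i → i < 183000 → Good i := (good_chain (good_chain (good_chain (good_chain (good_chain (good_chain (good_chain (good_chain (good_chain (good_of_chk c182_0) (good_of_chk c182_1)) (good_of_chk c182_2)) (good_of_chk c182_3)) (good_of_chk c182_4)) (good_of_chk c182_5)) (good_of_chk c182_6)) (good_of_chk c182_7)) (good_of_chk c182_8)) (good_of_chk c182_9))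


end Vale.Agent.P045.R6
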