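import Vale.Agent.P045.R6.Rows

/-! Checks of the rows of a certificate. -/

namespace Vale.Agent.P045.R6

set_option maxRecDepth 100000

theorem c183_0 : chk (nat_lit 183000) (nat_lit 100) = true := by decide +kernel

theorem c183_1 : chk (nat_lit 183100) (nat_lit 100) = true := by decide +kernel

theorem c183_2 : chk (nat_lit 183200) (nat_lit 100) = true := by decide +kernel

theorem c183_3 : chk (nat_lit 183300) (nat_lit 100) = true := by decide +kernel

theorem c183_4 : chk (nat_lit 183400) (nat_lit 100) = true := by decide +kernel

theorem c183_5 : chk (nat_lit 183500) (nat_lit 100) = true := by decide +kernel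

theorem c183_6 : chk (nat_lit 183600) (nat_lit 100) = true := by decide +kernel

theorem c183_7 : chk (nat_lit 183700) (nat_lit 100) = true := by decide +kernel

theorem c183_8 : chk (nat_lit 183800) (nat_lit 100) = true := by decide +kernel

theorem c183_9 : chk (nat_lit 183900) (nat_lit 100) = true := by decide +kernel


theorem all183 : ∀ i, 183000 ≤ i → i < 184000 → Good i := (good_chain (good_chain (good_chain (good_chain (good_chain (good_chain (good_chain (good_chain (good_chain (good_of_chk c183_0) (good_of_chk c183_1)) (good_of_chk c183_2)) (good_of_chk c183_3)) (good_of_chk c183_4)) (good_of_chk c183_5)) (good_of_chk c183_6)) (good_of_chk c183_7)) (good_of_chk c183_8)) (good_of_chk c183_9))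


end Vale.Agent.P045.R6
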