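import Vale.Agent.P045.R6.Rows

/-! Checks of the rows of a certificate. -/

namespace Vale.Agent.P045.R6

set_option maxRecDepth 100000

theorem c184_0 : chk (nat_lit 184000) (nat_lit 100) = true := by decide +kernel

theorem c184_1 : chk (nat_lit 184100) (nat_lit 100) = true := by decide +kernel

theorem c184_2 : chk (nat_lit 184200) (nat_lit 100) = true := by decide +kernel

theorem c184_3 : chk (nat_lit 184300) (nat_lit 100) = true := by decide +kernel

theorem c184_4 : chk (nat_lit 184400) (nat_lit 100) = true := by decide +kernel

theorem c184_5 : chk (nat_lit 184500) (nat_lit 100) = true := by decide +kernel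

theorem c184_6 : chk (nat_lit 184600) (nat_lit 100) = true := by decide +kernel

theorem c184_7 : chk (nat_lit 184700) (nat_lit 100) = true := by decide +kernel

theorem c184_8 : chk (nat_lit 184800) (nat_lit 100) = true := by decide +kernel

theorem c184_9 : chk (nat_lit 184900) (nat_lit 100) = true := by decide +kernel


theorem all184 : ∀ i, 184000 ≤ i → i < 185000 → Good i := (good_chain (good_chain (good_chain (good_chain (good_chain (good_chain (good_chain (good_chain (good_chain (good_of_chk c184_0) (good_of_chk c184_1)) (good_of_chk c184_2)) (good_of_chk c184_3)) (good_of_chk c184_4)) (good_of_chk c184_5)) (good_of_chk c184_6)) (good_of_chk c184_7)) (good_of_chk c184_8)) (good_of_chk c184_9))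


end Vale.Agent.P045.R6
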