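import Vale.Agent.P045.R6.Rows

/-! Checks of the rows of a certificate. -/

namespace Vale.Agent.P045.R6

set_option maxRecDepth 100000

theorem c185_0 : chk (nat_lit 185000) (nat_lit 100) = true := by decide +kernel

theorem c185_1 : chk (nat_lit 185100) (nat_lit 100) = true := by decide +kernel

theorem c185_2 : chk (nat_lit 185200) (nat_lit 100) = true := by decide +kernel

theorem c185_3 : chk (nat_lit 185300) (nat_lit 100) = true := by decide +kernel

theorem c185_4 : chk (nat_lit 185400) (nat_lit 100) = true := by decide +kernel

theorem c185_5 : chk (nat_lit 185500) (nat_lit 100) = true := by decide +kernel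

theorem c185_6 : chk (nat_lit 185600) (nat_lit 100) = true := by decide +kernel

theorem c185_7 : chk (nat_lit 185700) (nat_lit 100) = true := by decide +kernel

theorem c185_8 : chk (nat_lit 185800) (nat_lit 100) = true := by decide +kernel

theorem c185_9 : chk (nat_lit 185900) (nat_lit 100) = true := by decide +kernel


theorem all185 : ∀ i, 185000 ≤ i → i < 186000 → Good i := (good_chain (good_chain (good_chain (good_chain (good_chain (good_chain (good_chain (good_chain (good_chain (good_of_chk c185_0) (good_of_chk c185_1)) (good_of_chk c185_2)) (good_of_chk c185_3)) (good_of_chk c185_4)) (good_of_chk c185_5)) (good_of_chk c185_6)) (good_of_chk c185_7)) (good_of_chk c185_8)) (good_of_chk c185_9))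


end Vale.Agent.P045.R6
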