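import Vale.Agent.P045.R6.Rows

/-! Checks of the rows of a certificate. -/

namespace Vale.Agent.P045.R6

set_option maxRecDepth 100000

theorem c186_0 : chk (nat_lit 186000) (nat_lit 100) = true := by decide +kernel

theorem c186_1 : chk (nat_lit 186100) (nat_lit 100) = true := by decide +kernel

theorem c186_2 : chk (nat_lit 186200) (nat_lit 100) = true := by decide +kernel

theorem c186_3 : chk (nat_lit 186300) (nat_lit 100) = true := by decide +kernel

theorem c186_4 : chk (nat_lit 186400) (nat_lit 100) = true := by decide +kernel

theorem c186_5 : chk (nat_lit 186500) (nat_lit 100) = true := by decide +kernel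

theorem c186_6 : chk (nat_lit 186600) (nat_lit 100) = true := by decide +kernel

theorem c186_7 : chk (nat_lit 186700) (nat_lit 100) = true := by decide +kernel

theorem c186_8 : chk (nat_lit 186800) (nat_lit 100) = true := by decide +kernel

theorem c186_9 : chk (nat_lit 186900) (nat_lit 100) = true := by decide +kernel


theorem all186 : ∀ i, 186000 ≤ i → i < 187000 → Good i := (good_chain (good_chain (good_chain (good_chain (good_chain (good_chain (good_chain (good_chain (good_chain (good_of_chk c186_0) (good_of_chk c186_1)) (good_of_chk c186_2)) (good_of_chk c186_3)) (good_of_chk c186_4)) (good_of_chk c186_5)) (good_of_chk c186_6)) (good_of_chk c186_7)) (good_of_chk c186_8)) (good_of_chk c186_9))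


end Vale.Agent.P045.R6
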