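import Vale.Agent.P045.R6.Rows

/-! Checks of the rows of a certificate. -/

namespace Vale.Agent.P045.R6

set_option maxRecDepth 100000

theorem c187_0 : chk (nat_lit 187000) (nat_lit 100) = true := by decide +kernel

theorem c187_1 : chk (nat_lit 187100) (nat_lit 100) = true := by decide +kernel

theorem c187_2 : chk (nat_lit 187200) (nat_lit 100) = true := by decide +kernel

theorem c187_3 : chk (nat_lit 187300) (nat_lit 100) = true := by decide +kernel

theorem c187_4 : chk (nat_lit 187400) (nat_lit 100) = true := by decide +kernel

theorem c187_5 : chk (nat_lit 187500) (nat_lit 100) = true := by decide +kernel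

theorem c187_6 : chk (nat_lit 187600) (nat_lit 100) = true := by decide +kernel

theorem c187_7 : chk (nat_lit 187700) (nat_lit 100) = true := by decide +kernel

theorem c187_8 : chk (nat_lit 187800) (nat_lit 100) = true := by decide +kernel

theorem c187_9 : chk (nat_lit 187900) (nat_lit 100) = true := by decide +kernel


theorem all187 : ∀ i, 187000 ≤ i → i < 188000 → Good i := (good_chain (good_chain (good_chain (good_chain (good_chain (good_chain (good_chain (good_chain (good_chain (good_of_chk c187_0) (good_of_chk c187_1)) (good_of_chk c187_2)) (good_of_chk c187_3)) (good_of_chk c187_4)) (good_of_chk c187_5)) (good_of_chk c187_6)) (good_of_chk c187_7)) (good_of_chk c187_8)) (good_of_chk c187_9))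


end Vale.Agent.P045.R6
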