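import Vale.Agent.P045.R6.Rows

/-! Checks of the rows of a certificate. -/

namespace Vale.Agent.P045.R6

set_option maxRecDepth 100000

theorem c188_0 : chk (nat_lit 188000) (nat_lit 100) = true := by decide +kernel

theorem c188_1 : chk (nat_lit 188100) (nat_lit 100) = true := by decide +kernel

theorem c188_2 : chk (nat_lit 188200) (nat_lit 100) = true := by decide +kernel

theorem c188_3 : chk (nat_lit 188300) (nat_lit 100) = true := by decide +kernel

theorem c188_4 : chk (nat_lit 188400) (nat_lit 100) = true := by decide +kernel

theorem c188_5 : chk (nat_lit 188500) (nat_lit 100) = true := by decide +kernel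

theorem c188_6 : chk (nat_lit 188600) (nat_lit 100) = true := by decide +kernel

theorem c188_7 : chk (nat_lit 188700) (nat_lit 100) = true := by decide +kernel

theorem c188_8 : chk (nat_lit 188800) (nat_lit 100) = true := by decide +kernel

theorem c188_9 : chk (nat_lit 188900) (nat_lit 100) = true := by decide +kernel


theorem all188 : ∀ i, 188000 ≤ i → i < 189000 → Good i := (good_chain (good_chain (good_chain (good_chain (good_chain (good_chain (good_chain (good_chain (good_chain (good_of_chk c188_0) (good_of_chk c188_1)) (good_of_chk c188_2)) (good_of_chk c188_3)) (good_of_chk c188_4)) (good_of_chk c188_5)) (good_of_chk c188_6)) (good_of_chk c188_7)) (good_of_chk c188_8)) (good_of_chk c188_9))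


end Vale.Agent.P045.R6
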