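import Vale.Agent.P045.R6.Rows

/-! Checks of the rows of a certificate. -/

namespace Vale.Agent.P045.R6

set_option maxRecDepth 100000

theorem c189_0 : chk (nat_lit 189000) (nat_lit 100) = true := by decide +kernel

theorem c189_1 : chk (nat_lit 189100) (nat_lit 100) = true := by decide +kernel

theorem c189_2 : chk (nat_lit 189200) (nat_lit 100) = true := by decide +kernel

theorem c189_3 : chk (nat_lit 189300) (nat_lit 100) = true := by decide +kernel

theorem c189_4 : chk (nat_lit 189400) (nat_lit 100) = true := by decide +kernel

theorem c189_5 : chk (nat_lit 189500) (nat_lit 100) = true := by decide +kernel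

theorem c189_6 : chk (nat_lit 189600) (nat_lit 100) = true := by decide +kernel

theorem c189_7 : chk (nat_lit 189700) (nat_lit 100) = true := by decide +kernel

theorem c189_8 : chk (nat_lit 189800) (nat_lit 100) = true := by decide +kernel

theorem c189_9 : chk (nat_lit 189900) (nat_lit 100) = true := by decide +kernel


theorem all189 : ∀ i, 189000 ≤ i → i < 190000 → Good i := (good_chain (good_chain (good_chain (good_chain (good_chain (good_chain (good_chain (good_chain (good_chain (good_of_chk c189_0) (good_of_chk c189_1)) (good_of_chk c189_2)) (good_of_chk c189_3)) (good_of_chk c189_4)) (good_of_chk c189_5)) (good_of_chk c189_6)) (good_of_chk c189_7)) (good_of_chk c189_8)) (good_of_chk c189_9))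


end Vale.Agent.P045.R6
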