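import Vale.Agent.P045.R6.Rows

/-! Checks of the rows of a certificate. -/

namespace Vale.Agent.P045.R6

set_option maxRecDepth 100000

theorem c19_0 : chk (nat_lit 19000) (nat_lit 100) = true := by decide +kernel

theorem c19_1 : chk (nat_lit 19100) (nat_lit 100) = true := by decide +kernel

theorem c19_2 : chk (nat_lit 19200) (nat_lit 100) = true := by decide +kernel

theorem c19_3 : chk (nat_lit 19300) (nat_lit 100) = true := by decide +kernel

theorem c19_4 : chk (nat_lit 19400) (nat_lit 100) = true := by decide +kernel

theorem c19_5 : chk (nat_lit 19500) (nat_lit 100) = true := by decide +kernel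

theorem c19_6 : chk (nat_lit 19600) (nat_lit 100) = true := by decide +kernel

theorem c19_7 : chk (nat_lit 19700) (nat_lit 100) = true := by decide +kernel

theorem c19_8 : chk (nat_lit 19800) (nat_lit 100) = true := by decide +kernel

theorem c19_9 : chk (nat_lit 19900) (nat_lit 100) = true := by decide +kernel


theorem all19 : ∀ i, 19000 ≤ i → i < 20000 → Good i := (good_chain (good_chain (good_chain (good_chain (good_chain (good_chain (good_chain (good_chain (good_chain (good_of_chk c19_0) (good_of_chk c19_1)) (good_of_chk c19_2)) (good_of_chk c19_3)) (good_of_chk c19_4)) (good_of_chk c19_5)) (good_of_chk c19_6)) (good_of_chk c19_7)) (good_of_chk c19_8)) (good_of_chk c19_9))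


end Vale.Agent.P045.R6
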