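import Vale.Agent.P045.R6.Rows

/-! Checks of the rows of a certificate. -/

namespace Vale.Agent.P045.R6

set_option maxRecDepth 100000

theorem c190_0 : chk (nat_lit 190000) (nat_lit 100) = true := by decide +kernel

theorem c190_1 : chk (nat_lit 190100) (nat_lit 100) = true := by decide +kernel

theorem c190_2 : chk (nat_lit 190200) (nat_lit 100) = true := by decide +kernel

theorem c190_3 : chk (nat_lit 190300) (nat_lit 100) = true := by decide +kernel

theorem c190_4 : chk (nat_lit 190400) (nat_lit 100) = true := by decide +kernel

theorem c190_5 : chk (nat_lit 190500) (nat_lit 100) = true := by decide +kernel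

theorem c190_6 : chk (nat_lit 190600) (nat_lit 100) = true := by decide +kernel

theorem c190_7 : chk (nat_lit 190700) (nat_lit 100) = true := by decide +kernel

theorem c190_8 : chk (nat_lit 190800) (nat_lit 100) = true := by decide +kernel

theorem c190_9 : chk (nat_lit 190900) (nat_lit 100) = true := by decide +kernel


theorem all190 : ∀ i, 190000 ≤ i → i < 191000 → Good i := (good_chain (good_chain (good_chain (good_chain (good_chain (good_chain (good_chain (good_chain (good_chain (good_of_chk c190_0) (good_of_chk c190_1)) (good_of_chk c190_2)) (good_of_chk c190_3)) (good_of_chk c190_4)) (good_of_chk c190_5)) (good_of_chk c190_6)) (good_of_chk c190_7)) (good_of_chk c190_8)) (good_of_chk c190_9))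


end Vale.Agent.P045.R6
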