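import Vale.Agent.P045.R6.Rows

/-! Checks of the rows of a certificate. -/

namespace Vale.Agent.P045.R6

set_option maxRecDepth 100000

theorem c191_0 : chk (nat_lit 191000) (nat_lit 100) = true := by decide +kernel

theorem c191_1 : chk (nat_lit 191100) (nat_lit 100) = true := by decide +kernel

theorem c191_2 : chk (nat_lit 191200) (nat_lit 100) = true := by decide +kernel

theorem c191_3 : chk (nat_lit 191300) (nat_lit 100) = true := by decide +kernel

theorem c191_4 : chk (nat_lit 191400) (nat_lit 100) = true := by decide +kernel

theorem c191_5 : chk (nat_lit 191500) (nat_lit 100) = true := by decide +kernel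

theorem c191_6 : chk (nat_lit 191600) (nat_lit 100) = true := by decide +kernel

theorem c191_7 : chk (nat_lit 191700) (nat_lit 100) = true := by decide +kernel

theorem c191_8 : chk (nat_lit 191800) (nat_lit 100) = true := by decide +kernel

theorem c191_9 : chk (nat_lit 191900) (nat_lit 100) = true := by decide +kernel


theorem all191 : ∀ i, 191000 ≤ i → i < 192000 → Good i := (good_chain (good_chain (good_chain (good_chain (good_chain (good_chain (good_chain (good_chain (good_chain (good_of_chk c191_0) (good_of_chk c191_1)) (good_of_chk c191_2)) (good_of_chk c191_3)) (good_of_chk c191_4)) (good_of_chk c191_5)) (good_of_chk c191_6)) (good_of_chk c191_7)) (good_of_chk c191_8)) (good_of_chk c191_9))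


end Vale.Agent.P045.R6
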