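import Vale.Agent.P045.R6.Rows

/-! Checks of the rows of a certificate. -/

namespace Vale.Agent.P045.R6

set_option maxRecDepth 100000

theorem c192_0 : chk (nat_lit 192000) (nat_lit 100) = true := by decide +kernel

theorem c192_1 : chk (nat_lit 192100) (nat_lit 100) = true := by decide +kernel

theorem c192_2 : chk (nat_lit 192200) (nat_lit 100) = true := by decide +kernel

theorem c192_3 : chk (nat_lit 192300) (nat_lit 100) = true := by decide +kernel

theorem c192_4 : chk (nat_lit 192400) (nat_lit 100) = true := by decide +kernel

theorem c192_5 : chk (nat_lit 192500) (nat_lit 100) = true := by decide +kernel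

theorem c192_6 : chk (nat_lit 192600) (nat_lit 100) = true := by decide +kernel

theorem c192_7 : chk (nat_lit 192700) (nat_lit 100) = true := by decide +kernel

theorem c192_8 : chk (nat_lit 192800) (nat_lit 100) = true := by decide +kernel

theorem c192_9 : chk (nat_lit 192900) (nat_lit 100) = true := by decide +kernel


theorem all192 : ∀ i, 192000 ≤ i → i < 193000 → Good i := (good_chain (good_chain (good_chain (good_chain (good_chain (good_chain (good_chain (good_chain (good_chain (good_of_chk c192_0) (good_of_chk c192_1)) (good_of_chk c192_2)) (good_of_chk c192_3)) (good_of_chk c192_4)) (good_of_chk c192_5)) (good_of_chk c192_6)) (good_of_chk c192_7)) (good_of_chk c192_8)) (good_of_chk c192_9))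


end Vale.Agent.P045.R6
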