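import Vale.Agent.P045.R6.Rows

/-! Checks of the rows of a certificate. -/

namespace Vale.Agent.P045.R6

set_option maxRecDepth 100000

theorem c193_0 : chk (nat_lit 193000) (nat_lit 100) = true := by decide +kernel

theorem c193_1 : chk (nat_lit 193100) (nat_lit 100) = true := by decide +kernel

theorem c193_2 : chk (nat_lit 193200) (nat_lit 100) = true := by decide +kernel

theorem c193_3 : chk (nat_lit 193300) (nat_lit 100) = true := by decide +kernel

theorem c193_4 : chk (nat_lit 193400) (nat_lit 100) = true := by decide +kernel

theorem c193_5 : chk (nat_lit 193500) (nat_lit 100) = true := by decide +kernel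

theorem c193_6 : chk (nat_lit 193600) (nat_lit 100) = true := by decide +kernel

theorem c193_7 : chk (nat_lit 193700) (nat_lit 100) = true := by decide +kernel

theorem c193_8 : chk (nat_lit 193800) (nat_lit 100) = true := by decide +kernel

theorem c193_9 : chk (nat_lit 193900) (nat_lit 100) = true := by decide +kernel


theorem all193 : ∀ i, 193000 ≤ i → i < 194000 → Good i := (good_chain (good_chain (good_chain (good_chain (good_chain (good_chain (good_chain (good_chain (good_chain (good_of_chk c193_0) (good_of_chk c193_1)) (good_of_chk c193_2)) (good_of_chk c193_3)) (good_of_chk c193_4)) (good_of_chk c193_5)) (good_of_chk c193_6)) (good_of_chk c193_7)) (good_of_chk c193_8)) (good_of_chk c193_9))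


end Vale.Agent.P045.R6
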