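import Vale.Agent.P045.R6.Rows

/-! Checks of the rows of a certificate. -/

namespace Vale.Agent.P045.R6

set_option maxRecDepth 100000

theorem c194_0 : chk (nat_lit 194000) (nat_lit 100) = true := by decide +kernel

theorem c194_1 : chk (nat_lit 194100) (nat_lit 100) = true := by decide +kernel

theorem c194_2 : chk (nat_lit 194200) (nat_lit 100) = true := by decide +kernel

theorem c194_3 : chk (nat_lit 194300) (nat_lit 100) = true := by decide +kernel

theorem c194_4 : chk (nat_lit 194400) (nat_lit 100) = true := by decide +kernel

theorem c194_5 : chk (nat_lit 194500) (nat_lit 100) = true := by decide +kernel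

theorem c194_6 : chk (nat_lit 194600) (nat_lit 100) = true := by decide +kernel

theorem c194_7 : chk (nat_lit 194700) (nat_lit 100) = true := by decide +kernel

theorem c194_8 : chk (nat_lit 194800) (nat_lit 100) = true := by decide +kernel

theorem c194_9 : chk (nat_lit 194900) (nat_lit 100) = true := by decide +kernel


theorem all194 : ∀ i, 194000 ≤ i → i < 195000 → Good i := (good_chain (good_chain (good_chain (good_chain (good_chain (good_chain (good_chain (good_chain (good_chain (good_of_chk c194_0) (good_of_chk c194_1)) (good_of_chk c194_2)) (good_of_chk c194_3)) (good_of_chk c194_4)) (good_of_chk c194_5)) (good_of_chk c194_6)) (good_of_chk c194_7)) (good_of_chk c194_8)) (good_of_chk c194_9))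


end Vale.Agent.P045.R6
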