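import Vale.Agent.P045.R6.Rows

/-! Checks of the rows of a certificate. -/

namespace Vale.Agent.P045.R6

set_option maxRecDepth 100000

theorem c195_0 : chk (nat_lit 195000) (nat_lit 100) = true := by decide +kernel

theorem c195_1 : chk (nat_lit 195100) (nat_lit 100) = true := by decide +kernel

theorem c195_2 : chk (nat_lit 195200) (nat_lit 100) = true := by decide +kernel

theorem c195_3 : chk (nat_lit 195300) (nat_lit 100) = true := by decide +kernel

theorem c195_4 : chk (nat_lit 195400) (nat_lit 100) = true := by decide +kernel

theorem c195_5 : chk (nat_lit 195500) (nat_lit 100) = true := by decide +kernel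

theorem c195_6 : chk (nat_lit 195600) (nat_lit 100) = true := by decide +kernel

theorem c195_7 : chk (nat_lit 195700) (nat_lit 100) = true := by decide +kernel

theorem c195_8 : chk (nat_lit 195800) (nat_lit 100) = true := by decide +kernel

theorem c195_9 : chk (nat_lit 195900) (nat_lit 100) = true := by decide +kernel


theorem all195 : ∀ i, 195000 ≤ i → i < 196000 → Good i := (good_chain (good_chain (good_chain (good_chain (good_chain (good_chain (good_chain (good_chain (good_chain (good_of_chk c195_0) (good_of_chk c195_1)) (good_of_chk c195_2)) (good_of_chk c195_3)) (good_of_chk c195_4)) (good_of_chk c195_5)) (good_of_chk c195_6)) (good_of_chk c195_7)) (good_of_chk c195_8)) (good_of_chk c195_9))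


end Vale.Agent.P045.R6
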