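import Vale.Agent.P045.R6.Rows

/-! Checks of the rows of a certificate. -/

namespace Vale.Agent.P045.R6

set_option maxRecDepth 100000

theorem c196_0 : chk (nat_lit 196000) (nat_lit 100) = true := by decide +kernel

theorem c196_1 : chk (nat_lit 196100) (nat_lit 100) = true := by decide +kernel

theorem c196_2 : chk (nat_lit 196200) (nat_lit 100) = true := by decide +kernel

theorem c196_3 : chk (nat_lit 196300) (nat_lit 100) = true := by decide +kernel

theorem c196_4 : chk (nat_lit 196400) (nat_lit 100) = true := by decide +kernel

theorem c196_5 : chk (nat_lit 196500) (nat_lit 100) = true := by decide +kernel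

theorem c196_6 : chk (nat_lit 196600) (nat_lit 100) = true := by decide +kernel

theorem c196_7 : chk (nat_lit 196700) (nat_lit 100) = true := by decide +kernel

theorem c196_8 : chk (nat_lit 196800) (nat_lit 100) = true := by decide +kernel

theorem c196_9 : chk (nat_lit 196900) (nat_lit 100) = true := by decide +kernel


theorem all196 : ∀ i, 196000 ≤ i → i < 197000 → Good i := (good_chain (good_chain (good_chain (good_chain (good_chain (good_chain (good_chain (good_chain (good_chain (good_of_chk c196_0) (good_of_chk c196_1)) (good_of_chk c196_2)) (good_of_chk c196_3)) (good_of_chk c196_4)) (good_of_chk c196_5)) (good_of_chk c196_6)) (good_of_chk c196_7)) (good_of_chk c196_8)) (good_of_chk c196_9))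


end Vale.Agent.P045.R6
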