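import Vale.Agent.P045.R6.Rows

/-! Checks of the rows of a certificate. -/

namespace Vale.Agent.P045.R6

set_option maxRecDepth 100000

theorem c197_0 : chk (nat_lit 197000) (nat_lit 100) = true := by decide +kernel

theorem c197_1 : chk (nat_lit 197100) (nat_lit 100) = true := by decide +kernel

theorem c197_2 : chk (nat_lit 197200) (nat_lit 100) = true := by decide +kernel

theorem c197_3 : chk (nat_lit 197300) (nat_lit 100) = true := by decide +kernel

theorem c197_4 : chk (nat_lit 197400) (nat_lit 100) = true := by decide +kernel

theorem c197_5 : chk (nat_lit 197500) (nat_lit 100) = true := by decide +kernel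

theorem c197_6 : chk (nat_lit 197600) (nat_lit 100) = true := by decide +kernel

theorem c197_7 : chk (nat_lit 197700) (nat_lit 100) = true := by decide +kernel

theorem c197_8 : chk (nat_lit 197800) (nat_lit 100) = true := by decide +kernel

theorem c197_9 : chk (nat_lit 197900) (nat_lit 100) = true := by decide +kernel


theorem all197 : ∀ i, 197000 ≤ i → i < 198000 → Good i := (good_chain (good_chain (good_chain (good_chain (good_chain (good_chain (good_chain (good_chain (good_chain (good_of_chk c197_0) (good_of_chk c197_1)) (good_of_chk c197_2)) (good_of_chk c197_3)) (good_of_chk c197_4)) (good_of_chk c197_5)) (good_of_chk c197_6)) (good_of_chk c197_7)) (good_of_chk c197_8)) (good_of_chk c197_9))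


end Vale.Agent.P045.R6
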