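import Vale.Agent.P045.R6.Rows

/-! Checks of the rows of a certificate. -/

namespace Vale.Agent.P045.R6

set_option maxRecDepth 100000

theorem c198_0 : chk (nat_lit 198000) (nat_lit 100) = true := by decide +kernel

theorem c198_1 : chk (nat_lit 198100) (nat_lit 100) = true := by decide +kernel

theorem c198_2 : chk (nat_lit 198200) (nat_lit 100) = true := by decide +kernel

theorem c198_3 : chk (nat_lit 198300) (nat_lit 100) = true := by decide +kernel

theorem c198_4 : chk (nat_lit 198400) (nat_lit 100) = true := by decide +kernel

theorem c198_5 : chk (nat_lit 198500) (nat_lit 100) = true := by decide +kernel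

theorem c198_6 : chk (nat_lit 198600) (nat_lit 100) = true := by decide +kernel

theorem c198_7 : chk (nat_lit 198700) (nat_lit 100) = true := by decide +kernel

theorem c198_8 : chk (nat_lit 198800) (nat_lit 100) = true := by decide +kernel

theorem c198_9 : chk (nat_lit 198900) (nat_lit 100) = true := by decide +kernel


theorem all198 : ∀ i, 198000 ≤ i → i < 199000 → Good i := (good_chain (good_chain (good_chain (good_chain (good_chain (good_chain (good_chain (good_chain (good_chain (good_of_chk c198_0) (good_of_chk c198_1)) (good_of_chk c198_2)) (good_of_chk c198_3)) (good_of_chk c198_4)) (good_of_chk c198_5)) (good_of_chk c198_6)) (good_of_chk c198_7)) (good_of_chk c198_8)) (good_of_chk c198_9))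


end Vale.Agent.P045.R6
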