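import Vale.Agent.P045.R6.Rows

/-! Checks of the rows of a certificate. -/

namespace Vale.Agent.P045.R6

set_option maxRecDepth 100000

theorem c199_0 : chk (nat_lit 199000) (nat_lit 100) = true := by decide +kernel

theorem c199_1 : chk (nat_lit 199100) (nat_lit 100) = true := by decide +kernel

theorem c199_2 : chk (nat_lit 199200) (nat_lit 100) = true := by decide +kernel

theorem c199_3 : chk (nat_lit 199300) (nat_lit 100) = true := by decide +kernel

theorem c199_4 : chk (nat_lit 199400) (nat_lit 100) = true := by decide +kernel

theorem c199_5 : chk (nat_lit 199500) (nat_lit 100) = true := by decide +kernel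

theorem c199_6 : chk (nat_lit 199600) (nat_lit 100) = true := by decide +kernel

theorem c199_7 : chk (nat_lit 199700) (nat_lit 100) = true := by decide +kernel

theorem c199_8 : chk (nat_lit 199800) (nat_lit 100) = true := by decide +kernel

theorem c199_9 : chk (nat_lit 199900) (nat_lit 100) = true := by decide +kernel


theorem all199 : ∀ i, 199000 ≤ i → i < 200000 → Good i := (good_chain (good_chain (good_chain (good_chain (good_chain (good_chain (good_chain (good_chain (good_chain (good_of_chk c199_0) (good_of_chk c199_1)) (good_of_chk c199_2)) (good_of_chk c199_3)) (good_of_chk c199_4)) (good_of_chk c199_5)) (good_of_chk c199_6)) (good_of_chk c199_7)) (good_of_chk c199_8)) (good_of_chk c199_9))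


end Vale.Agent.P045.R6
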