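import Vale.Agent.P045.R6.Rows

/-! Checks of the rows of a certificate. -/

namespace Vale.Agent.P045.R6

set_option maxRecDepth 100000

theorem c2_0 : chk (nat_lit 2000) (nat_lit 100) = true := by decide +kernel

theorem c2_1 : chk (nat_lit 2100) (nat_lit 100) = true := by decide +kernel

theorem c2_2 : chk (nat_lit 2200) (nat_lit 100) = true := by decide +kernel

theorem c2_3 : chk (nat_lit 2300) (nat_lit 100) = true := by decide +kernel

theorem c2_4 : chk (nat_lit 2400) (nat_lit 100) = true := by decide +kernel

theorem c2_5 : chk (nat_lit 2500) (nat_lit 100) = true := by decide +kernel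

theorem c2_6 : chk (nat_lit 2600) (nat_lit 100) = true := by decide +kernel

theorem c2_7 : chk (nat_lit 2700) (nat_lit 100) = true := by decide +kernel

theorem c2_8 : chk (nat_lit 2800) (nat_lit 100) = true := by decide +kernel

theorem c2_9 : chk (nat_lit 2900) (nat_lit 100) = true := by decide +kernel


theorem all2 : ∀ i, 2000 ≤ i → i < 3000 → Good i := (good_chain (good_chain (good_chain (good_chain (good_chain (good_chain (good_chain (good_chain (good_chain (good_of_chk c2_0) (good_of_chk c2_1)) (good_of_chk c2_2)) (good_of_chk c2_3)) (good_of_chk c2_4)) (good_of_chk c2_5)) (good_of_chk c2_6)) (good_of_chk c2_7)) (good_of_chk c2_8)) (good_of_chk c2_9))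


end Vale.Agent.P045.R6
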