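import Vale.Agent.P045.R6.Rows

/-! Checks of the rows of a certificate. -/

namespace Vale.Agent.P045.R6

set_option maxRecDepth 100000

theorem c20_0 : chk (nat_lit 20000) (nat_lit 100) = true := by decide +kernel

theorem c20_1 : chk (nat_lit 20100) (nat_lit 100) = true := by decide +kernel

theorem c20_2 : chk (nat_lit 20200) (nat_lit 100) = true := by decide +kernel

theorem c20_3 : chk (nat_lit 20300) (nat_lit 100) = true := by decide +kernel

theorem c20_4 : chk (nat_lit 20400) (nat_lit 100) = true := by decide +kernel

theorem c20_5 : chk (nat_lit 20500) (nat_lit 100) = true := by decide +kernel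

theorem c20_6 : chk (nat_lit 20600) (nat_lit 100) = true := by decide +kernel

theorem c20_7 : chk (nat_lit 20700) (nat_lit 100) = true := by decide +kernel

theorem c20_8 : chk (nat_lit 20800) (nat_lit 100) = true := by decide +kernel

theorem c20_9 : chk (nat_lit 20900) (nat_lit 100) = true := by decide +kernel


theorem all20 : ∀ i, 20000 ≤ i → i < 21000 → Good i := (good_chain (good_chain (good_chain (good_chain (good_chain (good_chain (good_chain (good_chain (good_chain (good_of_chk c20_0) (good_of_chk c20_1)) (good_of_chk c20_2)) (good_of_chk c20_3)) (good_of_chk c20_4)) (good_of_chk c20_5)) (good_of_chk c20_6)) (good_of_chk c20_7)) (good_of_chk c20_8)) (good_of_chk c20_9))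


end Vale.Agent.P045.R6
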