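import Vale.Agent.P045.R6.Rows

/-! Checks of the rows of a certificate. -/

namespace Vale.Agent.P045.R6

set_option maxRecDepth 100000

theorem c200_0 : chk (nat_lit 200000) (nat_lit 100) = true := by decide +kernel

theorem c200_1 : chk (nat_lit 200100) (nat_lit 100) = true := by decide +kernel

theorem c200_2 : chk (nat_lit 200200) (nat_lit 100) = true := by decide +kernel

theorem c200_3 : chk (nat_lit 200300) (nat_lit 100) = true := by decide +kernel

theorem c200_4 : chk (nat_lit 200400) (nat_lit 100) = true := by decide +kernel

theorem c200_5 : chk (nat_lit 200500) (nat_lit 100) = true := by decide +kernel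

theorem c200_6 : chk (nat_lit 200600) (nat_lit 100) = true := by decide +kernel

theorem c200_7 : chk (nat_lit 200700) (nat_lit 100) = true := by decide +kernel

theorem c200_8 : chk (nat_lit 200800) (nat_lit 100) = true := by decide +kernel

theorem c200_9 : chk (nat_lit 200900) (nat_lit 100) = true := by decide +kernel


theorem all200 : ∀ i, 200000 ≤ i → i < 201000 → Good i := (good_chain (good_chain (good_chain (good_chain (good_chain (good_chain (good_chain (good_chain (good_chain (good_of_chk c200_0) (good_of_chk c200_1)) (good_of_chk c200_2)) (good_of_chk c200_3)) (good_of_chk c200_4)) (good_of_chk c200_5)) (good_of_chk c200_6)) (good_of_chk c200_7)) (good_of_chk c200_8)) (good_of_chk c200_9))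


end Vale.Agent.P045.R6
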