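import Vale.Agent.P045.R6.Rows

/-! Checks of the rows of a certificate. -/

namespace Vale.Agent.P045.R6

set_option maxRecDepth 100000

theorem c201_0 : chk (nat_lit 201000) (nat_lit 100) = true := by decide +kernel

theorem c201_1 : chk (nat_lit 201100) (nat_lit 100) = true := by decide +kernel

theorem c201_2 : chk (nat_lit 201200) (nat_lit 100) = true := by decide +kernel

theorem c201_3 : chk (nat_lit 201300) (nat_lit 100) = true := by decide +kernel

theorem c201_4 : chk (nat_lit 201400) (nat_lit 100) = true := by decide +kernel

theorem c201_5 : chk (nat_lit 201500) (nat_lit 100) = true := by decide +kernel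

theorem c201_6 : chk (nat_lit 201600) (nat_lit 100) = true := by decide +kernel

theorem c201_7 : chk (nat_lit 201700) (nat_lit 100) = true := by decide +kernel

theorem c201_8 : chk (nat_lit 201800) (nat_lit 100) = true := by decide +kernel

theorem c201_9 : chk (nat_lit 201900) (nat_lit 100) = true := by decide +kernel


theorem all201 : ∀ i, 201000 ≤ i → i < 202000 → Good i := (good_chain (good_chain (good_chain (good_chain (good_chain (good_chain (good_chain (good_chain (good_chain (good_of_chk c201_0) (good_of_chk c201_1)) (good_of_chk c201_2)) (good_of_chk c201_3)) (good_of_chk c201_4)) (good_of_chk c201_5)) (good_of_chk c201_6)) (good_of_chk c201_7)) (good_of_chk c201_8)) (good_of_chk c201_9))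


end Vale.Agent.P045.R6
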