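import Vale.Agent.P045.R6.Rows

/-! Checks of the rows of a certificate. -/

namespace Vale.Agent.P045.R6

set_option maxRecDepth 100000

theorem c202_0 : chk (nat_lit 202000) (nat_lit 100) = true := by decide +kernel

theorem c202_1 : chk (nat_lit 202100) (nat_lit 100) = true := by decide +kernel

theorem c202_2 : chk (nat_lit 202200) (nat_lit 100) = true := by decide +kernel

theorem c202_3 : chk (nat_lit 202300) (nat_lit 100) = true := by decide +kernel

theorem c202_4 : chk (nat_lit 202400) (nat_lit 100) = true := by decide +kernel

theorem c202_5 : chk (nat_lit 202500) (nat_lit 100) = true := by decide +kernel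

theorem c202_6 : chk (nat_lit 202600) (nat_lit 100) = true := by decide +kernel

theorem c202_7 : chk (nat_lit 202700) (nat_lit 100) = true := by decide +kernel

theorem c202_8 : chk (nat_lit 202800) (nat_lit 100) = true := by decide +kernel

theorem c202_9 : chk (nat_lit 202900) (nat_lit 100) = true := by decide +kernel


theorem all202 : ∀ i, 202000 ≤ i → i < 203000 → Good i := (good_chain (good_chain (good_chain (good_chain (good_chain (good_chain (good_chain (good_chain (good_chain (good_of_chk c202_0) (good_of_chk c202_1)) (good_of_chk c202_2)) (good_of_chk c202_3)) (good_of_chk c202_4)) (good_of_chk c202_5)) (good_of_chk c202_6)) (good_of_chk c202_7)) (good_of_chk c202_8)) (good_of_chk c202_9))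


end Vale.Agent.P045.R6
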