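import Vale.Agent.P045.R6.Rows

/-! Checks of the rows of a certificate. -/

namespace Vale.Agent.P045.R6

set_option maxRecDepth 100000

theorem c203_0 : chk (nat_lit 203000) (nat_lit 100) = true := by decide +kernel

theorem c203_1 : chk (nat_lit 203100) (nat_lit 100) = true := by decide +kernel

theorem c203_2 : chk (nat_lit 203200) (nat_lit 100) = true := by decide +kernel

theorem c203_3 : chk (nat_lit 203300) (nat_lit 100) = true := by decide +kernel

theorem c203_4 : chk (nat_lit 203400) (nat_lit 100) = true := by decide +kernel

theorem c203_5 : chk (nat_lit 203500) (nat_lit 100) = true := by decide +kernel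

theorem c203_6 : chk (nat_lit 203600) (nat_lit 100) = true := by decide +kernel

theorem c203_7 : chk (nat_lit 203700) (nat_lit 100) = true := by decide +kernel

theorem c203_8 : chk (nat_lit 203800) (nat_lit 100) = true := by decide +kernel

theorem c203_9 : chk (nat_lit 203900) (nat_lit 100) = true := by decide +kernel


theorem all203 : ∀ i, 203000 ≤ i → i < 204000 → Good i := (good_chain (good_chain (good_chain (good_chain (good_chain (good_chain (good_chain (good_chain (good_chain (good_of_chk c203_0) (good_of_chk c203_1)) (good_of_chk c203_2)) (good_of_chk c203_3)) (good_of_chk c203_4)) (good_of_chk c203_5)) (good_of_chk c203_6)) (good_of_chk c203_7)) (good_of_chk c203_8)) (good_of_chk c203_9))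


end Vale.Agent.P045.R6
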