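import Vale.Agent.P045.R6.Rows

/-! Checks of the rows of a certificate. -/

namespace Vale.Agent.P045.R6

set_option maxRecDepth 100000

theorem c204_0 : chk (nat_lit 204000) (nat_lit 100) = true := by decide +kernel

theorem c204_1 : chk (nat_lit 204100) (nat_lit 100) = true := by decide +kernel

theorem c204_2 : chk (nat_lit 204200) (nat_lit 100) = true := by decide +kernel

theorem c204_3 : chk (nat_lit 204300) (nat_lit 100) = true := by decide +kernel

theorem c204_4 : chk (nat_lit 204400) (nat_lit 100) = true := by decide +kernel

theorem c204_5 : chk (nat_lit 204500) (nat_lit 100) = true := by decide +kernel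

theorem c204_6 : chk (nat_lit 204600) (nat_lit 100) = true := by decide +kernel

theorem c204_7 : chk (nat_lit 204700) (nat_lit 100) = true := by decide +kernel

theorem c204_8 : chk (nat_lit 204800) (nat_lit 100) = true := by decide +kernel

theorem c204_9 : chk (nat_lit 204900) (nat_lit 100) = true := by decide +kernel


theorem all204 : ∀ i, 204000 ≤ i → i < 205000 → Good i := (good_chain (good_chain (good_chain (good_chain (good_chain (good_chain (good_chain (good_chain (good_chain (good_of_chk c204_0) (good_of_chk c204_1)) (good_of_chk c204_2)) (good_of_chk c204_3)) (good_of_chk c204_4)) (good_of_chk c204_5)) (good_of_chk c204_6)) (good_of_chk c204_7)) (good_of_chk c204_8)) (good_of_chk c204_9))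


end Vale.Agent.P045.R6
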