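import Vale.Agent.P045.R6.Rows

/-! Checks of the rows of a certificate. -/

namespace Vale.Agent.P045.R6

set_option maxRecDepth 100000

theorem c205_0 : chk (nat_lit 205000) (nat_lit 100) = true := by decide +kernel

theorem c205_1 : chk (nat_lit 205100) (nat_lit 100) = true := by decide +kernel

theorem c205_2 : chk (nat_lit 205200) (nat_lit 100) = true := by decide +kernel

theorem c205_3 : chk (nat_lit 205300) (nat_lit 100) = true := by decide +kernel

theorem c205_4 : chk (nat_lit 205400) (nat_lit 100) = true := by decide +kernel

theorem c205_5 : chk (nat_lit 205500) (nat_lit 100) = true := by decide +kernel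

theorem c205_6 : chk (nat_lit 205600) (nat_lit 100) = true := by decide +kernel

theorem c205_7 : chk (nat_lit 205700) (nat_lit 100) = true := by decide +kernel

theorem c205_8 : chk (nat_lit 205800) (nat_lit 100) = true := by decide +kernel

theorem c205_9 : chk (nat_lit 205900) (nat_lit 100) = true := by decide +kernel


theorem all205 : ∀ i, 205000 ≤ i → i < 206000 → Good i := (good_chain (good_chain (good_chain (good_chain (good_chain (good_chain (good_chain (good_chain (good_chain (good_of_chk c205_0) (good_of_chk c205_1)) (good_of_chk c205_2)) (good_of_chk c205_3)) (good_of_chk c205_4)) (good_of_chk c205_5)) (good_of_chk c205_6)) (good_of_chk c205_7)) (good_of_chk c205_8)) (good_of_chk c205_9))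


end Vale.Agent.P045.R6
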