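import Vale.Agent.P045.R6.Rows

/-! Checks of the rows of a certificate. -/

namespace Vale.Agent.P045.R6

set_option maxRecDepth 100000

theorem c206_0 : chk (nat_lit 206000) (nat_lit 100) = true := by decide +kernel

theorem c206_1 : chk (nat_lit 206100) (nat_lit 100) = true := by decide +kernel

theorem c206_2 : chk (nat_lit 206200) (nat_lit 100) = true := by decide +kernel

theorem c206_3 : chk (nat_lit 206300) (nat_lit 100) = true := by decide +kernel

theorem c206_4 : chk (nat_lit 206400) (nat_lit 100) = true := by decide +kernel

theorem c206_5 : chk (nat_lit 206500) (nat_lit 100) = true := by decide +kernel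

theorem c206_6 : chk (nat_lit 206600) (nat_lit 100) = true := by decide +kernel

theorem c206_7 : chk (nat_lit 206700) (nat_lit 100) = true := by decide +kernel

theorem c206_8 : chk (nat_lit 206800) (nat_lit 100) = true := by decide +kernel

theorem c206_9 : chk (nat_lit 206900) (nat_lit 100) = true := by decide +kernel


theorem all206 : ∀ i, 206000 ≤ i → i < 207000 → Good i := (good_chain (good_chain (good_chain (good_chain (good_chain (good_chain (good_chain (good_chain (good_chain (good_of_chk c206_0) (good_of_chk c206_1)) (good_of_chk c206_2)) (good_of_chk c206_3)) (good_of_chk c206_4)) (good_of_chk c206_5)) (good_of_chk c206_6)) (good_of_chk c206_7)) (good_of_chk c206_8)) (good_of_chk c206_9))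


end Vale.Agent.P045.R6
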