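import Vale.Agent.P045.R6.Rows

/-! Checks of the rows of a certificate. -/

namespace Vale.Agent.P045.R6

set_option maxRecDepth 100000

theorem c207_0 : chk (nat_lit 207000) (nat_lit 100) = true := by decide +kernel

theorem c207_1 : chk (nat_lit 207100) (nat_lit 100) = true := by decide +kernel

theorem c207_2 : chk (nat_lit 207200) (nat_lit 100) = true := by decide +kernel

theorem c207_3 : chk (nat_lit 207300) (nat_lit 100) = true := by decide +kernel

theorem c207_4 : chk (nat_lit 207400) (nat_lit 100) = true := by decide +kernel

theorem c207_5 : chk (nat_lit 207500) (nat_lit 100) = true := by decide +kernel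

theorem c207_6 : chk (nat_lit 207600) (nat_lit 100) = true := by decide +kernel

theorem c207_7 : chk (nat_lit 207700) (nat_lit 100) = true := by decide +kernel

theorem c207_8 : chk (nat_lit 207800) (nat_lit 100) = true := by decide +kernel

theorem c207_9 : chk (nat_lit 207900) (nat_lit 100) = true := by decide +kernel


theorem all207 : ∀ i, 207000 ≤ i → i < 208000 → Good i := (good_chain (good_chain (good_chain (good_chain (good_chain (good_chain (good_chain (good_chain (good_chain (good_of_chk c207_0) (good_of_chk c207_1)) (good_of_chk c207_2)) (good_of_chk c207_3)) (good_of_chk c207_4)) (good_of_chk c207_5)) (good_of_chk c207_6)) (good_of_chk c207_7)) (good_of_chk c207_8)) (good_of_chk c207_9))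


end Vale.Agent.P045.R6
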