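import Vale.Agent.P045.R6.Rows

/-! Checks of the rows of a certificate. -/

namespace Vale.Agent.P045.R6

set_option maxRecDepth 100000

theorem c208_0 : chk (nat_lit 208000) (nat_lit 100) = true := by decide +kernel

theorem c208_1 : chk (nat_lit 208100) (nat_lit 100) = true := by decide +kernel

theorem c208_2 : chk (nat_lit 208200) (nat_lit 100) = true := by decide +kernel

theorem c208_3 : chk (nat_lit 208300) (nat_lit 100) = true := by decide +kernel

theorem c208_4 : chk (nat_lit 208400) (nat_lit 100) = true := by decide +kernel

theorem c208_5 : chk (nat_lit 208500) (nat_lit 100) = true := by decide +kernel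

theorem c208_6 : chk (nat_lit 208600) (nat_lit 100) = true := by decide +kernel

theorem c208_7 : chk (nat_lit 208700) (nat_lit 100) = true := by decide +kernel

theorem c208_8 : chk (nat_lit 208800) (nat_lit 100) = true := by decide +kernel

theorem c208_9 : chk (nat_lit 208900) (nat_lit 100) = true := by decide +kernel


theorem all208 : ∀ i, 208000 ≤ i → i < 209000 → Good i := (good_chain (good_chain (good_chain (good_chain (good_chain (good_chain (good_chain (good_chain (good_chain (good_of_chk c208_0) (good_of_chk c208_1)) (good_of_chk c208_2)) (good_of_chk c208_3)) (good_of_chk c208_4)) (good_of_chk c208_5)) (good_of_chk c208_6)) (good_of_chk c208_7)) (good_of_chk c208_8)) (good_of_chk c208_9))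


end Vale.Agent.P045.R6
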