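import Vale.Agent.P045.R6.Rows

/-! Checks of the rows of a certificate. -/

namespace Vale.Agent.P045.R6

set_option maxRecDepth 100000

theorem c209_0 : chk (nat_lit 209000) (nat_lit 100) = true := by decide +kernel

theorem c209_1 : chk (nat_lit 209100) (nat_lit 100) = true := by decide +kernel

theorem c209_2 : chk (nat_lit 209200) (nat_lit 100) = true := by decide +kernel

theorem c209_3 : chk (nat_lit 209300) (nat_lit 100) = true := by decide +kernel

theorem c209_4 : chk (nat_lit 209400) (nat_lit 100) = true := by decide +kernel

theorem c209_5 : chk (nat_lit 209500) (nat_lit 100) = true := by decide +kernel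

theorem c209_6 : chk (nat_lit 209600) (nat_lit 100) = true := by decide +kernel

theorem c209_7 : chk (nat_lit 209700) (nat_lit 100) = true := by decide +kernel

theorem c209_8 : chk (nat_lit 209800) (nat_lit 100) = true := by decide +kernel

theorem c209_9 : chk (nat_lit 209900) (nat_lit 100) = true := by decide +kernel


theorem all209 : ∀ i, 209000 ≤ i → i < 210000 → Good i := (good_chain (good_chain (good_chain (good_chain (good_chain (good_chain (good_chain (good_chain (good_chain (good_of_chk c209_0) (good_of_chk c209_1)) (good_of_chk c209_2)) (good_of_chk c209_3)) (good_of_chk c209_4)) (good_of_chk c209_5)) (good_of_chk c209_6)) (good_of_chk c209_7)) (good_of_chk c209_8)) (good_of_chk c209_9))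


end Vale.Agent.P045.R6
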