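import Vale.Agent.P045.R6.Rows

/-! Checks of the rows of a certificate. -/

namespace Vale.Agent.P045.R6

set_option maxRecDepth 100000

theorem c21_0 : chk (nat_lit 21000) (nat_lit 100) = true := by decide +kernel

theorem c21_1 : chk (nat_lit 21100) (nat_lit 100) = true := by decide +kernel

theorem c21_2 : chk (nat_lit 21200) (nat_lit 100) = true := by decide +kernel

theorem c21_3 : chk (nat_lit 21300) (nat_lit 100) = true := by decide +kernel

theorem c21_4 : chk (nat_lit 21400) (nat_lit 100) = true := by decide +kernel

theorem c21_5 : chk (nat_lit 21500) (nat_lit 100) = true := by decide +kernel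

theorem c21_6 : chk (nat_lit 21600) (nat_lit 100) = true := by decide +kernel

theorem c21_7 : chk (nat_lit 21700) (nat_lit 100) = true := by decide +kernel

theorem c21_8 : chk (nat_lit 21800) (nat_lit 100) = true := by decide +kernel

theorem c21_9 : chk (nat_lit 21900) (nat_lit 100) = true := by decide +kernel


theorem all21 : ∀ i, 21000 ≤ i → i < 22000 → Good i := (good_chain (good_chain (good_chain (good_chain (good_chain (good_chain (good_chain (good_chain (good_chain (good_of_chk c21_0) (good_of_chk c21_1)) (good_of_chk c21_2)) (good_of_chk c21_3)) (good_of_chk c21_4)) (good_of_chk c21_5)) (good_of_chk c21_6)) (good_of_chk c21_7)) (good_of_chk c21_8)) (good_of_chk c21_9))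


end Vale.Agent.P045.R6
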