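import Vale.Agent.P045.R6.Rows

/-! Checks of the rows of a certificate. -/

namespace Vale.Agent.P045.R6

set_option maxRecDepth 100000

theorem c210_0 : chk (nat_lit 210000) (nat_lit 100) = true := by decide +kernel

theorem c210_1 : chk (nat_lit 210100) (nat_lit 100) = true := by decide +kernel

theorem c210_2 : chk (nat_lit 210200) (nat_lit 100) = true := by decide +kernel

theorem c210_3 : chk (nat_lit 210300) (nat_lit 100) = true := by decide +kernel

theorem c210_4 : chk (nat_lit 210400) (nat_lit 100) = true := by decide +kernel

theorem c210_5 : chk (nat_lit 210500) (nat_lit 100) = true := by decide +kernel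

theorem c210_6 : chk (nat_lit 210600) (nat_lit 100) = true := by decide +kernel

theorem c210_7 : chk (nat_lit 210700) (nat_lit 100) = true := by decide +kernel

theorem c210_8 : chk (nat_lit 210800) (nat_lit 100) = true := by decide +kernel

theorem c210_9 : chk (nat_lit 210900) (nat_lit 100) = true := by decide +kernel


theorem all210 : ∀ i, 210000 ≤ i → i < 211000 → Good i := (good_chain (good_chain (good_chain (good_chain (good_chain (good_chain (good_chain (good_chain (good_chain (good_of_chk c210_0) (good_of_chk c210_1)) (good_of_chk c210_2)) (good_of_chk c210_3)) (good_of_chk c210_4)) (good_of_chk c210_5)) (good_of_chk c210_6)) (good_of_chk c210_7)) (good_of_chk c210_8)) (good_of_chk c210_9))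


end Vale.Agent.P045.R6
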