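import Vale.Agent.P045.R6.Rows

/-! Checks of the rows of a certificate. -/

namespace Vale.Agent.P045.R6

set_option maxRecDepth 100000

theorem c211_0 : chk (nat_lit 211000) (nat_lit 100) = true := by decide +kernel

theorem c211_1 : chk (nat_lit 211100) (nat_lit 100) = true := by decide +kernel

theorem c211_2 : chk (nat_lit 211200) (nat_lit 100) = true := by decide +kernel

theorem c211_3 : chk (nat_lit 211300) (nat_lit 100) = true := by decide +kernel

theorem c211_4 : chk (nat_lit 211400) (nat_lit 100) = true := by decide +kernel

theorem c211_5 : chk (nat_lit 211500) (nat_lit 100) = true := by decide +kernel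

theorem c211_6 : chk (nat_lit 211600) (nat_lit 100) = true := by decide +kernel

theorem c211_7 : chk (nat_lit 211700) (nat_lit 100) = true := by decide +kernel

theorem c211_8 : chk (nat_lit 211800) (nat_lit 100) = true := by decide +kernel

theorem c211_9 : chk (nat_lit 211900) (nat_lit 100) = true := by decide +kernel


theorem all211 : ∀ i, 211000 ≤ i → i < 212000 → Good i := (good_chain (good_chain (good_chain (good_chain (good_chain (good_chain (good_chain (good_chain (good_chain (good_of_chk c211_0) (good_of_chk c211_1)) (good_of_chk c211_2)) (good_of_chk c211_3)) (good_of_chk c211_4)) (good_of_chk c211_5)) (good_of_chk c211_6)) (good_of_chk c211_7)) (good_of_chk c211_8)) (good_of_chk c211_9))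


end Vale.Agent.P045.R6
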