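import Vale.Agent.P045.R6.Rows

/-! Checks of the rows of a certificate. -/

namespace Vale.Agent.P045.R6

set_option maxRecDepth 100000

theorem c212_0 : chk (nat_lit 212000) (nat_lit 100) = true := by decide +kernel

theorem c212_1 : chk (nat_lit 212100) (nat_lit 100) = true := by decide +kernel

theorem c212_2 : chk (nat_lit 212200) (nat_lit 100) = true := by decide +kernel

theorem c212_3 : chk (nat_lit 212300) (nat_lit 100) = true := by decide +kernel

theorem c212_4 : chk (nat_lit 212400) (nat_lit 100) = true := by decide +kernel

theorem c212_5 : chk (nat_lit 212500) (nat_lit 100) = true := by decide +kernel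

theorem c212_6 : chk (nat_lit 212600) (nat_lit 100) = true := by decide +kernel

theorem c212_7 : chk (nat_lit 212700) (nat_lit 100) = true := by decide +kernel

theorem c212_8 : chk (nat_lit 212800) (nat_lit 100) = true := by decide +kernel

theorem c212_9 : chk (nat_lit 212900) (nat_lit 100) = true := by decide +kernel


theorem all212 : ∀ i, 212000 ≤ i → i < 213000 → Good i := (good_chain (good_chain (good_chain (good_chain (good_chain (good_chain (good_chain (good_chain (good_chain (good_of_chk c212_0) (good_of_chk c212_1)) (good_of_chk c212_2)) (good_of_chk c212_3)) (good_of_chk c212_4)) (good_of_chk c212_5)) (good_of_chk c212_6)) (good_of_chk c212_7)) (good_of_chk c212_8)) (good_of_chk c212_9))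


end Vale.Agent.P045.R6
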