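import Vale.Agent.P045.R6.Rows

/-! Checks of the rows of a certificate. -/

namespace Vale.Agent.P045.R6

set_option maxRecDepth 100000

theorem c213_0 : chk (nat_lit 213000) (nat_lit 100) = true := by decide +kernel

theorem c213_1 : chk (nat_lit 213100) (nat_lit 100) = true := by decide +kernel

theorem c213_2 : chk (nat_lit 213200) (nat_lit 100) = true := by decide +kernel

theorem c213_3 : chk (nat_lit 213300) (nat_lit 100) = true := by decide +kernel

theorem c213_4 : chk (nat_lit 213400) (nat_lit 100) = true := by decide +kernel

theorem c213_5 : chk (nat_lit 213500) (nat_lit 100) = true := by decide +kernel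

theorem c213_6 : chk (nat_lit 213600) (nat_lit 100) = true := by decide +kernel

theorem c213_7 : chk (nat_lit 213700) (nat_lit 100) = true := by decide +kernel

theorem c213_8 : chk (nat_lit 213800) (nat_lit 100) = true := by decide +kernel

theorem c213_9 : chk (nat_lit 213900) (nat_lit 100) = true := by decide +kernel


theorem all213 : ∀ i, 213000 ≤ i → i < 214000 → Good i := (good_chain (good_chain (good_chain (good_chain (good_chain (good_chain (good_chain (good_chain (good_chain (good_of_chk c213_0) (good_of_chk c213_1)) (good_of_chk c213_2)) (good_of_chk c213_3)) (good_of_chk c213_4)) (good_of_chk c213_5)) (good_of_chk c213_6)) (good_of_chk c213_7)) (good_of_chk c213_8)) (good_of_chk c213_9))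


end Vale.Agent.P045.R6
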