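import Vale.Agent.P045.R6.Rows

/-! Checks of the rows of a certificate. -/

namespace Vale.Agent.P045.R6

set_option maxRecDepth 100000

theorem c214_0 : chk (nat_lit 214000) (nat_lit 100) = true := by decide +kernel

theorem c214_1 : chk (nat_lit 214100) (nat_lit 100) = true := by decide +kernel

theorem c214_2 : chk (nat_lit 214200) (nat_lit 100) = true := by decide +kernel

theorem c214_3 : chk (nat_lit 214300) (nat_lit 100) = true := by decide +kernel

theorem c214_4 : chk (nat_lit 214400) (nat_lit 100) = true := by decide +kernel

theorem c214_5 : chk (nat_lit 214500) (nat_lit 100) = true := by decide +kernel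

theorem c214_6 : chk (nat_lit 214600) (nat_lit 100) = true := by decide +kernel

theorem c214_7 : chk (nat_lit 214700) (nat_lit 100) = true := by decide +kernel

theorem c214_8 : chk (nat_lit 214800) (nat_lit 100) = true := by decide +kernel

theorem c214_9 : chk (nat_lit 214900) (nat_lit 100) = true := by decide +kernel


theorem all214 : ∀ i, 214000 ≤ i → i < 215000 → Good i := (good_chain (good_chain (good_chain (good_chain (good_chain (good_chain (good_chain (good_chain (good_chain (good_of_chk c214_0) (good_of_chk c214_1)) (good_of_chk c214_2)) (good_of_chk c214_3)) (good_of_chk c214_4)) (good_of_chk c214_5)) (good_of_chk c214_6)) (good_of_chk c214_7)) (good_of_chk c214_8)) (good_of_chk c214_9))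


end Vale.Agent.P045.R6
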