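import Vale.Agent.P045.R6.Rows

/-! Checks of the rows of a certificate. -/

namespace Vale.Agent.P045.R6

set_option maxRecDepth 100000

theorem c215_0 : chk (nat_lit 215000) (nat_lit 100) = true := by decide +kernel

theorem c215_1 : chk (nat_lit 215100) (nat_lit 100) = true := by decide +kernel

theorem c215_2 : chk (nat_lit 215200) (nat_lit 100) = true := by decide +kernel

theorem c215_3 : chk (nat_lit 215300) (nat_lit 100) = true := by decide +kernel

theorem c215_4 : chk (nat_lit 215400) (nat_lit 100) = true := by decide +kernel

theorem c215_5 : chk (nat_lit 215500) (nat_lit 100) = true := by decide +kernel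

theorem c215_6 : chk (nat_lit 215600) (nat_lit 100) = true := by decide +kernel

theorem c215_7 : chk (nat_lit 215700) (nat_lit 100) = true := by decide +kernel

theorem c215_8 : chk (nat_lit 215800) (nat_lit 100) = true := by decide +kernel

theorem c215_9 : chk (nat_lit 215900) (nat_lit 100) = true := by decide +kernel


theorem all215 : ∀ i, 215000 ≤ i → i < 216000 → Good i := (good_chain (good_chain (good_chain (good_chain (good_chain (good_chain (good_chain (good_chain (good_chain (good_of_chk c215_0) (good_of_chk c215_1)) (good_of_chk c215_2)) (good_of_chk c215_3)) (good_of_chk c215_4)) (good_of_chk c215_5)) (good_of_chk c215_6)) (good_of_chk c215_7)) (good_of_chk c215_8)) (good_of_chk c215_9))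


end Vale.Agent.P045.R6
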