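import Vale.Agent.P045.R6.Rows

/-! Checks of the rows of a certificate. -/

namespace Vale.Agent.P045.R6

set_option maxRecDepth 100000

theorem c216_0 : chk (nat_lit 216000) (nat_lit 100) = true := by decide +kernel

theorem c216_1 : chk (nat_lit 216100) (nat_lit 100) = true := by decide +kernel

theorem c216_2 : chk (nat_lit 216200) (nat_lit 100) = true := by decide +kernel

theorem c216_3 : chk (nat_lit 216300) (nat_lit 100) = true := by decide +kernel

theorem c216_4 : chk (nat_lit 216400) (nat_lit 100) = true := by decide +kernel

theorem c216_5 : chk (nat_lit 216500) (nat_lit 100) = true := by decide +kernel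

theorem c216_6 : chk (nat_lit 216600) (nat_lit 100) = true := by decide +kernel

theorem c216_7 : chk (nat_lit 216700) (nat_lit 100) = true := by decide +kernel

theorem c216_8 : chk (nat_lit 216800) (nat_lit 100) = true := by decide +kernel

theorem c216_9 : chk (nat_lit 216900) (nat_lit 100) = true := by decide +kernel


theorem all216 : ∀ i, 216000 ≤ i → i < 217000 → Good i := (good_chain (good_chain (good_chain (good_chain (good_chain (good_chain (good_chain (good_chain (good_chain (good_of_chk c216_0) (good_of_chk c216_1)) (good_of_chk c216_2)) (good_of_chk c216_3)) (good_of_chk c216_4)) (good_of_chk c216_5)) (good_of_chk c216_6)) (good_of_chk c216_7)) (good_of_chk c216_8)) (good_of_chk c216_9))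


end Vale.Agent.P045.R6
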