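import Vale.Agent.P045.R6.Rows

/-! Checks of the rows of a certificate. -/

namespace Vale.Agent.P045.R6

set_option maxRecDepth 100000

theorem c217_0 : chk (nat_lit 217000) (nat_lit 100) = true := by decide +kernel

theorem c217_1 : chk (nat_lit 217100) (nat_lit 100) = true := by decide +kernel

theorem c217_2 : chk (nat_lit 217200) (nat_lit 100) = true := by decide +kernel

theorem c217_3 : chk (nat_lit 217300) (nat_lit 100) = true := by decide +kernel

theorem c217_4 : chk (nat_lit 217400) (nat_lit 100) = true := by decide +kernel

theorem c217_5 : chk (nat_lit 217500) (nat_lit 100) = true := by decide +kernel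

theorem c217_6 : chk (nat_lit 217600) (nat_lit 100) = true := by decide +kernel

theorem c217_7 : chk (nat_lit 217700) (nat_lit 100) = true := by decide +kernel

theorem c217_8 : chk (nat_lit 217800) (nat_lit 100) = true := by decide +kernel

theorem c217_9 : chk (nat_lit 217900) (nat_lit 100) = true := by decide +kernel


theorem all217 : ∀ i, 217000 ≤ i → i < 218000 → Good i := (good_chain (good_chain (good_chain (good_chain (good_chain (good_chain (good_chain (good_chain (good_chain (good_of_chk c217_0) (good_of_chk c217_1)) (good_of_chk c217_2)) (good_of_chk c217_3)) (good_of_chk c217_4)) (good_of_chk c217_5)) (good_of_chk c217_6)) (good_of_chk c217_7)) (good_of_chk c217_8)) (good_of_chk c217_9))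


end Vale.Agent.P045.R6
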