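import Vale.Agent.P045.R6.Rows

/-! Checks of the rows of a certificate. -/

namespace Vale.Agent.P045.R6

set_option maxRecDepth 100000

theorem c218_0 : chk (nat_lit 218000) (nat_lit 100) = true := by decide +kernel

theorem c218_1 : chk (nat_lit 218100) (nat_lit 100) = true := by decide +kernel

theorem c218_2 : chk (nat_lit 218200) (nat_lit 100) = true := by decide +kernel

theorem c218_3 : chk (nat_lit 218300) (nat_lit 100) = true := by decide +kernel

theorem c218_4 : chk (nat_lit 218400) (nat_lit 100) = true := by decide +kernel

theorem c218_5 : chk (nat_lit 218500) (nat_lit 100) = true := by decide +kernel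

theorem c218_6 : chk (nat_lit 218600) (nat_lit 100) = true := by decide +kernel

theorem c218_7 : chk (nat_lit 218700) (nat_lit 100) = true := by decide +kernel

theorem c218_8 : chk (nat_lit 218800) (nat_lit 100) = true := by decide +kernel

theorem c218_9 : chk (nat_lit 218900) (nat_lit 100) = true := by decide +kernel


theorem all218 : ∀ i, 218000 ≤ i → i < 219000 → Good i := (good_chain (good_chain (good_chain (good_chain (good_chain (good_chain (good_chain (good_chain (good_chain (good_of_chk c218_0) (good_of_chk c218_1)) (good_of_chk c218_2)) (good_of_chk c218_3)) (good_of_chk c218_4)) (good_of_chk c218_5)) (good_of_chk c218_6)) (good_of_chk c218_7)) (good_of_chk c218_8)) (good_of_chk c218_9))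


end Vale.Agent.P045.R6
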