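import Vale.Agent.P045.R6.Rows

/-! Checks of the rows of a certificate. -/

namespace Vale.Agent.P045.R6

set_option maxRecDepth 100000

theorem c219_0 : chk (nat_lit 219000) (nat_lit 100) = true := by decide +kernel

theorem c219_1 : chk (nat_lit 219100) (nat_lit 100) = true := by decide +kernel

theorem c219_2 : chk (nat_lit 219200) (nat_lit 100) = true := by decide +kernel

theorem c219_3 : chk (nat_lit 219300) (nat_lit 100) = true := by decide +kernel

theorem c219_4 : chk (nat_lit 219400) (nat_lit 100) = true := by decide +kernel

theorem c219_5 : chk (nat_lit 219500) (nat_lit 100) = true := by decide +kernel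

theorem c219_6 : chk (nat_lit 219600) (nat_lit 100) = true := by decide +kernel

theorem c219_7 : chk (nat_lit 219700) (nat_lit 100) = true := by decide +kernel

theorem c219_8 : chk (nat_lit 219800) (nat_lit 100) = true := by decide +kernel

theorem c219_9 : chk (nat_lit 219900) (nat_lit 100) = true := by decide +kernel


theorem all219 : ∀ i, 219000 ≤ i → i < 220000 → Good i := (good_chain (good_chain (good_chain (good_chain (good_chain (good_chain (good_chain (good_chain (good_chain (good_of_chk c219_0) (good_of_chk c219_1)) (good_of_chk c219_2)) (good_of_chk c219_3)) (good_of_chk c219_4)) (good_of_chk c219_5)) (good_of_chk c219_6)) (good_of_chk c219_7)) (good_of_chk c219_8)) (good_of_chk c219_9))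


end Vale.Agent.P045.R6
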