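import Vale.Agent.P045.R6.Rows

/-! Checks of the rows of a certificate. -/

namespace Vale.Agent.P045.R6

set_option maxRecDepth 100000

theorem c22_0 : chk (nat_lit 22000) (nat_lit 100) = true := by decide +kernel

theorem c22_1 : chk (nat_lit 22100) (nat_lit 100) = true := by decide +kernel

theorem c22_2 : chk (nat_lit 22200) (nat_lit 100) = true := by decide +kernel

theorem c22_3 : chk (nat_lit 22300) (nat_lit 100) = true := by decide +kernel

theorem c22_4 : chk (nat_lit 22400) (nat_lit 100) = true := by decide +kernel

theorem c22_5 : chk (nat_lit 22500) (nat_lit 100) = true := by decide +kernel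

theorem c22_6 : chk (nat_lit 22600) (nat_lit 100) = true := by decide +kernel

theorem c22_7 : chk (nat_lit 22700) (nat_lit 100) = true := by decide +kernel

theorem c22_8 : chk (nat_lit 22800) (nat_lit 100) = true := by decide +kernel

theorem c22_9 : chk (nat_lit 22900) (nat_lit 100) = true := by decide +kernel


theorem all22 : ∀ i, 22000 ≤ i → i < 23000 → Good i := (good_chain (good_chain (good_chain (good_chain (good_chain (good_chain (good_chain (good_chain (good_chain (good_of_chk c22_0) (good_of_chk c22_1)) (good_of_chk c22_2)) (good_of_chk c22_3)) (good_of_chk c22_4)) (good_of_chk c22_5)) (good_of_chk c22_6)) (good_of_chk c22_7)) (good_of_chk c22_8)) (good_of_chk c22_9))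


end Vale.Agent.P045.R6
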