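import Vale.Agent.P045.R6.Rows

/-! Checks of the rows of a certificate. -/

namespace Vale.Agent.P045.R6

set_option maxRecDepth 100000

theorem c220_0 : chk (nat_lit 220000) (nat_lit 100) = true := by decide +kernel

theorem c220_1 : chk (nat_lit 220100) (nat_lit 100) = true := by decide +kernel

theorem c220_2 : chk (nat_lit 220200) (nat_lit 100) = true := by decide +kernel

theorem c220_3 : chk (nat_lit 220300) (nat_lit 100) = true := by decide +kernel

theorem c220_4 : chk (nat_lit 220400) (nat_lit 100) = true := by decide +kernel

theorem c220_5 : chk (nat_lit 220500) (nat_lit 100) = true := by decide +kernel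

theorem c220_6 : chk (nat_lit 220600) (nat_lit 100) = true := by decide +kernel

theorem c220_7 : chk (nat_lit 220700) (nat_lit 100) = true := by decide +kernel

theorem c220_8 : chk (nat_lit 220800) (nat_lit 100) = true := by decide +kernel

theorem c220_9 : chk (nat_lit 220900) (nat_lit 100) = true := by decide +kernel


theorem all220 : ∀ i, 220000 ≤ i → i < 221000 → Good i := (good_chain (good_chain (good_chain (good_chain (good_chain (good_chain (good_chain (good_chain (good_chain (good_of_chk c220_0) (good_of_chk c220_1)) (good_of_chk c220_2)) (good_of_chk c220_3)) (good_of_chk c220_4)) (good_of_chk c220_5)) (good_of_chk c220_6)) (good_of_chk c220_7)) (good_of_chk c220_8)) (good_of_chk c220_9))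


end Vale.Agent.P045.R6
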