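import Vale.Agent.P045.R6.Rows

/-! Checks of the rows of a certificate. -/

namespace Vale.Agent.P045.R6

set_option maxRecDepth 100000

theorem c221_0 : chk (nat_lit 221000) (nat_lit 100) = true := by decide +kernel

theorem c221_1 : chk (nat_lit 221100) (nat_lit 100) = true := by decide +kernel

theorem c221_2 : chk (nat_lit 221200) (nat_lit 100) = true := by decide +kernel

theorem c221_3 : chk (nat_lit 221300) (nat_lit 100) = true := by decide +kernel

theorem c221_4 : chk (nat_lit 221400) (nat_lit 100) = true := by decide +kernel

theorem c221_5 : chk (nat_lit 221500) (nat_lit 100) = true := by decide +kernel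

theorem c221_6 : chk (nat_lit 221600) (nat_lit 100) = true := by decide +kernel

theorem c221_7 : chk (nat_lit 221700) (nat_lit 100) = true := by decide +kernel

theorem c221_8 : chk (nat_lit 221800) (nat_lit 100) = true := by decide +kernel

theorem c221_9 : chk (nat_lit 221900) (nat_lit 100) = true := by decide +kernel


theorem all221 : ∀ i, 221000 ≤ i → i < 222000 → Good i := (good_chain (good_chain (good_chain (good_chain (good_chain (good_chain (good_chain (good_chain (good_chain (good_of_chk c221_0) (good_of_chk c221_1)) (good_of_chk c221_2)) (good_of_chk c221_3)) (good_of_chk c221_4)) (good_of_chk c221_5)) (good_of_chk c221_6)) (good_of_chk c221_7)) (good_of_chk c221_8)) (good_of_chk c221_9))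


end Vale.Agent.P045.R6
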