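import Vale.Agent.P045.R6.Rows

/-! Checks of the rows of a certificate. -/

namespace Vale.Agent.P045.R6

set_option maxRecDepth 100000

theorem c222_0 : chk (nat_lit 222000) (nat_lit 100) = true := by decide +kernel

theorem c222_1 : chk (nat_lit 222100) (nat_lit 100) = true := by decide +kernel

theorem c222_2 : chk (nat_lit 222200) (nat_lit 100) = true := by decide +kernel

theorem c222_3 : chk (nat_lit 222300) (nat_lit 100) = true := by decide +kernel

theorem c222_4 : chk (nat_lit 222400) (nat_lit 100) = true := by decide +kernel

theorem c222_5 : chk (nat_lit 222500) (nat_lit 100) = true := by decide +kernel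

theorem c222_6 : chk (nat_lit 222600) (nat_lit 100) = true := by decide +kernel

theorem c222_7 : chk (nat_lit 222700) (nat_lit 100) = true := by decide +kernel

theorem c222_8 : chk (nat_lit 222800) (nat_lit 100) = true := by decide +kernel

theorem c222_9 : chk (nat_lit 222900) (nat_lit 100) = true := by decide +kernel


theorem all222 : ∀ i, 222000 ≤ i → i < 223000 → Good i := (good_chain (good_chain (good_chain (good_chain (good_chain (good_chain (good_chain (good_chain (good_chain (good_of_chk c222_0) (good_of_chk c222_1)) (good_of_chk c222_2)) (good_of_chk c222_3)) (good_of_chk c222_4)) (good_of_chk c222_5)) (good_of_chk c222_6)) (good_of_chk c222_7)) (good_of_chk c222_8)) (good_of_chk c222_9))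


end Vale.Agent.P045.R6
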