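import Vale.Agent.P045.R6.Rows

/-! Checks of the rows of a certificate. -/

namespace Vale.Agent.P045.R6

set_option maxRecDepth 100000

theorem c223_0 : chk (nat_lit 223000) (nat_lit 100) = true := by decide +kernel

theorem c223_1 : chk (nat_lit 223100) (nat_lit 100) = true := by decide +kernel

theorem c223_2 : chk (nat_lit 223200) (nat_lit 100) = true := by decide +kernel

theorem c223_3 : chk (nat_lit 223300) (nat_lit 100) = true := by decide +kernel

theorem c223_4 : chk (nat_lit 223400) (nat_lit 100) = true := by decide +kernel

theorem c223_5 : chk (nat_lit 223500) (nat_lit 100) = true := by decide +kernel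

theorem c223_6 : chk (nat_lit 223600) (nat_lit 100) = true := by decide +kernel

theorem c223_7 : chk (nat_lit 223700) (nat_lit 100) = true := by decide +kernel

theorem c223_8 : chk (nat_lit 223800) (nat_lit 100) = true := by decide +kernel

theorem c223_9 : chk (nat_lit 223900) (nat_lit 79) = true := by decide +kernel


theorem all223 : ∀ i, 223000 ≤ i → i < 223979 → Good i := (good_chain (good_chain (good_chain (good_chain (good_chain (good_chain (good_chain (good_chain (good_chain (good_of_chk c223_0) (good_of_chk c223_1)) (good_of_chk c223_2)) (good_of_chk c223_3)) (good_of_chk c223_4)) (good_of_chk c223_5)) (good_of_chk c223_6)) (good_of_chk c223_7)) (good_of_chk c223_8)) (good_of_chk c223_9))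


end Vale.Agent.P045.R6
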