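import Vale.Agent.P045.R6.Rows

/-! Checks of the rows of a certificate. -/

namespace Vale.Agent.P045.R6

set_option maxRecDepth 100000

theorem c23_0 : chk (nat_lit 23000) (nat_lit 100) = true := by decide +kernel

theorem c23_1 : chk (nat_lit 23100) (nat_lit 100) = true := by decide +kernel

theorem c23_2 : chk (nat_lit 23200) (nat_lit 100) = true := by decide +kernel

theorem c23_3 : chk (nat_lit 23300) (nat_lit 100) = true := by decide +kernel

theorem c23_4 : chk (nat_lit 23400) (nat_lit 100) = true := by decide +kernel

theorem c23_5 : chk (nat_lit 23500) (nat_lit 100) = true := by decide +kernel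

theorem c23_6 : chk (nat_lit 23600) (nat_lit 100) = true := by decide +kernel

theorem c23_7 : chk (nat_lit 23700) (nat_lit 100) = true := by decide +kernel

theorem c23_8 : chk (nat_lit 23800) (nat_lit 100) = true := by decide +kernel

theorem c23_9 : chk (nat_lit 23900) (nat_lit 100) = true := by decide +kernel


theorem all23 : ∀ i, 23000 ≤ i → i < 24000 → Good i := (good_chain (good_chain (good_chain (good_chain (good_chain (good_chain (good_chain (good_chain (good_chain (good_of_chk c23_0) (good_of_chk c23_1)) (good_of_chk c23_2)) (good_of_chk c23_3)) (good_of_chk c23_4)) (good_of_chk c23_5)) (good_of_chk c23_6)) (good_of_chk c23_7)) (good_of_chk c23_8)) (good_of_chk c23_9))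


end Vale.Agent.P045.R6
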