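import Vale.Agent.P045.R6.Rows

/-! Checks of the rows of a certificate. -/

namespace Vale.Agent.P045.R6

set_option maxRecDepth 100000

theorem c24_0 : chk (nat_lit 24000) (nat_lit 100) = true := by decide +kernel

theorem c24_1 : chk (nat_lit 24100) (nat_lit 100) = true := by decide +kernel

theorem c24_2 : chk (nat_lit 24200) (nat_lit 100) = true := by decide +kernel

theorem c24_3 : chk (nat_lit 24300) (nat_lit 100) = true := by decide +kernel

theorem c24_4 : chk (nat_lit 24400) (nat_lit 100) = true := by decide +kernel

theorem c24_5 : chk (nat_lit 24500) (nat_lit 100) = true := by decide +kernel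

theorem c24_6 : chk (nat_lit 24600) (nat_lit 100) = true := by decide +kernel

theorem c24_7 : chk (nat_lit 24700) (nat_lit 100) = true := by decide +kernel

theorem c24_8 : chk (nat_lit 24800) (nat_lit 100) = true := by decide +kernel

theorem c24_9 : chk (nat_lit 24900) (nat_lit 100) = true := by decide +kernel


theorem all24 : ∀ i, 24000 ≤ i → i < 25000 → Good i := (good_chain (good_chain (good_chain (good_chain (good_chain (good_chain (good_chain (good_chain (good_chain (good_of_chk c24_0) (good_of_chk c24_1)) (good_of_chk c24_2)) (good_of_chk c24_3)) (good_of_chk c24_4)) (good_of_chk c24_5)) (good_of_chk c24_6)) (good_of_chk c24_7)) (good_of_chk c24_8)) (good_of_chk c24_9))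


end Vale.Agent.P045.R6
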