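import Vale.Agent.P045.R6.Rows

/-! Checks of the rows of a certificate. -/

namespace Vale.Agent.P045.R6

set_option maxRecDepth 100000

theorem c25_0 : chk (nat_lit 25000) (nat_lit 100) = true := by decide +kernel

theorem c25_1 : chk (nat_lit 25100) (nat_lit 100) = true := by decide +kernel

theorem c25_2 : chk (nat_lit 25200) (nat_lit 100) = true := by decide +kernel

theorem c25_3 : chk (nat_lit 25300) (nat_lit 100) = true := by decide +kernel

theorem c25_4 : chk (nat_lit 25400) (nat_lit 100) = true := by decide +kernel

theorem c25_5 : chk (nat_lit 25500) (nat_lit 100) = true := by decide +kernel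

theorem c25_6 : chk (nat_lit 25600) (nat_lit 100) = true := by decide +kernel

theorem c25_7 : chk (nat_lit 25700) (nat_lit 100) = true := by decide +kernel

theorem c25_8 : chk (nat_lit 25800) (nat_lit 100) = true := by decide +kernel

theorem c25_9 : chk (nat_lit 25900) (nat_lit 100) = true := by decide +kernel


theorem all25 : ∀ i, 25000 ≤ i → i < 26000 → Good i := (good_chain (good_chain (good_chain (good_chain (good_chain (good_chain (good_chain (good_chain (good_chain (good_of_chk c25_0) (good_of_chk c25_1)) (good_of_chk c25_2)) (good_of_chk c25_3)) (good_of_chk c25_4)) (good_of_chk c25_5)) (good_of_chk c25_6)) (good_of_chk c25_7)) (good_of_chk c25_8)) (good_of_chk c25_9))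


end Vale.Agent.P045.R6
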