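import Vale.Agent.P045.R6.Rows

/-! Checks of the rows of a certificate. -/

namespace Vale.Agent.P045.R6

set_option maxRecDepth 100000

theorem c26_0 : chk (nat_lit 26000) (nat_lit 100) = true := by decide +kernel

theorem c26_1 : chk (nat_lit 26100) (nat_lit 100) = true := by decide +kernel

theorem c26_2 : chk (nat_lit 26200) (nat_lit 100) = true := by decide +kernel

theorem c26_3 : chk (nat_lit 26300) (nat_lit 100) = true := by decide +kernel

theorem c26_4 : chk (nat_lit 26400) (nat_lit 100) = true := by decide +kernel

theorem c26_5 : chk (nat_lit 26500) (nat_lit 100) = true := by decide +kernel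

theorem c26_6 : chk (nat_lit 26600) (nat_lit 100) = true := by decide +kernel

theorem c26_7 : chk (nat_lit 26700) (nat_lit 100) = true := by decide +kernel

theorem c26_8 : chk (nat_lit 26800) (nat_lit 100) = true := by decide +kernel

theorem c26_9 : chk (nat_lit 26900) (nat_lit 100) = true := by decide +kernel


theorem all26 : ∀ i, 26000 ≤ i → i < 27000 → Good i := (good_chain (good_chain (good_chain (good_chain (good_chain (good_chain (good_chain (good_chain (good_chain (good_of_chk c26_0) (good_of_chk c26_1)) (good_of_chk c26_2)) (good_of_chk c26_3)) (good_of_chk c26_4)) (good_of_chk c26_5)) (good_of_chk c26_6)) (good_of_chk c26_7)) (good_of_chk c26_8)) (good_of_chk c26_9))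


end Vale.Agent.P045.R6
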