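import Vale.Agent.P045.R6.Rows

/-! Checks of the rows of a certificate. -/

namespace Vale.Agent.P045.R6

set_option maxRecDepth 100000

theorem c27_0 : chk (nat_lit 27000) (nat_lit 100) = true := by decide +kernel

theorem c27_1 : chk (nat_lit 27100) (nat_lit 100) = true := by decide +kernel

theorem c27_2 : chk (nat_lit 27200) (nat_lit 100) = true := by decide +kernel

theorem c27_3 : chk (nat_lit 27300) (nat_lit 100) = true := by decide +kernel

theorem c27_4 : chk (nat_lit 27400) (nat_lit 100) = true := by decide +kernel

theorem c27_5 : chk (nat_lit 27500) (nat_lit 100) = true := by decide +kernel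

theorem c27_6 : chk (nat_lit 27600) (nat_lit 100) = true := by decide +kernel

theorem c27_7 : chk (nat_lit 27700) (nat_lit 100) = true := by decide +kernel

theorem c27_8 : chk (nat_lit 27800) (nat_lit 100) = true := by decide +kernel

theorem c27_9 : chk (nat_lit 27900) (nat_lit 100) = true := by decide +kernel


theorem all27 : ∀ i, 27000 ≤ i → i < 28000 → Good i := (good_chain (good_chain (good_chain (good_chain (good_chain (good_chain (good_chain (good_chain (good_chain (good_of_chk c27_0) (good_of_chk c27_1)) (good_of_chk c27_2)) (good_of_chk c27_3)) (good_of_chk c27_4)) (good_of_chk c27_5)) (good_of_chk c27_6)) (good_of_chk c27_7)) (good_of_chk c27_8)) (good_of_chk c27_9))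


end Vale.Agent.P045.R6
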