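import Vale.Agent.P045.R6.Rows

/-! Checks of the rows of a certificate. -/

namespace Vale.Agent.P045.R6

set_option maxRecDepth 100000

theorem c28_0 : chk (nat_lit 28000) (nat_lit 100) = true := by decide +kernel

theorem c28_1 : chk (nat_lit 28100) (nat_lit 100) = true := by decide +kernel

theorem c28_2 : chk (nat_lit 28200) (nat_lit 100) = true := by decide +kernel

theorem c28_3 : chk (nat_lit 28300) (nat_lit 100) = true := by decide +kernel

theorem c28_4 : chk (nat_lit 28400) (nat_lit 100) = true := by decide +kernel

theorem c28_5 : chk (nat_lit 28500) (nat_lit 100) = true := by decide +kernel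

theorem c28_6 : chk (nat_lit 28600) (nat_lit 100) = true := by decide +kernel

theorem c28_7 : chk (nat_lit 28700) (nat_lit 100) = true := by decide +kernel

theorem c28_8 : chk (nat_lit 28800) (nat_lit 100) = true := by decide +kernel

theorem c28_9 : chk (nat_lit 28900) (nat_lit 100) = true := by decide +kernel


theorem all28 : ∀ i, 28000 ≤ i → i < 29000 → Good i := (good_chain (good_chain (good_chain (good_chain (good_chain (good_chain (good_chain (good_chain (good_chain (good_of_chk c28_0) (good_of_chk c28_1)) (good_of_chk c28_2)) (good_of_chk c28_3)) (good_of_chk c28_4)) (good_of_chk c28_5)) (good_of_chk c28_6)) (good_of_chk c28_7)) (good_of_chk c28_8)) (good_of_chk c28_9))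


end Vale.Agent.P045.R6
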