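import Vale.Agent.P045.R6.Rows

/-! Checks of the rows of a certificate. -/

namespace Vale.Agent.P045.R6

set_option maxRecDepth 100000

theorem c29_0 : chk (nat_lit 29000) (nat_lit 100) = true := by decide +kernel

theorem c29_1 : chk (nat_lit 29100) (nat_lit 100) = true := by decide +kernel

theorem c29_2 : chk (nat_lit 29200) (nat_lit 100) = true := by decide +kernel

theorem c29_3 : chk (nat_lit 29300) (nat_lit 100) = true := by decide +kernel

theorem c29_4 : chk (nat_lit 29400) (nat_lit 100) = true := by decide +kernel

theorem c29_5 : chk (nat_lit 29500) (nat_lit 100) = true := by decide +kernel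

theorem c29_6 : chk (nat_lit 29600) (nat_lit 100) = true := by decide +kernel

theorem c29_7 : chk (nat_lit 29700) (nat_lit 100) = true := by decide +kernel

theorem c29_8 : chk (nat_lit 29800) (nat_lit 100) = true := by decide +kernel

theorem c29_9 : chk (nat_lit 29900) (nat_lit 100) = true := by decide +kernel


theorem all29 : ∀ i, 29000 ≤ i → i < 30000 → Good i := (good_chain (good_chain (good_chain (good_chain (good_chain (good_chain (good_chain (good_chain (good_chain (good_of_chk c29_0) (good_of_chk c29_1)) (good_of_chk c29_2)) (good_of_chk c29_3)) (good_of_chk c29_4)) (good_of_chk c29_5)) (good_of_chk c29_6)) (good_of_chk c29_7)) (good_of_chk c29_8)) (good_of_chk c29_9))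


end Vale.Agent.P045.R6
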