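import Vale.Agent.P045.R6.Rows

/-! Checks of the rows of a certificate. -/

namespace Vale.Agent.P045.R6

set_option maxRecDepth 100000

theorem c3_0 : chk (nat_lit 3000) (nat_lit 100) = true := by decide +kernel

theorem c3_1 : chk (nat_lit 3100) (nat_lit 100) = true := by decide +kernel

theorem c3_2 : chk (nat_lit 3200) (nat_lit 100) = true := by decide +kernel

theorem c3_3 : chk (nat_lit 3300) (nat_lit 100) = true := by decide +kernel

theorem c3_4 : chk (nat_lit 3400) (nat_lit 100) = true := by decide +kernel

theorem c3_5 : chk (nat_lit 3500) (nat_lit 100) = true := by decide +kernel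

theorem c3_6 : chk (nat_lit 3600) (nat_lit 100) = true := by decide +kernel

theorem c3_7 : chk (nat_lit 3700) (nat_lit 100) = true := by decide +kernel

theorem c3_8 : chk (nat_lit 3800) (nat_lit 100) = true := by decide +kernel

theorem c3_9 : chk (nat_lit 3900) (nat_lit 100) = true := by decide +kernel


theorem all3 : ∀ i, 3000 ≤ i → i < 4000 → Good i := (good_chain (good_chain (good_chain (good_chain (good_chain (good_chain (good_chain (good_chain (good_chain (good_of_chk c3_0) (good_of_chk c3_1)) (good_of_chk c3_2)) (good_of_chk c3_3)) (good_of_chk c3_4)) (good_of_chk c3_5)) (good_of_chk c3_6)) (good_of_chk c3_7)) (good_of_chk c3_8)) (good_of_chk c3_9))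


end Vale.Agent.P045.R6
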