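import Vale.Agent.P045.R6.Rows

/-! Checks of the rows of a certificate. -/

namespace Vale.Agent.P045.R6

set_option maxRecDepth 100000

theorem c30_0 : chk (nat_lit 30000) (nat_lit 100) = true := by decide +kernel

theorem c30_1 : chk (nat_lit 30100) (nat_lit 100) = true := by decide +kernel

theorem c30_2 : chk (nat_lit 30200) (nat_lit 100) = true := by decide +kernel

theorem c30_3 : chk (nat_lit 30300) (nat_lit 100) = true := by decide +kernel

theorem c30_4 : chk (nat_lit 30400) (nat_lit 100) = true := by decide +kernel

theorem c30_5 : chk (nat_lit 30500) (nat_lit 100) = true := by decide +kernel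

theorem c30_6 : chk (nat_lit 30600) (nat_lit 100) = true := by decide +kernel

theorem c30_7 : chk (nat_lit 30700) (nat_lit 100) = true := by decide +kernel

theorem c30_8 : chk (nat_lit 30800) (nat_lit 100) = true := by decide +kernel

theorem c30_9 : chk (nat_lit 30900) (nat_lit 100) = true := by decide +kernel


theorem all30 : ∀ i, 30000 ≤ i → i < 31000 → Good i := (good_chain (good_chain (good_chain (good_chain (good_chain (good_chain (good_chain (good_chain (good_chain (good_of_chk c30_0) (good_of_chk c30_1)) (good_of_chk c30_2)) (good_of_chk c30_3)) (good_of_chk c30_4)) (good_of_chk c30_5)) (good_of_chk c30_6)) (good_of_chk c30_7)) (good_of_chk c30_8)) (good_of_chk c30_9))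


end Vale.Agent.P045.R6
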