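import Vale.Agent.P045.R6.Rows

/-! Checks of the rows of a certificate. -/

namespace Vale.Agent.P045.R6

set_option maxRecDepth 100000

theorem c31_0 : chk (nat_lit 31000) (nat_lit 100) = true := by decide +kernel

theorem c31_1 : chk (nat_lit 31100) (nat_lit 100) = true := by decide +kernel

theorem c31_2 : chk (nat_lit 31200) (nat_lit 100) = true := by decide +kernel

theorem c31_3 : chk (nat_lit 31300) (nat_lit 100) = true := by decide +kernel

theorem c31_4 : chk (nat_lit 31400) (nat_lit 100) = true := by decide +kernel

theorem c31_5 : chk (nat_lit 31500) (nat_lit 100) = true := by decide +kernel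

theorem c31_6 : chk (nat_lit 31600) (nat_lit 100) = true := by decide +kernel

theorem c31_7 : chk (nat_lit 31700) (nat_lit 100) = true := by decide +kernel

theorem c31_8 : chk (nat_lit 31800) (nat_lit 100) = true := by decide +kernel

theorem c31_9 : chk (nat_lit 31900) (nat_lit 100) = true := by decide +kernel


theorem all31 : ∀ i, 31000 ≤ i → i < 32000 → Good i := (good_chain (good_chain (good_chain (good_chain (good_chain (good_chain (good_chain (good_chain (good_chain (good_of_chk c31_0) (good_of_chk c31_1)) (good_of_chk c31_2)) (good_of_chk c31_3)) (good_of_chk c31_4)) (good_of_chk c31_5)) (good_of_chk c31_6)) (good_of_chk c31_7)) (good_of_chk c31_8)) (good_of_chk c31_9))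


end Vale.Agent.P045.R6
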