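import Vale.Agent.P045.R6.Rows

/-! Checks of the rows of a certificate. -/

namespace Vale.Agent.P045.R6

set_option maxRecDepth 100000

theorem c32_0 : chk (nat_lit 32000) (nat_lit 100) = true := by decide +kernel

theorem c32_1 : chk (nat_lit 32100) (nat_lit 100) = true := by decide +kernel

theorem c32_2 : chk (nat_lit 32200) (nat_lit 100) = true := by decide +kernel

theorem c32_3 : chk (nat_lit 32300) (nat_lit 100) = true := by decide +kernel

theorem c32_4 : chk (nat_lit 32400) (nat_lit 100) = true := by decide +kernel

theorem c32_5 : chk (nat_lit 32500) (nat_lit 100) = true := by decide +kernel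

theorem c32_6 : chk (nat_lit 32600) (nat_lit 100) = true := by decide +kernel

theorem c32_7 : chk (nat_lit 32700) (nat_lit 100) = true := by decide +kernel

theorem c32_8 : chk (nat_lit 32800) (nat_lit 100) = true := by decide +kernel

theorem c32_9 : chk (nat_lit 32900) (nat_lit 100) = true := by decide +kernel


theorem all32 : ∀ i, 32000 ≤ i → i < 33000 → Good i := (good_chain (good_chain (good_chain (good_chain (good_chain (good_chain (good_chain (good_chain (good_chain (good_of_chk c32_0) (good_of_chk c32_1)) (good_of_chk c32_2)) (good_of_chk c32_3)) (good_of_chk c32_4)) (good_of_chk c32_5)) (good_of_chk c32_6)) (good_of_chk c32_7)) (good_of_chk c32_8)) (good_of_chk c32_9))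


end Vale.Agent.P045.R6
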