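import Vale.Agent.P045.R6.Rows

/-! Checks of the rows of a certificate. -/

namespace Vale.Agent.P045.R6

set_option maxRecDepth 100000

theorem c33_0 : chk (nat_lit 33000) (nat_lit 100) = true := by decide +kernel

theorem c33_1 : chk (nat_lit 33100) (nat_lit 100) = true := by decide +kernel

theorem c33_2 : chk (nat_lit 33200) (nat_lit 100) = true := by decide +kernel

theorem c33_3 : chk (nat_lit 33300) (nat_lit 100) = true := by decide +kernel

theorem c33_4 : chk (nat_lit 33400) (nat_lit 100) = true := by decide +kernel

theorem c33_5 : chk (nat_lit 33500) (nat_lit 100) = true := by decide +kernel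

theorem c33_6 : chk (nat_lit 33600) (nat_lit 100) = true := by decide +kernel

theorem c33_7 : chk (nat_lit 33700) (nat_lit 100) = true := by decide +kernel

theorem c33_8 : chk (nat_lit 33800) (nat_lit 100) = true := by decide +kernel

theorem c33_9 : chk (nat_lit 33900) (nat_lit 100) = true := by decide +kernel


theorem all33 : ∀ i, 33000 ≤ i → i < 34000 → Good i := (good_chain (good_chain (good_chain (good_chain (good_chain (good_chain (good_chain (good_chain (good_chain (good_of_chk c33_0) (good_of_chk c33_1)) (good_of_chk c33_2)) (good_of_chk c33_3)) (good_of_chk c33_4)) (good_of_chk c33_5)) (good_of_chk c33_6)) (good_of_chk c33_7)) (good_of_chk c33_8)) (good_of_chk c33_9))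


end Vale.Agent.P045.R6
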