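import Vale.Agent.P045.R6.Rows

/-! Checks of the rows of a certificate. -/

namespace Vale.Agent.P045.R6

set_option maxRecDepth 100000

theorem c34_0 : chk (nat_lit 34000) (nat_lit 100) = true := by decide +kernel

theorem c34_1 : chk (nat_lit 34100) (nat_lit 100) = true := by decide +kernel

theorem c34_2 : chk (nat_lit 34200) (nat_lit 100) = true := by decide +kernel

theorem c34_3 : chk (nat_lit 34300) (nat_lit 100) = true := by decide +kernel

theorem c34_4 : chk (nat_lit 34400) (nat_lit 100) = true := by decide +kernel

theorem c34_5 : chk (nat_lit 34500) (nat_lit 100) = true := by decide +kernel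

theorem c34_6 : chk (nat_lit 34600) (nat_lit 100) = true := by decide +kernel

theorem c34_7 : chk (nat_lit 34700) (nat_lit 100) = true := by decide +kernel

theorem c34_8 : chk (nat_lit 34800) (nat_lit 100) = true := by decide +kernel

theorem c34_9 : chk (nat_lit 34900) (nat_lit 100) = true := by decide +kernel


theorem all34 : ∀ i, 34000 ≤ i → i < 35000 → Good i := (good_chain (good_chain (good_chain (good_chain (good_chain (good_chain (good_chain (good_chain (good_chain (good_of_chk c34_0) (good_of_chk c34_1)) (good_of_chk c34_2)) (good_of_chk c34_3)) (good_of_chk c34_4)) (good_of_chk c34_5)) (good_of_chk c34_6)) (good_of_chk c34_7)) (good_of_chk c34_8)) (good_of_chk c34_9))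


end Vale.Agent.P045.R6
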