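import Vale.Agent.P045.R6.Rows

/-! Checks of the rows of a certificate. -/

namespace Vale.Agent.P045.R6

set_option maxRecDepth 100000

theorem c35_0 : chk (nat_lit 35000) (nat_lit 100) = true := by decide +kernel

theorem c35_1 : chk (nat_lit 35100) (nat_lit 100) = true := by decide +kernel

theorem c35_2 : chk (nat_lit 35200) (nat_lit 100) = true := by decide +kernel

theorem c35_3 : chk (nat_lit 35300) (nat_lit 100) = true := by decide +kernel

theorem c35_4 : chk (nat_lit 35400) (nat_lit 100) = true := by decide +kernel

theorem c35_5 : chk (nat_lit 35500) (nat_lit 100) = true := by decide +kernel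

theorem c35_6 : chk (nat_lit 35600) (nat_lit 100) = true := by decide +kernel

theorem c35_7 : chk (nat_lit 35700) (nat_lit 100) = true := by decide +kernel

theorem c35_8 : chk (nat_lit 35800) (nat_lit 100) = true := by decide +kernel

theorem c35_9 : chk (nat_lit 35900) (nat_lit 100) = true := by decide +kernel


theorem all35 : ∀ i, 35000 ≤ i → i < 36000 → Good i := (good_chain (good_chain (good_chain (good_chain (good_chain (good_chain (good_chain (good_chain (good_chain (good_of_chk c35_0) (good_of_chk c35_1)) (good_of_chk c35_2)) (good_of_chk c35_3)) (good_of_chk c35_4)) (good_of_chk c35_5)) (good_of_chk c35_6)) (good_of_chk c35_7)) (good_of_chk c35_8)) (good_of_chk c35_9))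


end Vale.Agent.P045.R6
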