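import Vale.Agent.P045.R6.Rows

/-! Checks of the rows of a certificate. -/

namespace Vale.Agent.P045.R6

set_option maxRecDepth 100000

theorem c36_0 : chk (nat_lit 36000) (nat_lit 100) = true := by decide +kernel

theorem c36_1 : chk (nat_lit 36100) (nat_lit 100) = true := by decide +kernel

theorem c36_2 : chk (nat_lit 36200) (nat_lit 100) = true := by decide +kernel

theorem c36_3 : chk (nat_lit 36300) (nat_lit 100) = true := by decide +kernel

theorem c36_4 : chk (nat_lit 36400) (nat_lit 100) = true := by decide +kernel

theorem c36_5 : chk (nat_lit 36500) (nat_lit 100) = true := by decide +kernel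

theorem c36_6 : chk (nat_lit 36600) (nat_lit 100) = true := by decide +kernel

theorem c36_7 : chk (nat_lit 36700) (nat_lit 100) = true := by decide +kernel

theorem c36_8 : chk (nat_lit 36800) (nat_lit 100) = true := by decide +kernel

theorem c36_9 : chk (nat_lit 36900) (nat_lit 100) = true := by decide +kernel


theorem all36 : ∀ i, 36000 ≤ i → i < 37000 → Good i := (good_chain (good_chain (good_chain (good_chain (good_chain (good_chain (good_chain (good_chain (good_chain (good_of_chk c36_0) (good_of_chk c36_1)) (good_of_chk c36_2)) (good_of_chk c36_3)) (good_of_chk c36_4)) (good_of_chk c36_5)) (good_of_chk c36_6)) (good_of_chk c36_7)) (good_of_chk c36_8)) (good_of_chk c36_9))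


end Vale.Agent.P045.R6
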