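import Vale.Agent.P045.R6.Rows

/-! Checks of the rows of a certificate. -/

namespace Vale.Agent.P045.R6

set_option maxRecDepth 100000

theorem c37_0 : chk (nat_lit 37000) (nat_lit 100) = true := by decide +kernel

theorem c37_1 : chk (nat_lit 37100) (nat_lit 100) = true := by decide +kernel

theorem c37_2 : chk (nat_lit 37200) (nat_lit 100) = true := by decide +kernel

theorem c37_3 : chk (nat_lit 37300) (nat_lit 100) = true := by decide +kernel

theorem c37_4 : chk (nat_lit 37400) (nat_lit 100) = true := by decide +kernel

theorem c37_5 : chk (nat_lit 37500) (nat_lit 100) = true := by decide +kernel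

theorem c37_6 : chk (nat_lit 37600) (nat_lit 100) = true := by decide +kernel

theorem c37_7 : chk (nat_lit 37700) (nat_lit 100) = true := by decide +kernel

theorem c37_8 : chk (nat_lit 37800) (nat_lit 100) = true := by decide +kernel

theorem c37_9 : chk (nat_lit 37900) (nat_lit 100) = true := by decide +kernel


theorem all37 : ∀ i, 37000 ≤ i → i < 38000 → Good i := (good_chain (good_chain (good_chain (good_chain (good_chain (good_chain (good_chain (good_chain (good_chain (good_of_chk c37_0) (good_of_chk c37_1)) (good_of_chk c37_2)) (good_of_chk c37_3)) (good_of_chk c37_4)) (good_of_chk c37_5)) (good_of_chk c37_6)) (good_of_chk c37_7)) (good_of_chk c37_8)) (good_of_chk c37_9))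


end Vale.Agent.P045.R6
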