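import Vale.Agent.P045.R6.Rows

/-! Checks of the rows of a certificate. -/

namespace Vale.Agent.P045.R6

set_option maxRecDepth 100000

theorem c38_0 : chk (nat_lit 38000) (nat_lit 100) = true := by decide +kernel

theorem c38_1 : chk (nat_lit 38100) (nat_lit 100) = true := by decide +kernel

theorem c38_2 : chk (nat_lit 38200) (nat_lit 100) = true := by decide +kernel

theorem c38_3 : chk (nat_lit 38300) (nat_lit 100) = true := by decide +kernel

theorem c38_4 : chk (nat_lit 38400) (nat_lit 100) = true := by decide +kernel

theorem c38_5 : chk (nat_lit 38500) (nat_lit 100) = true := by decide +kernel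

theorem c38_6 : chk (nat_lit 38600) (nat_lit 100) = true := by decide +kernel

theorem c38_7 : chk (nat_lit 38700) (nat_lit 100) = true := by decide +kernel

theorem c38_8 : chk (nat_lit 38800) (nat_lit 100) = true := by decide +kernel

theorem c38_9 : chk (nat_lit 38900) (nat_lit 100) = true := by decide +kernel


theorem all38 : ∀ i, 38000 ≤ i → i < 39000 → Good i := (good_chain (good_chain (good_chain (good_chain (good_chain (good_chain (good_chain (good_chain (good_chain (good_of_chk c38_0) (good_of_chk c38_1)) (good_of_chk c38_2)) (good_of_chk c38_3)) (good_of_chk c38_4)) (good_of_chk c38_5)) (good_of_chk c38_6)) (good_of_chk c38_7)) (good_of_chk c38_8)) (good_of_chk c38_9))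


end Vale.Agent.P045.R6
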