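import Vale.Agent.P045.R6.Rows

/-! Checks of the rows of a certificate. -/

namespace Vale.Agent.P045.R6

set_option maxRecDepth 100000

theorem c39_0 : chk (nat_lit 39000) (nat_lit 100) = true := by decide +kernel

theorem c39_1 : chk (nat_lit 39100) (nat_lit 100) = true := by decide +kernel

theorem c39_2 : chk (nat_lit 39200) (nat_lit 100) = true := by decide +kernel

theorem c39_3 : chk (nat_lit 39300) (nat_lit 100) = true := by decide +kernel

theorem c39_4 : chk (nat_lit 39400) (nat_lit 100) = true := by decide +kernel

theorem c39_5 : chk (nat_lit 39500) (nat_lit 100) = true := by decide +kernel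

theorem c39_6 : chk (nat_lit 39600) (nat_lit 100) = true := by decide +kernel

theorem c39_7 : chk (nat_lit 39700) (nat_lit 100) = true := by decide +kernel

theorem c39_8 : chk (nat_lit 39800) (nat_lit 100) = true := by decide +kernel

theorem c39_9 : chk (nat_lit 39900) (nat_lit 100) = true := by decide +kernel


theorem all39 : ∀ i, 39000 ≤ i → i < 40000 → Good i := (good_chain (good_chain (good_chain (good_chain (good_chain (good_chain (good_chain (good_chain (good_chain (good_of_chk c39_0) (good_of_chk c39_1)) (good_of_chk c39_2)) (good_of_chk c39_3)) (good_of_chk c39_4)) (good_of_chk c39_5)) (good_of_chk c39_6)) (good_of_chk c39_7)) (good_of_chk c39_8)) (good_of_chk c39_9))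


end Vale.Agent.P045.R6
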