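import Vale.Agent.P045.R6.Rows

/-! Checks of the rows of a certificate. -/

namespace Vale.Agent.P045.R6

set_option maxRecDepth 100000

theorem c4_0 : chk (nat_lit 4000) (nat_lit 100) = true := by decide +kernel

theorem c4_1 : chk (nat_lit 4100) (nat_lit 100) = true := by decide +kernel

theorem c4_2 : chk (nat_lit 4200) (nat_lit 100) = true := by decide +kernel

theorem c4_3 : chk (nat_lit 4300) (nat_lit 100) = true := by decide +kernel

theorem c4_4 : chk (nat_lit 4400) (nat_lit 100) = true := by decide +kernel

theorem c4_5 : chk (nat_lit 4500) (nat_lit 100) = true := by decide +kernel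

theorem c4_6 : chk (nat_lit 4600) (nat_lit 100) = true := by decide +kernel

theorem c4_7 : chk (nat_lit 4700) (nat_lit 100) = true := by decide +kernel

theorem c4_8 : chk (nat_lit 4800) (nat_lit 100) = true := by decide +kernel

theorem c4_9 : chk (nat_lit 4900) (nat_lit 100) = true := by decide +kernel


theorem all4 : ∀ i, 4000 ≤ i → i < 5000 → Good i := (good_chain (good_chain (good_chain (good_chain (good_chain (good_chain (good_chain (good_chain (good_chain (good_of_chk c4_0) (good_of_chk c4_1)) (good_of_chk c4_2)) (good_of_chk c4_3)) (good_of_chk c4_4)) (good_of_chk c4_5)) (good_of_chk c4_6)) (good_of_chk c4_7)) (good_of_chk c4_8)) (good_of_chk c4_9))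


end Vale.Agent.P045.R6
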