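import Vale.Agent.P045.R6.Rows

/-! Checks of the rows of a certificate. -/

namespace Vale.Agent.P045.R6

set_option maxRecDepth 100000

theorem c40_0 : chk (nat_lit 40000) (nat_lit 100) = true := by decide +kernel

theorem c40_1 : chk (nat_lit 40100) (nat_lit 100) = true := by decide +kernel

theorem c40_2 : chk (nat_lit 40200) (nat_lit 100) = true := by decide +kernel

theorem c40_3 : chk (nat_lit 40300) (nat_lit 100) = true := by decide +kernel

theorem c40_4 : chk (nat_lit 40400) (nat_lit 100) = true := by decide +kernel

theorem c40_5 : chk (nat_lit 40500) (nat_lit 100) = true := by decide +kernel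

theorem c40_6 : chk (nat_lit 40600) (nat_lit 100) = true := by decide +kernel

theorem c40_7 : chk (nat_lit 40700) (nat_lit 100) = true := by decide +kernel

theorem c40_8 : chk (nat_lit 40800) (nat_lit 100) = true := by decide +kernel

theorem c40_9 : chk (nat_lit 40900) (nat_lit 100) = true := by decide +kernel


theorem all40 : ∀ i, 40000 ≤ i → i < 41000 → Good i := (good_chain (good_chain (good_chain (good_chain (good_chain (good_chain (good_chain (good_chain (good_chain (good_of_chk c40_0) (good_of_chk c40_1)) (good_of_chk c40_2)) (good_of_chk c40_3)) (good_of_chk c40_4)) (good_of_chk c40_5)) (good_of_chk c40_6)) (good_of_chk c40_7)) (good_of_chk c40_8)) (good_of_chk c40_9))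


end Vale.Agent.P045.R6
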