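import Vale.Agent.P045.R6.Rows

/-! Checks of the rows of a certificate. -/

namespace Vale.Agent.P045.R6

set_option maxRecDepth 100000

theorem c41_0 : chk (nat_lit 41000) (nat_lit 100) = true := by decide +kernel

theorem c41_1 : chk (nat_lit 41100) (nat_lit 100) = true := by decide +kernel

theorem c41_2 : chk (nat_lit 41200) (nat_lit 100) = true := by decide +kernel

theorem c41_3 : chk (nat_lit 41300) (nat_lit 100) = true := by decide +kernel

theorem c41_4 : chk (nat_lit 41400) (nat_lit 100) = true := by decide +kernel

theorem c41_5 : chk (nat_lit 41500) (nat_lit 100) = true := by decide +kernel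

theorem c41_6 : chk (nat_lit 41600) (nat_lit 100) = true := by decide +kernel

theorem c41_7 : chk (nat_lit 41700) (nat_lit 100) = true := by decide +kernel

theorem c41_8 : chk (nat_lit 41800) (nat_lit 100) = true := by decide +kernel

theorem c41_9 : chk (nat_lit 41900) (nat_lit 100) = true := by decide +kernel


theorem all41 : ∀ i, 41000 ≤ i → i < 42000 → Good i := (good_chain (good_chain (good_chain (good_chain (good_chain (good_chain (good_chain (good_chain (good_chain (good_of_chk c41_0) (good_of_chk c41_1)) (good_of_chk c41_2)) (good_of_chk c41_3)) (good_of_chk c41_4)) (good_of_chk c41_5)) (good_of_chk c41_6)) (good_of_chk c41_7)) (good_of_chk c41_8)) (good_of_chk c41_9))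


end Vale.Agent.P045.R6
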