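import Vale.Agent.P045.R6.Rows

/-! Checks of the rows of a certificate. -/

namespace Vale.Agent.P045.R6

set_option maxRecDepth 100000

theorem c42_0 : chk (nat_lit 42000) (nat_lit 100) = true := by decide +kernel

theorem c42_1 : chk (nat_lit 42100) (nat_lit 100) = true := by decide +kernel

theorem c42_2 : chk (nat_lit 42200) (nat_lit 100) = true := by decide +kernel

theorem c42_3 : chk (nat_lit 42300) (nat_lit 100) = true := by decide +kernel

theorem c42_4 : chk (nat_lit 42400) (nat_lit 100) = true := by decide +kernel

theorem c42_5 : chk (nat_lit 42500) (nat_lit 100) = true := by decide +kernel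

theorem c42_6 : chk (nat_lit 42600) (nat_lit 100) = true := by decide +kernel

theorem c42_7 : chk (nat_lit 42700) (nat_lit 100) = true := by decide +kernel

theorem c42_8 : chk (nat_lit 42800) (nat_lit 100) = true := by decide +kernel

theorem c42_9 : chk (nat_lit 42900) (nat_lit 100) = true := by decide +kernel


theorem all42 : ∀ i, 42000 ≤ i → i < 43000 → Good i := (good_chain (good_chain (good_chain (good_chain (good_chain (good_chain (good_chain (good_chain (good_chain (good_of_chk c42_0) (good_of_chk c42_1)) (good_of_chk c42_2)) (good_of_chk c42_3)) (good_of_chk c42_4)) (good_of_chk c42_5)) (good_of_chk c42_6)) (good_of_chk c42_7)) (good_of_chk c42_8)) (good_of_chk c42_9))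


end Vale.Agent.P045.R6
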