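import Vale.Agent.P045.R6.Rows

/-! Checks of the rows of a certificate. -/

namespace Vale.Agent.P045.R6

set_option maxRecDepth 100000

theorem c43_0 : chk (nat_lit 43000) (nat_lit 100) = true := by decide +kernel

theorem c43_1 : chk (nat_lit 43100) (nat_lit 100) = true := by decide +kernel

theorem c43_2 : chk (nat_lit 43200) (nat_lit 100) = true := by decide +kernel

theorem c43_3 : chk (nat_lit 43300) (nat_lit 100) = true := by decide +kernel

theorem c43_4 : chk (nat_lit 43400) (nat_lit 100) = true := by decide +kernel

theorem c43_5 : chk (nat_lit 43500) (nat_lit 100) = true := by decide +kernel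

theorem c43_6 : chk (nat_lit 43600) (nat_lit 100) = true := by decide +kernel

theorem c43_7 : chk (nat_lit 43700) (nat_lit 100) = true := by decide +kernel

theorem c43_8 : chk (nat_lit 43800) (nat_lit 100) = true := by decide +kernel

theorem c43_9 : chk (nat_lit 43900) (nat_lit 100) = true := by decide +kernel


theorem all43 : ∀ i, 43000 ≤ i → i < 44000 → Good i := (good_chain (good_chain (good_chain (good_chain (good_chain (good_chain (good_chain (good_chain (good_chain (good_of_chk c43_0) (good_of_chk c43_1)) (good_of_chk c43_2)) (good_of_chk c43_3)) (good_of_chk c43_4)) (good_of_chk c43_5)) (good_of_chk c43_6)) (good_of_chk c43_7)) (good_of_chk c43_8)) (good_of_chk c43_9))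


end Vale.Agent.P045.R6
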