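import Vale.Agent.P045.R6.Rows

/-! Checks of the rows of a certificate. -/

namespace Vale.Agent.P045.R6

set_option maxRecDepth 100000

theorem c44_0 : chk (nat_lit 44000) (nat_lit 100) = true := by decide +kernel

theorem c44_1 : chk (nat_lit 44100) (nat_lit 100) = true := by decide +kernel

theorem c44_2 : chk (nat_lit 44200) (nat_lit 100) = true := by decide +kernel

theorem c44_3 : chk (nat_lit 44300) (nat_lit 100) = true := by decide +kernel

theorem c44_4 : chk (nat_lit 44400) (nat_lit 100) = true := by decide +kernel

theorem c44_5 : chk (nat_lit 44500) (nat_lit 100) = true := by decide +kernel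

theorem c44_6 : chk (nat_lit 44600) (nat_lit 100) = true := by decide +kernel

theorem c44_7 : chk (nat_lit 44700) (nat_lit 100) = true := by decide +kernel

theorem c44_8 : chk (nat_lit 44800) (nat_lit 100) = true := by decide +kernel

theorem c44_9 : chk (nat_lit 44900) (nat_lit 100) = true := by decide +kernel


theorem all44 : ∀ i, 44000 ≤ i → i < 45000 → Good i := (good_chain (good_chain (good_chain (good_chain (good_chain (good_chain (good_chain (good_chain (good_chain (good_of_chk c44_0) (good_of_chk c44_1)) (good_of_chk c44_2)) (good_of_chk c44_3)) (good_of_chk c44_4)) (good_of_chk c44_5)) (good_of_chk c44_6)) (good_of_chk c44_7)) (good_of_chk c44_8)) (good_of_chk c44_9))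


end Vale.Agent.P045.R6
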