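import Vale.Agent.P045.R6.Rows

/-! Checks of the rows of a certificate. -/

namespace Vale.Agent.P045.R6

set_option maxRecDepth 100000

theorem c45_0 : chk (nat_lit 45000) (nat_lit 100) = true := by decide +kernel

theorem c45_1 : chk (nat_lit 45100) (nat_lit 100) = true := by decide +kernel

theorem c45_2 : chk (nat_lit 45200) (nat_lit 100) = true := by decide +kernel

theorem c45_3 : chk (nat_lit 45300) (nat_lit 100) = true := by decide +kernel

theorem c45_4 : chk (nat_lit 45400) (nat_lit 100) = true := by decide +kernel

theorem c45_5 : chk (nat_lit 45500) (nat_lit 100) = true := by decide +kernel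

theorem c45_6 : chk (nat_lit 45600) (nat_lit 100) = true := by decide +kernel

theorem c45_7 : chk (nat_lit 45700) (nat_lit 100) = true := by decide +kernel

theorem c45_8 : chk (nat_lit 45800) (nat_lit 100) = true := by decide +kernel

theorem c45_9 : chk (nat_lit 45900) (nat_lit 100) = true := by decide +kernel


theorem all45 : ∀ i, 45000 ≤ i → i < 46000 → Good i := (good_chain (good_chain (good_chain (good_chain (good_chain (good_chain (good_chain (good_chain (good_chain (good_of_chk c45_0) (good_of_chk c45_1)) (good_of_chk c45_2)) (good_of_chk c45_3)) (good_of_chk c45_4)) (good_of_chk c45_5)) (good_of_chk c45_6)) (good_of_chk c45_7)) (good_of_chk c45_8)) (good_of_chk c45_9))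


end Vale.Agent.P045.R6
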