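import Vale.Agent.P045.R6.Rows

/-! Checks of the rows of a certificate. -/

namespace Vale.Agent.P045.R6

set_option maxRecDepth 100000

theorem c46_0 : chk (nat_lit 46000) (nat_lit 100) = true := by decide +kernel

theorem c46_1 : chk (nat_lit 46100) (nat_lit 100) = true := by decide +kernel

theorem c46_2 : chk (nat_lit 46200) (nat_lit 100) = true := by decide +kernel

theorem c46_3 : chk (nat_lit 46300) (nat_lit 100) = true := by decide +kernel

theorem c46_4 : chk (nat_lit 46400) (nat_lit 100) = true := by decide +kernel

theorem c46_5 : chk (nat_lit 46500) (nat_lit 100) = true := by decide +kernel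

theorem c46_6 : chk (nat_lit 46600) (nat_lit 100) = true := by decide +kernel

theorem c46_7 : chk (nat_lit 46700) (nat_lit 100) = true := by decide +kernel

theorem c46_8 : chk (nat_lit 46800) (nat_lit 100) = true := by decide +kernel

theorem c46_9 : chk (nat_lit 46900) (nat_lit 100) = true := by decide +kernel


theorem all46 : ∀ i, 46000 ≤ i → i < 47000 → Good i := (good_chain (good_chain (good_chain (good_chain (good_chain (good_chain (good_chain (good_chain (good_chain (good_of_chk c46_0) (good_of_chk c46_1)) (good_of_chk c46_2)) (good_of_chk c46_3)) (good_of_chk c46_4)) (good_of_chk c46_5)) (good_of_chk c46_6)) (good_of_chk c46_7)) (good_of_chk c46_8)) (good_of_chk c46_9))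


end Vale.Agent.P045.R6
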