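import Vale.Agent.P045.R6.Rows

/-! Checks of the rows of a certificate. -/

namespace Vale.Agent.P045.R6

set_option maxRecDepth 100000

theorem c47_0 : chk (nat_lit 47000) (nat_lit 100) = true := by decide +kernel

theorem c47_1 : chk (nat_lit 47100) (nat_lit 100) = true := by decide +kernel

theorem c47_2 : chk (nat_lit 47200) (nat_lit 100) = true := by decide +kernel

theorem c47_3 : chk (nat_lit 47300) (nat_lit 100) = true := by decide +kernel

theorem c47_4 : chk (nat_lit 47400) (nat_lit 100) = true := by decide +kernel

theorem c47_5 : chk (nat_lit 47500) (nat_lit 100) = true := by decide +kernel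

theorem c47_6 : chk (nat_lit 47600) (nat_lit 100) = true := by decide +kernel

theorem c47_7 : chk (nat_lit 47700) (nat_lit 100) = true := by decide +kernel

theorem c47_8 : chk (nat_lit 47800) (nat_lit 100) = true := by decide +kernel

theorem c47_9 : chk (nat_lit 47900) (nat_lit 100) = true := by decide +kernel


theorem all47 : ∀ i, 47000 ≤ i → i < 48000 → Good i := (good_chain (good_chain (good_chain (good_chain (good_chain (good_chain (good_chain (good_chain (good_chain (good_of_chk c47_0) (good_of_chk c47_1)) (good_of_chk c47_2)) (good_of_chk c47_3)) (good_of_chk c47_4)) (good_of_chk c47_5)) (good_of_chk c47_6)) (good_of_chk c47_7)) (good_of_chk c47_8)) (good_of_chk c47_9))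


end Vale.Agent.P045.R6
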