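import Vale.Agent.P045.R6.Rows

/-! Checks of the rows of a certificate. -/

namespace Vale.Agent.P045.R6

set_option maxRecDepth 100000

theorem c48_0 : chk (nat_lit 48000) (nat_lit 100) = true := by decide +kernel

theorem c48_1 : chk (nat_lit 48100) (nat_lit 100) = true := by decide +kernel

theorem c48_2 : chk (nat_lit 48200) (nat_lit 100) = true := by decide +kernel

theorem c48_3 : chk (nat_lit 48300) (nat_lit 100) = true := by decide +kernel

theorem c48_4 : chk (nat_lit 48400) (nat_lit 100) = true := by decide +kernel

theorem c48_5 : chk (nat_lit 48500) (nat_lit 100) = true := by decide +kernel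

theorem c48_6 : chk (nat_lit 48600) (nat_lit 100) = true := by decide +kernel

theorem c48_7 : chk (nat_lit 48700) (nat_lit 100) = true := by decide +kernel

theorem c48_8 : chk (nat_lit 48800) (nat_lit 100) = true := by decide +kernel

theorem c48_9 : chk (nat_lit 48900) (nat_lit 100) = true := by decide +kernel


theorem all48 : ∀ i, 48000 ≤ i → i < 49000 → Good i := (good_chain (good_chain (good_chain (good_chain (good_chain (good_chain (good_chain (good_chain (good_chain (good_of_chk c48_0) (good_of_chk c48_1)) (good_of_chk c48_2)) (good_of_chk c48_3)) (good_of_chk c48_4)) (good_of_chk c48_5)) (good_of_chk c48_6)) (good_of_chk c48_7)) (good_of_chk c48_8)) (good_of_chk c48_9))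


end Vale.Agent.P045.R6
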