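import Vale.Agent.P045.R6.Rows

/-! Checks of the rows of a certificate. -/

namespace Vale.Agent.P045.R6

set_option maxRecDepth 100000

theorem c49_0 : chk (nat_lit 49000) (nat_lit 100) = true := by decide +kernel

theorem c49_1 : chk (nat_lit 49100) (nat_lit 100) = true := by decide +kernel

theorem c49_2 : chk (nat_lit 49200) (nat_lit 100) = true := by decide +kernel

theorem c49_3 : chk (nat_lit 49300) (nat_lit 100) = true := by decide +kernel

theorem c49_4 : chk (nat_lit 49400) (nat_lit 100) = true := by decide +kernel

theorem c49_5 : chk (nat_lit 49500) (nat_lit 100) = true := by decide +kernel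

theorem c49_6 : chk (nat_lit 49600) (nat_lit 100) = true := by decide +kernel

theorem c49_7 : chk (nat_lit 49700) (nat_lit 100) = true := by decide +kernel

theorem c49_8 : chk (nat_lit 49800) (nat_lit 100) = true := by decide +kernel

theorem c49_9 : chk (nat_lit 49900) (nat_lit 100) = true := by decide +kernel


theorem all49 : ∀ i, 49000 ≤ i → i < 50000 → Good i := (good_chain (good_chain (good_chain (good_chain (good_chain (good_chain (good_chain (good_chain (good_chain (good_of_chk c49_0) (good_of_chk c49_1)) (good_of_chk c49_2)) (good_of_chk c49_3)) (good_of_chk c49_4)) (good_of_chk c49_5)) (good_of_chk c49_6)) (good_of_chk c49_7)) (good_of_chk c49_8)) (good_of_chk c49_9))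


end Vale.Agent.P045.R6
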