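import Vale.Agent.P045.R6.Rows

/-! Checks of the rows of a certificate. -/

namespace Vale.Agent.P045.R6

set_option maxRecDepth 100000

theorem c5_0 : chk (nat_lit 5000) (nat_lit 100) = true := by decide +kernel

theorem c5_1 : chk (nat_lit 5100) (nat_lit 100) = true := by decide +kernel

theorem c5_2 : chk (nat_lit 5200) (nat_lit 100) = true := by decide +kernel

theorem c5_3 : chk (nat_lit 5300) (nat_lit 100) = true := by decide +kernel

theorem c5_4 : chk (nat_lit 5400) (nat_lit 100) = true := by decide +kernel

theorem c5_5 : chk (nat_lit 5500) (nat_lit 100) = true := by decide +kernel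

theorem c5_6 : chk (nat_lit 5600) (nat_lit 100) = true := by decide +kernel

theorem c5_7 : chk (nat_lit 5700) (nat_lit 100) = true := by decide +kernel

theorem c5_8 : chk (nat_lit 5800) (nat_lit 100) = true := by decide +kernel

theorem c5_9 : chk (nat_lit 5900) (nat_lit 100) = true := by decide +kernel


theorem all5 : ∀ i, 5000 ≤ i → i < 6000 → Good i := (good_chain (good_chain (good_chain (good_chain (good_chain (good_chain (good_chain (good_chain (good_chain (good_of_chk c5_0) (good_of_chk c5_1)) (good_of_chk c5_2)) (good_of_chk c5_3)) (good_of_chk c5_4)) (good_of_chk c5_5)) (good_of_chk c5_6)) (good_of_chk c5_7)) (good_of_chk c5_8)) (good_of_chk c5_9))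


end Vale.Agent.P045.R6
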