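import Vale.Agent.P045.R6.Rows

/-! Checks of the rows of a certificate. -/

namespace Vale.Agent.P045.R6

set_option maxRecDepth 100000

theorem c50_0 : chk (nat_lit 50000) (nat_lit 100) = true := by decide +kernel

theorem c50_1 : chk (nat_lit 50100) (nat_lit 100) = true := by decide +kernel

theorem c50_2 : chk (nat_lit 50200) (nat_lit 100) = true := by decide +kernel

theorem c50_3 : chk (nat_lit 50300) (nat_lit 100) = true := by decide +kernel

theorem c50_4 : chk (nat_lit 50400) (nat_lit 100) = true := by decide +kernel

theorem c50_5 : chk (nat_lit 50500) (nat_lit 100) = true := by decide +kernel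

theorem c50_6 : chk (nat_lit 50600) (nat_lit 100) = true := by decide +kernel

theorem c50_7 : chk (nat_lit 50700) (nat_lit 100) = true := by decide +kernel

theorem c50_8 : chk (nat_lit 50800) (nat_lit 100) = true := by decide +kernel

theorem c50_9 : chk (nat_lit 50900) (nat_lit 100) = true := by decide +kernel


theorem all50 : ∀ i, 50000 ≤ i → i < 51000 → Good i := (good_chain (good_chain (good_chain (good_chain (good_chain (good_chain (good_chain (good_chain (good_chain (good_of_chk c50_0) (good_of_chk c50_1)) (good_of_chk c50_2)) (good_of_chk c50_3)) (good_of_chk c50_4)) (good_of_chk c50_5)) (good_of_chk c50_6)) (good_of_chk c50_7)) (good_of_chk c50_8)) (good_of_chk c50_9))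


end Vale.Agent.P045.R6
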