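import Vale.Agent.P045.R6.Rows

/-! Checks of the rows of a certificate. -/

namespace Vale.Agent.P045.R6

set_option maxRecDepth 100000

theorem c51_0 : chk (nat_lit 51000) (nat_lit 100) = true := by decide +kernel

theorem c51_1 : chk (nat_lit 51100) (nat_lit 100) = true := by decide +kernel

theorem c51_2 : chk (nat_lit 51200) (nat_lit 100) = true := by decide +kernel

theorem c51_3 : chk (nat_lit 51300) (nat_lit 100) = true := by decide +kernel

theorem c51_4 : chk (nat_lit 51400) (nat_lit 100) = true := by decide +kernel

theorem c51_5 : chk (nat_lit 51500) (nat_lit 100) = true := by decide +kernel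

theorem c51_6 : chk (nat_lit 51600) (nat_lit 100) = true := by decide +kernel

theorem c51_7 : chk (nat_lit 51700) (nat_lit 100) = true := by decide +kernel

theorem c51_8 : chk (nat_lit 51800) (nat_lit 100) = true := by decide +kernel

theorem c51_9 : chk (nat_lit 51900) (nat_lit 100) = true := by decide +kernel


theorem all51 : ∀ i, 51000 ≤ i → i < 52000 → Good i := (good_chain (good_chain (good_chain (good_chain (good_chain (good_chain (good_chain (good_chain (good_chain (good_of_chk c51_0) (good_of_chk c51_1)) (good_of_chk c51_2)) (good_of_chk c51_3)) (good_of_chk c51_4)) (good_of_chk c51_5)) (good_of_chk c51_6)) (good_of_chk c51_7)) (good_of_chk c51_8)) (good_of_chk c51_9))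


end Vale.Agent.P045.R6
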