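import Vale.Agent.P045.R6.Rows

/-! Checks of the rows of a certificate. -/

namespace Vale.Agent.P045.R6

set_option maxRecDepth 100000

theorem c52_0 : chk (nat_lit 52000) (nat_lit 100) = true := by decide +kernel

theorem c52_1 : chk (nat_lit 52100) (nat_lit 100) = true := by decide +kernel

theorem c52_2 : chk (nat_lit 52200) (nat_lit 100) = true := by decide +kernel

theorem c52_3 : chk (nat_lit 52300) (nat_lit 100) = true := by decide +kernel

theorem c52_4 : chk (nat_lit 52400) (nat_lit 100) = true := by decide +kernel

theorem c52_5 : chk (nat_lit 52500) (nat_lit 100) = true := by decide +kernel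

theorem c52_6 : chk (nat_lit 52600) (nat_lit 100) = true := by decide +kernel

theorem c52_7 : chk (nat_lit 52700) (nat_lit 100) = true := by decide +kernel

theorem c52_8 : chk (nat_lit 52800) (nat_lit 100) = true := by decide +kernel

theorem c52_9 : chk (nat_lit 52900) (nat_lit 100) = true := by decide +kernel


theorem all52 : ∀ i, 52000 ≤ i → i < 53000 → Good i := (good_chain (good_chain (good_chain (good_chain (good_chain (good_chain (good_chain (good_chain (good_chain (good_of_chk c52_0) (good_of_chk c52_1)) (good_of_chk c52_2)) (good_of_chk c52_3)) (good_of_chk c52_4)) (good_of_chk c52_5)) (good_of_chk c52_6)) (good_of_chk c52_7)) (good_of_chk c52_8)) (good_of_chk c52_9))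


end Vale.Agent.P045.R6
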