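import Vale.Agent.P045.R6.Rows

/-! Checks of the rows of a certificate. -/

namespace Vale.Agent.P045.R6

set_option maxRecDepth 100000

theorem c53_0 : chk (nat_lit 53000) (nat_lit 100) = true := by decide +kernel

theorem c53_1 : chk (nat_lit 53100) (nat_lit 100) = true := by decide +kernel

theorem c53_2 : chk (nat_lit 53200) (nat_lit 100) = true := by decide +kernel

theorem c53_3 : chk (nat_lit 53300) (nat_lit 100) = true := by decide +kernel

theorem c53_4 : chk (nat_lit 53400) (nat_lit 100) = true := by decide +kernel

theorem c53_5 : chk (nat_lit 53500) (nat_lit 100) = true := by decide +kernel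

theorem c53_6 : chk (nat_lit 53600) (nat_lit 100) = true := by decide +kernel

theorem c53_7 : chk (nat_lit 53700) (nat_lit 100) = true := by decide +kernel

theorem c53_8 : chk (nat_lit 53800) (nat_lit 100) = true := by decide +kernel

theorem c53_9 : chk (nat_lit 53900) (nat_lit 100) = true := by decide +kernel


theorem all53 : ∀ i, 53000 ≤ i → i < 54000 → Good i := (good_chain (good_chain (good_chain (good_chain (good_chain (good_chain (good_chain (good_chain (good_chain (good_of_chk c53_0) (good_of_chk c53_1)) (good_of_chk c53_2)) (good_of_chk c53_3)) (good_of_chk c53_4)) (good_of_chk c53_5)) (good_of_chk c53_6)) (good_of_chk c53_7)) (good_of_chk c53_8)) (good_of_chk c53_9))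


end Vale.Agent.P045.R6
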