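import Vale.Agent.P045.R6.Rows

/-! Checks of the rows of a certificate. -/

namespace Vale.Agent.P045.R6

set_option maxRecDepth 100000

theorem c54_0 : chk (nat_lit 54000) (nat_lit 100) = true := by decide +kernel

theorem c54_1 : chk (nat_lit 54100) (nat_lit 100) = true := by decide +kernel

theorem c54_2 : chk (nat_lit 54200) (nat_lit 100) = true := by decide +kernel

theorem c54_3 : chk (nat_lit 54300) (nat_lit 100) = true := by decide +kernel

theorem c54_4 : chk (nat_lit 54400) (nat_lit 100) = true := by decide +kernel

theorem c54_5 : chk (nat_lit 54500) (nat_lit 100) = true := by decide +kernel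

theorem c54_6 : chk (nat_lit 54600) (nat_lit 100) = true := by decide +kernel

theorem c54_7 : chk (nat_lit 54700) (nat_lit 100) = true := by decide +kernel

theorem c54_8 : chk (nat_lit 54800) (nat_lit 100) = true := by decide +kernel

theorem c54_9 : chk (nat_lit 54900) (nat_lit 100) = true := by decide +kernel


theorem all54 : ∀ i, 54000 ≤ i → i < 55000 → Good i := (good_chain (good_chain (good_chain (good_chain (good_chain (good_chain (good_chain (good_chain (good_chain (good_of_chk c54_0) (good_of_chk c54_1)) (good_of_chk c54_2)) (good_of_chk c54_3)) (good_of_chk c54_4)) (good_of_chk c54_5)) (good_of_chk c54_6)) (good_of_chk c54_7)) (good_of_chk c54_8)) (good_of_chk c54_9))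


end Vale.Agent.P045.R6
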