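import Vale.Agent.P045.R6.Rows

/-! Checks of the rows of a certificate. -/

namespace Vale.Agent.P045.R6

set_option maxRecDepth 100000

theorem c55_0 : chk (nat_lit 55000) (nat_lit 100) = true := by decide +kernel

theorem c55_1 : chk (nat_lit 55100) (nat_lit 100) = true := by decide +kernel

theorem c55_2 : chk (nat_lit 55200) (nat_lit 100) = true := by decide +kernel

theorem c55_3 : chk (nat_lit 55300) (nat_lit 100) = true := by decide +kernel

theorem c55_4 : chk (nat_lit 55400) (nat_lit 100) = true := by decide +kernel

theorem c55_5 : chk (nat_lit 55500) (nat_lit 100) = true := by decide +kernel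

theorem c55_6 : chk (nat_lit 55600) (nat_lit 100) = true := by decide +kernel

theorem c55_7 : chk (nat_lit 55700) (nat_lit 100) = true := by decide +kernel

theorem c55_8 : chk (nat_lit 55800) (nat_lit 100) = true := by decide +kernel

theorem c55_9 : chk (nat_lit 55900) (nat_lit 100) = true := by decide +kernel


theorem all55 : ∀ i, 55000 ≤ i → i < 56000 → Good i := (good_chain (good_chain (good_chain (good_chain (good_chain (good_chain (good_chain (good_chain (good_chain (good_of_chk c55_0) (good_of_chk c55_1)) (good_of_chk c55_2)) (good_of_chk c55_3)) (good_of_chk c55_4)) (good_of_chk c55_5)) (good_of_chk c55_6)) (good_of_chk c55_7)) (good_of_chk c55_8)) (good_of_chk c55_9))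


end Vale.Agent.P045.R6
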