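import Vale.Agent.P045.R6.Rows

/-! Checks of the rows of a certificate. -/

namespace Vale.Agent.P045.R6

set_option maxRecDepth 100000

theorem c56_0 : chk (nat_lit 56000) (nat_lit 100) = true := by decide +kernel

theorem c56_1 : chk (nat_lit 56100) (nat_lit 100) = true := by decide +kernel

theorem c56_2 : chk (nat_lit 56200) (nat_lit 100) = true := by decide +kernel

theorem c56_3 : chk (nat_lit 56300) (nat_lit 100) = true := by decide +kernel

theorem c56_4 : chk (nat_lit 56400) (nat_lit 100) = true := by decide +kernel

theorem c56_5 : chk (nat_lit 56500) (nat_lit 100) = true := by decide +kernel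

theorem c56_6 : chk (nat_lit 56600) (nat_lit 100) = true := by decide +kernel

theorem c56_7 : chk (nat_lit 56700) (nat_lit 100) = true := by decide +kernel

theorem c56_8 : chk (nat_lit 56800) (nat_lit 100) = true := by decide +kernel

theorem c56_9 : chk (nat_lit 56900) (nat_lit 100) = true := by decide +kernel


theorem all56 : ∀ i, 56000 ≤ i → i < 57000 → Good i := (good_chain (good_chain (good_chain (good_chain (good_chain (good_chain (good_chain (good_chain (good_chain (good_of_chk c56_0) (good_of_chk c56_1)) (good_of_chk c56_2)) (good_of_chk c56_3)) (good_of_chk c56_4)) (good_of_chk c56_5)) (good_of_chk c56_6)) (good_of_chk c56_7)) (good_of_chk c56_8)) (good_of_chk c56_9))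


end Vale.Agent.P045.R6
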