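import Vale.Agent.P045.R6.Rows

/-! Checks of the rows of a certificate. -/

namespace Vale.Agent.P045.R6

set_option maxRecDepth 100000

theorem c57_0 : chk (nat_lit 57000) (nat_lit 100) = true := by decide +kernel

theorem c57_1 : chk (nat_lit 57100) (nat_lit 100) = true := by decide +kernel

theorem c57_2 : chk (nat_lit 57200) (nat_lit 100) = true := by decide +kernel

theorem c57_3 : chk (nat_lit 57300) (nat_lit 100) = true := by decide +kernel

theorem c57_4 : chk (nat_lit 57400) (nat_lit 100) = true := by decide +kernel

theorem c57_5 : chk (nat_lit 57500) (nat_lit 100) = true := by decide +kernel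

theorem c57_6 : chk (nat_lit 57600) (nat_lit 100) = true := by decide +kernel

theorem c57_7 : chk (nat_lit 57700) (nat_lit 100) = true := by decide +kernel

theorem c57_8 : chk (nat_lit 57800) (nat_lit 100) = true := by decide +kernel

theorem c57_9 : chk (nat_lit 57900) (nat_lit 100) = true := by decide +kernel


theorem all57 : ∀ i, 57000 ≤ i → i < 58000 → Good i := (good_chain (good_chain (good_chain (good_chain (good_chain (good_chain (good_chain (good_chain (good_chain (good_of_chk c57_0) (good_of_chk c57_1)) (good_of_chk c57_2)) (good_of_chk c57_3)) (good_of_chk c57_4)) (good_of_chk c57_5)) (good_of_chk c57_6)) (good_of_chk c57_7)) (good_of_chk c57_8)) (good_of_chk c57_9))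


end Vale.Agent.P045.R6
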