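import Vale.Agent.P045.R6.Rows

/-! Checks of the rows of a certificate. -/

namespace Vale.Agent.P045.R6

set_option maxRecDepth 100000

theorem c58_0 : chk (nat_lit 58000) (nat_lit 100) = true := by decide +kernel

theorem c58_1 : chk (nat_lit 58100) (nat_lit 100) = true := by decide +kernel

theorem c58_2 : chk (nat_lit 58200) (nat_lit 100) = true := by decide +kernel

theorem c58_3 : chk (nat_lit 58300) (nat_lit 100) = true := by decide +kernel

theorem c58_4 : chk (nat_lit 58400) (nat_lit 100) = true := by decide +kernel

theorem c58_5 : chk (nat_lit 58500) (nat_lit 100) = true := by decide +kernel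

theorem c58_6 : chk (nat_lit 58600) (nat_lit 100) = true := by decide +kernel

theorem c58_7 : chk (nat_lit 58700) (nat_lit 100) = true := by decide +kernel

theorem c58_8 : chk (nat_lit 58800) (nat_lit 100) = true := by decide +kernel

theorem c58_9 : chk (nat_lit 58900) (nat_lit 100) = true := by decide +kernel


theorem all58 : ∀ i, 58000 ≤ i → i < 59000 → Good i := (good_chain (good_chain (good_chain (good_chain (good_chain (good_chain (good_chain (good_chain (good_chain (good_of_chk c58_0) (good_of_chk c58_1)) (good_of_chk c58_2)) (good_of_chk c58_3)) (good_of_chk c58_4)) (good_of_chk c58_5)) (good_of_chk c58_6)) (good_of_chk c58_7)) (good_of_chk c58_8)) (good_of_chk c58_9))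


end Vale.Agent.P045.R6
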