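import Vale.Agent.P045.R6.Rows

/-! Checks of the rows of a certificate. -/

namespace Vale.Agent.P045.R6

set_option maxRecDepth 100000

theorem c59_0 : chk (nat_lit 59000) (nat_lit 100) = true := by decide +kernel

theorem c59_1 : chk (nat_lit 59100) (nat_lit 100) = true := by decide +kernel

theorem c59_2 : chk (nat_lit 59200) (nat_lit 100) = true := by decide +kernel

theorem c59_3 : chk (nat_lit 59300) (nat_lit 100) = true := by decide +kernel

theorem c59_4 : chk (nat_lit 59400) (nat_lit 100) = true := by decide +kernel

theorem c59_5 : chk (nat_lit 59500) (nat_lit 100) = true := by decide +kernel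

theorem c59_6 : chk (nat_lit 59600) (nat_lit 100) = true := by decide +kernel

theorem c59_7 : chk (nat_lit 59700) (nat_lit 100) = true := by decide +kernel

theorem c59_8 : chk (nat_lit 59800) (nat_lit 100) = true := by decide +kernel

theorem c59_9 : chk (nat_lit 59900) (nat_lit 100) = true := by decide +kernel


theorem all59 : ∀ i, 59000 ≤ i → i < 60000 → Good i := (good_chain (good_chain (good_chain (good_chain (good_chain (good_chain (good_chain (good_chain (good_chain (good_of_chk c59_0) (good_of_chk c59_1)) (good_of_chk c59_2)) (good_of_chk c59_3)) (good_of_chk c59_4)) (good_of_chk c59_5)) (good_of_chk c59_6)) (good_of_chk c59_7)) (good_of_chk c59_8)) (good_of_chk c59_9))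


end Vale.Agent.P045.R6
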