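import Vale.Agent.P045.R6.Rows

/-! Checks of the rows of a certificate. -/

namespace Vale.Agent.P045.R6

set_option maxRecDepth 100000

theorem c6_0 : chk (nat_lit 6000) (nat_lit 100) = true := by decide +kernel

theorem c6_1 : chk (nat_lit 6100) (nat_lit 100) = true := by decide +kernel

theorem c6_2 : chk (nat_lit 6200) (nat_lit 100) = true := by decide +kernel

theorem c6_3 : chk (nat_lit 6300) (nat_lit 100) = true := by decide +kernel

theorem c6_4 : chk (nat_lit 6400) (nat_lit 100) = true := by decide +kernel

theorem c6_5 : chk (nat_lit 6500) (nat_lit 100) = true := by decide +kernel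

theorem c6_6 : chk (nat_lit 6600) (nat_lit 100) = true := by decide +kernel

theorem c6_7 : chk (nat_lit 6700) (nat_lit 100) = true := by decide +kernel

theorem c6_8 : chk (nat_lit 6800) (nat_lit 100) = true := by decide +kernel

theorem c6_9 : chk (nat_lit 6900) (nat_lit 100) = true := by decide +kernel


theorem all6 : ∀ i, 6000 ≤ i → i < 7000 → Good i := (good_chain (good_chain (good_chain (good_chain (good_chain (good_chain (good_chain (good_chain (good_chain (good_of_chk c6_0) (good_of_chk c6_1)) (good_of_chk c6_2)) (good_of_chk c6_3)) (good_of_chk c6_4)) (good_of_chk c6_5)) (good_of_chk c6_6)) (good_of_chk c6_7)) (good_of_chk c6_8)) (good_of_chk c6_9))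


end Vale.Agent.P045.R6
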