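import Vale.Agent.P045.R6.Rows

/-! Checks of the rows of a certificate. -/

namespace Vale.Agent.P045.R6

set_option maxRecDepth 100000

theorem c60_0 : chk (nat_lit 60000) (nat_lit 100) = true := by decide +kernel

theorem c60_1 : chk (nat_lit 60100) (nat_lit 100) = true := by decide +kernel

theorem c60_2 : chk (nat_lit 60200) (nat_lit 100) = true := by decide +kernel

theorem c60_3 : chk (nat_lit 60300) (nat_lit 100) = true := by decide +kernel

theorem c60_4 : chk (nat_lit 60400) (nat_lit 100) = true := by decide +kernel

theorem c60_5 : chk (nat_lit 60500) (nat_lit 100) = true := by decide +kernel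

theorem c60_6 : chk (nat_lit 60600) (nat_lit 100) = true := by decide +kernel

theorem c60_7 : chk (nat_lit 60700) (nat_lit 100) = true := by decide +kernel

theorem c60_8 : chk (nat_lit 60800) (nat_lit 100) = true := by decide +kernel

theorem c60_9 : chk (nat_lit 60900) (nat_lit 100) = true := by decide +kernel


theorem all60 : ∀ i, 60000 ≤ i → i < 61000 → Good i := (good_chain (good_chain (good_chain (good_chain (good_chain (good_chain (good_chain (good_chain (good_chain (good_of_chk c60_0) (good_of_chk c60_1)) (good_of_chk c60_2)) (good_of_chk c60_3)) (good_of_chk c60_4)) (good_of_chk c60_5)) (good_of_chk c60_6)) (good_of_chk c60_7)) (good_of_chk c60_8)) (good_of_chk c60_9))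


end Vale.Agent.P045.R6
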