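import Vale.Agent.P045.R6.Rows

/-! Checks of the rows of a certificate. -/

namespace Vale.Agent.P045.R6

set_option maxRecDepth 100000

theorem c61_0 : chk (nat_lit 61000) (nat_lit 100) = true := by decide +kernel

theorem c61_1 : chk (nat_lit 61100) (nat_lit 100) = true := by decide +kernel

theorem c61_2 : chk (nat_lit 61200) (nat_lit 100) = true := by decide +kernel

theorem c61_3 : chk (nat_lit 61300) (nat_lit 100) = true := by decide +kernel

theorem c61_4 : chk (nat_lit 61400) (nat_lit 100) = true := by decide +kernel

theorem c61_5 : chk (nat_lit 61500) (nat_lit 100) = true := by decide +kernel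

theorem c61_6 : chk (nat_lit 61600) (nat_lit 100) = true := by decide +kernel

theorem c61_7 : chk (nat_lit 61700) (nat_lit 100) = true := by decide +kernel

theorem c61_8 : chk (nat_lit 61800) (nat_lit 100) = true := by decide +kernel

theorem c61_9 : chk (nat_lit 61900) (nat_lit 100) = true := by decide +kernel


theorem all61 : ∀ i, 61000 ≤ i → i < 62000 → Good i := (good_chain (good_chain (good_chain (good_chain (good_chain (good_chain (good_chain (good_chain (good_chain (good_of_chk c61_0) (good_of_chk c61_1)) (good_of_chk c61_2)) (good_of_chk c61_3)) (good_of_chk c61_4)) (good_of_chk c61_5)) (good_of_chk c61_6)) (good_of_chk c61_7)) (good_of_chk c61_8)) (good_of_chk c61_9))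


end Vale.Agent.P045.R6
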