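import Vale.Agent.P045.R6.Rows

/-! Checks of the rows of a certificate. -/

namespace Vale.Agent.P045.R6

set_option maxRecDepth 100000

theorem c62_0 : chk (nat_lit 62000) (nat_lit 100) = true := by decide +kernel

theorem c62_1 : chk (nat_lit 62100) (nat_lit 100) = true := by decide +kernel

theorem c62_2 : chk (nat_lit 62200) (nat_lit 100) = true := by decide +kernel

theorem c62_3 : chk (nat_lit 62300) (nat_lit 100) = true := by decide +kernel

theorem c62_4 : chk (nat_lit 62400) (nat_lit 100) = true := by decide +kernel

theorem c62_5 : chk (nat_lit 62500) (nat_lit 100) = true := by decide +kernel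

theorem c62_6 : chk (nat_lit 62600) (nat_lit 100) = true := by decide +kernel

theorem c62_7 : chk (nat_lit 62700) (nat_lit 100) = true := by decide +kernel

theorem c62_8 : chk (nat_lit 62800) (nat_lit 100) = true := by decide +kernel

theorem c62_9 : chk (nat_lit 62900) (nat_lit 100) = true := by decide +kernel


theorem all62 : ∀ i, 62000 ≤ i → i < 63000 → Good i := (good_chain (good_chain (good_chain (good_chain (good_chain (good_chain (good_chain (good_chain (good_chain (good_of_chk c62_0) (good_of_chk c62_1)) (good_of_chk c62_2)) (good_of_chk c62_3)) (good_of_chk c62_4)) (good_of_chk c62_5)) (good_of_chk c62_6)) (good_of_chk c62_7)) (good_of_chk c62_8)) (good_of_chk c62_9))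


end Vale.Agent.P045.R6
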