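import Vale.Agent.P045.R6.Rows

/-! Checks of the rows of a certificate. -/

namespace Vale.Agent.P045.R6

set_option maxRecDepth 100000

theorem c63_0 : chk (nat_lit 63000) (nat_lit 100) = true := by decide +kernel

theorem c63_1 : chk (nat_lit 63100) (nat_lit 100) = true := by decide +kernel

theorem c63_2 : chk (nat_lit 63200) (nat_lit 100) = true := by decide +kernel

theorem c63_3 : chk (nat_lit 63300) (nat_lit 100) = true := by decide +kernel

theorem c63_4 : chk (nat_lit 63400) (nat_lit 100) = true := by decide +kernel

theorem c63_5 : chk (nat_lit 63500) (nat_lit 100) = true := by decide +kernel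

theorem c63_6 : chk (nat_lit 63600) (nat_lit 100) = true := by decide +kernel

theorem c63_7 : chk (nat_lit 63700) (nat_lit 100) = true := by decide +kernel

theorem c63_8 : chk (nat_lit 63800) (nat_lit 100) = true := by decide +kernel

theorem c63_9 : chk (nat_lit 63900) (nat_lit 100) = true := by decide +kernel


theorem all63 : ∀ i, 63000 ≤ i → i < 64000 → Good i := (good_chain (good_chain (good_chain (good_chain (good_chain (good_chain (good_chain (good_chain (good_chain (good_of_chk c63_0) (good_of_chk c63_1)) (good_of_chk c63_2)) (good_of_chk c63_3)) (good_of_chk c63_4)) (good_of_chk c63_5)) (good_of_chk c63_6)) (good_of_chk c63_7)) (good_of_chk c63_8)) (good_of_chk c63_9))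


end Vale.Agent.P045.R6
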