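import Vale.Agent.P045.R6.Rows

/-! Checks of the rows of a certificate. -/

namespace Vale.Agent.P045.R6

set_option maxRecDepth 100000

theorem c64_0 : chk (nat_lit 64000) (nat_lit 100) = true := by decide +kernel

theorem c64_1 : chk (nat_lit 64100) (nat_lit 100) = true := by decide +kernel

theorem c64_2 : chk (nat_lit 64200) (nat_lit 100) = true := by decide +kernel

theorem c64_3 : chk (nat_lit 64300) (nat_lit 100) = true := by decide +kernel

theorem c64_4 : chk (nat_lit 64400) (nat_lit 100) = true := by decide +kernel

theorem c64_5 : chk (nat_lit 64500) (nat_lit 100) = true := by decide +kernel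

theorem c64_6 : chk (nat_lit 64600) (nat_lit 100) = true := by decide +kernel

theorem c64_7 : chk (nat_lit 64700) (nat_lit 100) = true := by decide +kernel

theorem c64_8 : chk (nat_lit 64800) (nat_lit 100) = true := by decide +kernel

theorem c64_9 : chk (nat_lit 64900) (nat_lit 100) = true := by decide +kernel


theorem all64 : ∀ i, 64000 ≤ i → i < 65000 → Good i := (good_chain (good_chain (good_chain (good_chain (good_chain (good_chain (good_chain (good_chain (good_chain (good_of_chk c64_0) (good_of_chk c64_1)) (good_of_chk c64_2)) (good_of_chk c64_3)) (good_of_chk c64_4)) (good_of_chk c64_5)) (good_of_chk c64_6)) (good_of_chk c64_7)) (good_of_chk c64_8)) (good_of_chk c64_9))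


end Vale.Agent.P045.R6
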