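import Vale.Agent.P045.R6.Rows

/-! Checks of the rows of a certificate. -/

namespace Vale.Agent.P045.R6

set_option maxRecDepth 100000

theorem c65_0 : chk (nat_lit 65000) (nat_lit 100) = true := by decide +kernel

theorem c65_1 : chk (nat_lit 65100) (nat_lit 100) = true := by decide +kernel

theorem c65_2 : chk (nat_lit 65200) (nat_lit 100) = true := by decide +kernel

theorem c65_3 : chk (nat_lit 65300) (nat_lit 100) = true := by decide +kernel

theorem c65_4 : chk (nat_lit 65400) (nat_lit 100) = true := by decide +kernel

theorem c65_5 : chk (nat_lit 65500) (nat_lit 100) = true := by decide +kernel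

theorem c65_6 : chk (nat_lit 65600) (nat_lit 100) = true := by decide +kernel

theorem c65_7 : chk (nat_lit 65700) (nat_lit 100) = true := by decide +kernel

theorem c65_8 : chk (nat_lit 65800) (nat_lit 100) = true := by decide +kernel

theorem c65_9 : chk (nat_lit 65900) (nat_lit 100) = true := by decide +kernel


theorem all65 : ∀ i, 65000 ≤ i → i < 66000 → Good i := (good_chain (good_chain (good_chain (good_chain (good_chain (good_chain (good_chain (good_chain (good_chain (good_of_chk c65_0) (good_of_chk c65_1)) (good_of_chk c65_2)) (good_of_chk c65_3)) (good_of_chk c65_4)) (good_of_chk c65_5)) (good_of_chk c65_6)) (good_of_chk c65_7)) (good_of_chk c65_8)) (good_of_chk c65_9))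


end Vale.Agent.P045.R6
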