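import Vale.Agent.P045.R6.Rows

/-! Checks of the rows of a certificate. -/

namespace Vale.Agent.P045.R6

set_option maxRecDepth 100000

theorem c66_0 : chk (nat_lit 66000) (nat_lit 100) = true := by decide +kernel

theorem c66_1 : chk (nat_lit 66100) (nat_lit 100) = true := by decide +kernel

theorem c66_2 : chk (nat_lit 66200) (nat_lit 100) = true := by decide +kernel

theorem c66_3 : chk (nat_lit 66300) (nat_lit 100) = true := by decide +kernel

theorem c66_4 : chk (nat_lit 66400) (nat_lit 100) = true := by decide +kernel

theorem c66_5 : chk (nat_lit 66500) (nat_lit 100) = true := by decide +kernel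

theorem c66_6 : chk (nat_lit 66600) (nat_lit 100) = true := by decide +kernel

theorem c66_7 : chk (nat_lit 66700) (nat_lit 100) = true := by decide +kernel

theorem c66_8 : chk (nat_lit 66800) (nat_lit 100) = true := by decide +kernel

theorem c66_9 : chk (nat_lit 66900) (nat_lit 100) = true := by decide +kernel


theorem all66 : ∀ i, 66000 ≤ i → i < 67000 → Good i := (good_chain (good_chain (good_chain (good_chain (good_chain (good_chain (good_chain (good_chain (good_chain (good_of_chk c66_0) (good_of_chk c66_1)) (good_of_chk c66_2)) (good_of_chk c66_3)) (good_of_chk c66_4)) (good_of_chk c66_5)) (good_of_chk c66_6)) (good_of_chk c66_7)) (good_of_chk c66_8)) (good_of_chk c66_9))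


end Vale.Agent.P045.R6
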