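import Vale.Agent.P045.R6.Rows

/-! Checks of the rows of a certificate. -/

namespace Vale.Agent.P045.R6

set_option maxRecDepth 100000

theorem c67_0 : chk (nat_lit 67000) (nat_lit 100) = true := by decide +kernel

theorem c67_1 : chk (nat_lit 67100) (nat_lit 100) = true := by decide +kernel

theorem c67_2 : chk (nat_lit 67200) (nat_lit 100) = true := by decide +kernel

theorem c67_3 : chk (nat_lit 67300) (nat_lit 100) = true := by decide +kernel

theorem c67_4 : chk (nat_lit 67400) (nat_lit 100) = true := by decide +kernel

theorem c67_5 : chk (nat_lit 67500) (nat_lit 100) = true := by decide +kernel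

theorem c67_6 : chk (nat_lit 67600) (nat_lit 100) = true := by decide +kernel

theorem c67_7 : chk (nat_lit 67700) (nat_lit 100) = true := by decide +kernel

theorem c67_8 : chk (nat_lit 67800) (nat_lit 100) = true := by decide +kernel

theorem c67_9 : chk (nat_lit 67900) (nat_lit 100) = true := by decide +kernel


theorem all67 : ∀ i, 67000 ≤ i → i < 68000 → Good i := (good_chain (good_chain (good_chain (good_chain (good_chain (good_chain (good_chain (good_chain (good_chain (good_of_chk c67_0) (good_of_chk c67_1)) (good_of_chk c67_2)) (good_of_chk c67_3)) (good_of_chk c67_4)) (good_of_chk c67_5)) (good_of_chk c67_6)) (good_of_chk c67_7)) (good_of_chk c67_8)) (good_of_chk c67_9))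


end Vale.Agent.P045.R6
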