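import Vale.Agent.P045.R6.Rows

/-! Checks of the rows of a certificate. -/

namespace Vale.Agent.P045.R6

set_option maxRecDepth 100000

theorem c68_0 : chk (nat_lit 68000) (nat_lit 100) = true := by decide +kernel

theorem c68_1 : chk (nat_lit 68100) (nat_lit 100) = true := by decide +kernel

theorem c68_2 : chk (nat_lit 68200) (nat_lit 100) = true := by decide +kernel

theorem c68_3 : chk (nat_lit 68300) (nat_lit 100) = true := by decide +kernel

theorem c68_4 : chk (nat_lit 68400) (nat_lit 100) = true := by decide +kernel

theorem c68_5 : chk (nat_lit 68500) (nat_lit 100) = true := by decide +kernel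

theorem c68_6 : chk (nat_lit 68600) (nat_lit 100) = true := by decide +kernel

theorem c68_7 : chk (nat_lit 68700) (nat_lit 100) = true := by decide +kernel

theorem c68_8 : chk (nat_lit 68800) (nat_lit 100) = true := by decide +kernel

theorem c68_9 : chk (nat_lit 68900) (nat_lit 100) = true := by decide +kernel


theorem all68 : ∀ i, 68000 ≤ i → i < 69000 → Good i := (good_chain (good_chain (good_chain (good_chain (good_chain (good_chain (good_chain (good_chain (good_chain (good_of_chk c68_0) (good_of_chk c68_1)) (good_of_chk c68_2)) (good_of_chk c68_3)) (good_of_chk c68_4)) (good_of_chk c68_5)) (good_of_chk c68_6)) (good_of_chk c68_7)) (good_of_chk c68_8)) (good_of_chk c68_9))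


end Vale.Agent.P045.R6
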