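import Vale.Agent.P045.R6.Rows

/-! Checks of the rows of a certificate. -/

namespace Vale.Agent.P045.R6

set_option maxRecDepth 100000

theorem c69_0 : chk (nat_lit 69000) (nat_lit 100) = true := by decide +kernel

theorem c69_1 : chk (nat_lit 69100) (nat_lit 100) = true := by decide +kernel

theorem c69_2 : chk (nat_lit 69200) (nat_lit 100) = true := by decide +kernel

theorem c69_3 : chk (nat_lit 69300) (nat_lit 100) = true := by decide +kernel

theorem c69_4 : chk (nat_lit 69400) (nat_lit 100) = true := by decide +kernel

theorem c69_5 : chk (nat_lit 69500) (nat_lit 100) = true := by decide +kernel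

theorem c69_6 : chk (nat_lit 69600) (nat_lit 100) = true := by decide +kernel

theorem c69_7 : chk (nat_lit 69700) (nat_lit 100) = true := by decide +kernel

theorem c69_8 : chk (nat_lit 69800) (nat_lit 100) = true := by decide +kernel

theorem c69_9 : chk (nat_lit 69900) (nat_lit 100) = true := by decide +kernel


theorem all69 : ∀ i, 69000 ≤ i → i < 70000 → Good i := (good_chain (good_chain (good_chain (good_chain (good_chain (good_chain (good_chain (good_chain (good_chain (good_of_chk c69_0) (good_of_chk c69_1)) (good_of_chk c69_2)) (good_of_chk c69_3)) (good_of_chk c69_4)) (good_of_chk c69_5)) (good_of_chk c69_6)) (good_of_chk c69_7)) (good_of_chk c69_8)) (good_of_chk c69_9))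


end Vale.Agent.P045.R6
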