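import Vale.Agent.P045.R6.Rows

/-! Checks of the rows of a certificate. -/

namespace Vale.Agent.P045.R6

set_option maxRecDepth 100000

theorem c7_0 : chk (nat_lit 7000) (nat_lit 100) = true := by decide +kernel

theorem c7_1 : chk (nat_lit 7100) (nat_lit 100) = true := by decide +kernel

theorem c7_2 : chk (nat_lit 7200) (nat_lit 100) = true := by decide +kernel

theorem c7_3 : chk (nat_lit 7300) (nat_lit 100) = true := by decide +kernel

theorem c7_4 : chk (nat_lit 7400) (nat_lit 100) = true := by decide +kernel

theorem c7_5 : chk (nat_lit 7500) (nat_lit 100) = true := by decide +kernel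

theorem c7_6 : chk (nat_lit 7600) (nat_lit 100) = true := by decide +kernel

theorem c7_7 : chk (nat_lit 7700) (nat_lit 100) = true := by decide +kernel

theorem c7_8 : chk (nat_lit 7800) (nat_lit 100) = true := by decide +kernel

theorem c7_9 : chk (nat_lit 7900) (nat_lit 100) = true := by decide +kernel


theorem all7 : ∀ i, 7000 ≤ i → i < 8000 → Good i := (good_chain (good_chain (good_chain (good_chain (good_chain (good_chain (good_chain (good_chain (good_chain (good_of_chk c7_0) (good_of_chk c7_1)) (good_of_chk c7_2)) (good_of_chk c7_3)) (good_of_chk c7_4)) (good_of_chk c7_5)) (good_of_chk c7_6)) (good_of_chk c7_7)) (good_of_chk c7_8)) (good_of_chk c7_9))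


end Vale.Agent.P045.R6
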