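import Vale.Agent.P045.R6.Rows

/-! Checks of the rows of a certificate. -/

namespace Vale.Agent.P045.R6

set_option maxRecDepth 100000

theorem c70_0 : chk (nat_lit 70000) (nat_lit 100) = true := by decide +kernel

theorem c70_1 : chk (nat_lit 70100) (nat_lit 100) = true := by decide +kernel

theorem c70_2 : chk (nat_lit 70200) (nat_lit 100) = true := by decide +kernel

theorem c70_3 : chk (nat_lit 70300) (nat_lit 100) = true := by decide +kernel

theorem c70_4 : chk (nat_lit 70400) (nat_lit 100) = true := by decide +kernel

theorem c70_5 : chk (nat_lit 70500) (nat_lit 100) = true := by decide +kernel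

theorem c70_6 : chk (nat_lit 70600) (nat_lit 100) = true := by decide +kernel

theorem c70_7 : chk (nat_lit 70700) (nat_lit 100) = true := by decide +kernel

theorem c70_8 : chk (nat_lit 70800) (nat_lit 100) = true := by decide +kernel

theorem c70_9 : chk (nat_lit 70900) (nat_lit 100) = true := by decide +kernel


theorem all70 : ∀ i, 70000 ≤ i → i < 71000 → Good i := (good_chain (good_chain (good_chain (good_chain (good_chain (good_chain (good_chain (good_chain (good_chain (good_of_chk c70_0) (good_of_chk c70_1)) (good_of_chk c70_2)) (good_of_chk c70_3)) (good_of_chk c70_4)) (good_of_chk c70_5)) (good_of_chk c70_6)) (good_of_chk c70_7)) (good_of_chk c70_8)) (good_of_chk c70_9))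


end Vale.Agent.P045.R6
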