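import Vale.Agent.P045.R6.Rows

/-! Checks of the rows of a certificate. -/

namespace Vale.Agent.P045.R6

set_option maxRecDepth 100000

theorem c71_0 : chk (nat_lit 71000) (nat_lit 100) = true := by decide +kernel

theorem c71_1 : chk (nat_lit 71100) (nat_lit 100) = true := by decide +kernel

theorem c71_2 : chk (nat_lit 71200) (nat_lit 100) = true := by decide +kernel

theorem c71_3 : chk (nat_lit 71300) (nat_lit 100) = true := by decide +kernel

theorem c71_4 : chk (nat_lit 71400) (nat_lit 100) = true := by decide +kernel

theorem c71_5 : chk (nat_lit 71500) (nat_lit 100) = true := by decide +kernel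

theorem c71_6 : chk (nat_lit 71600) (nat_lit 100) = true := by decide +kernel

theorem c71_7 : chk (nat_lit 71700) (nat_lit 100) = true := by decide +kernel

theorem c71_8 : chk (nat_lit 71800) (nat_lit 100) = true := by decide +kernel

theorem c71_9 : chk (nat_lit 71900) (nat_lit 100) = true := by decide +kernel


theorem all71 : ∀ i, 71000 ≤ i → i < 72000 → Good i := (good_chain (good_chain (good_chain (good_chain (good_chain (good_chain (good_chain (good_chain (good_chain (good_of_chk c71_0) (good_of_chk c71_1)) (good_of_chk c71_2)) (good_of_chk c71_3)) (good_of_chk c71_4)) (good_of_chk c71_5)) (good_of_chk c71_6)) (good_of_chk c71_7)) (good_of_chk c71_8)) (good_of_chk c71_9))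


end Vale.Agent.P045.R6
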