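import Vale.Agent.P045.R6.Rows

/-! Checks of the rows of a certificate. -/

namespace Vale.Agent.P045.R6

set_option maxRecDepth 100000

theorem c72_0 : chk (nat_lit 72000) (nat_lit 100) = true := by decide +kernel

theorem c72_1 : chk (nat_lit 72100) (nat_lit 100) = true := by decide +kernel

theorem c72_2 : chk (nat_lit 72200) (nat_lit 100) = true := by decide +kernel

theorem c72_3 : chk (nat_lit 72300) (nat_lit 100) = true := by decide +kernel

theorem c72_4 : chk (nat_lit 72400) (nat_lit 100) = true := by decide +kernel

theorem c72_5 : chk (nat_lit 72500) (nat_lit 100) = true := by decide +kernel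

theorem c72_6 : chk (nat_lit 72600) (nat_lit 100) = true := by decide +kernel

theorem c72_7 : chk (nat_lit 72700) (nat_lit 100) = true := by decide +kernel

theorem c72_8 : chk (nat_lit 72800) (nat_lit 100) = true := by decide +kernel

theorem c72_9 : chk (nat_lit 72900) (nat_lit 100) = true := by decide +kernel


theorem all72 : ∀ i, 72000 ≤ i → i < 73000 → Good i := (good_chain (good_chain (good_chain (good_chain (good_chain (good_chain (good_chain (good_chain (good_chain (good_of_chk c72_0) (good_of_chk c72_1)) (good_of_chk c72_2)) (good_of_chk c72_3)) (good_of_chk c72_4)) (good_of_chk c72_5)) (good_of_chk c72_6)) (good_of_chk c72_7)) (good_of_chk c72_8)) (good_of_chk c72_9))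


end Vale.Agent.P045.R6
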