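import Vale.Agent.P045.R6.Rows

/-! Checks of the rows of a certificate. -/

namespace Vale.Agent.P045.R6

set_option maxRecDepth 100000

theorem c73_0 : chk (nat_lit 73000) (nat_lit 100) = true := by decide +kernel

theorem c73_1 : chk (nat_lit 73100) (nat_lit 100) = true := by decide +kernel

theorem c73_2 : chk (nat_lit 73200) (nat_lit 100) = true := by decide +kernel

theorem c73_3 : chk (nat_lit 73300) (nat_lit 100) = true := by decide +kernel

theorem c73_4 : chk (nat_lit 73400) (nat_lit 100) = true := by decide +kernel

theorem c73_5 : chk (nat_lit 73500) (nat_lit 100) = true := by decide +kernel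

theorem c73_6 : chk (nat_lit 73600) (nat_lit 100) = true := by decide +kernel

theorem c73_7 : chk (nat_lit 73700) (nat_lit 100) = true := by decide +kernel

theorem c73_8 : chk (nat_lit 73800) (nat_lit 100) = true := by decide +kernel

theorem c73_9 : chk (nat_lit 73900) (nat_lit 100) = true := by decide +kernel


theorem all73 : ∀ i, 73000 ≤ i → i < 74000 → Good i := (good_chain (good_chain (good_chain (good_chain (good_chain (good_chain (good_chain (good_chain (good_chain (good_of_chk c73_0) (good_of_chk c73_1)) (good_of_chk c73_2)) (good_of_chk c73_3)) (good_of_chk c73_4)) (good_of_chk c73_5)) (good_of_chk c73_6)) (good_of_chk c73_7)) (good_of_chk c73_8)) (good_of_chk c73_9))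


end Vale.Agent.P045.R6
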