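import Vale.Agent.P045.R6.Rows

/-! Checks of the rows of a certificate. -/

namespace Vale.Agent.P045.R6

set_option maxRecDepth 100000

theorem c74_0 : chk (nat_lit 74000) (nat_lit 100) = true := by decide +kernel

theorem c74_1 : chk (nat_lit 74100) (nat_lit 100) = true := by decide +kernel

theorem c74_2 : chk (nat_lit 74200) (nat_lit 100) = true := by decide +kernel

theorem c74_3 : chk (nat_lit 74300) (nat_lit 100) = true := by decide +kernel

theorem c74_4 : chk (nat_lit 74400) (nat_lit 100) = true := by decide +kernel

theorem c74_5 : chk (nat_lit 74500) (nat_lit 100) = true := by decide +kernel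

theorem c74_6 : chk (nat_lit 74600) (nat_lit 100) = true := by decide +kernel

theorem c74_7 : chk (nat_lit 74700) (nat_lit 100) = true := by decide +kernel

theorem c74_8 : chk (nat_lit 74800) (nat_lit 100) = true := by decide +kernel

theorem c74_9 : chk (nat_lit 74900) (nat_lit 100) = true := by decide +kernel


theorem all74 : ∀ i, 74000 ≤ i → i < 75000 → Good i := (good_chain (good_chain (good_chain (good_chain (good_chain (good_chain (good_chain (good_chain (good_chain (good_of_chk c74_0) (good_of_chk c74_1)) (good_of_chk c74_2)) (good_of_chk c74_3)) (good_of_chk c74_4)) (good_of_chk c74_5)) (good_of_chk c74_6)) (good_of_chk c74_7)) (good_of_chk c74_8)) (good_of_chk c74_9))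


end Vale.Agent.P045.R6
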