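import Vale.Agent.P045.R6.Rows

/-! Checks of the rows of a certificate. -/

namespace Vale.Agent.P045.R6

set_option maxRecDepth 100000

theorem c75_0 : chk (nat_lit 75000) (nat_lit 100) = true := by decide +kernel

theorem c75_1 : chk (nat_lit 75100) (nat_lit 100) = true := by decide +kernel

theorem c75_2 : chk (nat_lit 75200) (nat_lit 100) = true := by decide +kernel

theorem c75_3 : chk (nat_lit 75300) (nat_lit 100) = true := by decide +kernel

theorem c75_4 : chk (nat_lit 75400) (nat_lit 100) = true := by decide +kernel

theorem c75_5 : chk (nat_lit 75500) (nat_lit 100) = true := by decide +kernel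

theorem c75_6 : chk (nat_lit 75600) (nat_lit 100) = true := by decide +kernel

theorem c75_7 : chk (nat_lit 75700) (nat_lit 100) = true := by decide +kernel

theorem c75_8 : chk (nat_lit 75800) (nat_lit 100) = true := by decide +kernel

theorem c75_9 : chk (nat_lit 75900) (nat_lit 100) = true := by decide +kernel


theorem all75 : ∀ i, 75000 ≤ i → i < 76000 → Good i := (good_chain (good_chain (good_chain (good_chain (good_chain (good_chain (good_chain (good_chain (good_chain (good_of_chk c75_0) (good_of_chk c75_1)) (good_of_chk c75_2)) (good_of_chk c75_3)) (good_of_chk c75_4)) (good_of_chk c75_5)) (good_of_chk c75_6)) (good_of_chk c75_7)) (good_of_chk c75_8)) (good_of_chk c75_9))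


end Vale.Agent.P045.R6
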