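import Vale.Agent.P045.R6.Rows

/-! Checks of the rows of a certificate. -/

namespace Vale.Agent.P045.R6

set_option maxRecDepth 100000

theorem c76_0 : chk (nat_lit 76000) (nat_lit 100) = true := by decide +kernel

theorem c76_1 : chk (nat_lit 76100) (nat_lit 100) = true := by decide +kernel

theorem c76_2 : chk (nat_lit 76200) (nat_lit 100) = true := by decide +kernel

theorem c76_3 : chk (nat_lit 76300) (nat_lit 100) = true := by decide +kernel

theorem c76_4 : chk (nat_lit 76400) (nat_lit 100) = true := by decide +kernel

theorem c76_5 : chk (nat_lit 76500) (nat_lit 100) = true := by decide +kernel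

theorem c76_6 : chk (nat_lit 76600) (nat_lit 100) = true := by decide +kernel

theorem c76_7 : chk (nat_lit 76700) (nat_lit 100) = true := by decide +kernel

theorem c76_8 : chk (nat_lit 76800) (nat_lit 100) = true := by decide +kernel

theorem c76_9 : chk (nat_lit 76900) (nat_lit 100) = true := by decide +kernel


theorem all76 : ∀ i, 76000 ≤ i → i < 77000 → Good i := (good_chain (good_chain (good_chain (good_chain (good_chain (good_chain (good_chain (good_chain (good_chain (good_of_chk c76_0) (good_of_chk c76_1)) (good_of_chk c76_2)) (good_of_chk c76_3)) (good_of_chk c76_4)) (good_of_chk c76_5)) (good_of_chk c76_6)) (good_of_chk c76_7)) (good_of_chk c76_8)) (good_of_chk c76_9))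


end Vale.Agent.P045.R6
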