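import Vale.Agent.P045.R6.Rows

/-! Checks of the rows of a certificate. -/

namespace Vale.Agent.P045.R6

set_option maxRecDepth 100000

theorem c77_0 : chk (nat_lit 77000) (nat_lit 100) = true := by decide +kernel

theorem c77_1 : chk (nat_lit 77100) (nat_lit 100) = true := by decide +kernel

theorem c77_2 : chk (nat_lit 77200) (nat_lit 100) = true := by decide +kernel

theorem c77_3 : chk (nat_lit 77300) (nat_lit 100) = true := by decide +kernel

theorem c77_4 : chk (nat_lit 77400) (nat_lit 100) = true := by decide +kernel

theorem c77_5 : chk (nat_lit 77500) (nat_lit 100) = true := by decide +kernel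

theorem c77_6 : chk (nat_lit 77600) (nat_lit 100) = true := by decide +kernel

theorem c77_7 : chk (nat_lit 77700) (nat_lit 100) = true := by decide +kernel

theorem c77_8 : chk (nat_lit 77800) (nat_lit 100) = true := by decide +kernel

theorem c77_9 : chk (nat_lit 77900) (nat_lit 100) = true := by decide +kernel


theorem all77 : ∀ i, 77000 ≤ i → i < 78000 → Good i := (good_chain (good_chain (good_chain (good_chain (good_chain (good_chain (good_chain (good_chain (good_chain (good_of_chk c77_0) (good_of_chk c77_1)) (good_of_chk c77_2)) (good_of_chk c77_3)) (good_of_chk c77_4)) (good_of_chk c77_5)) (good_of_chk c77_6)) (good_of_chk c77_7)) (good_of_chk c77_8)) (good_of_chk c77_9))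


end Vale.Agent.P045.R6
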