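import Vale.Agent.P045.R6.Rows

/-! Checks of the rows of a certificate. -/

namespace Vale.Agent.P045.R6

set_option maxRecDepth 100000

theorem c78_0 : chk (nat_lit 78000) (nat_lit 100) = true := by decide +kernel

theorem c78_1 : chk (nat_lit 78100) (nat_lit 100) = true := by decide +kernel

theorem c78_2 : chk (nat_lit 78200) (nat_lit 100) = true := by decide +kernel

theorem c78_3 : chk (nat_lit 78300) (nat_lit 100) = true := by decide +kernel

theorem c78_4 : chk (nat_lit 78400) (nat_lit 100) = true := by decide +kernel

theorem c78_5 : chk (nat_lit 78500) (nat_lit 100) = true := by decide +kernel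

theorem c78_6 : chk (nat_lit 78600) (nat_lit 100) = true := by decide +kernel

theorem c78_7 : chk (nat_lit 78700) (nat_lit 100) = true := by decide +kernel

theorem c78_8 : chk (nat_lit 78800) (nat_lit 100) = true := by decide +kernel

theorem c78_9 : chk (nat_lit 78900) (nat_lit 100) = true := by decide +kernel


theorem all78 : ∀ i, 78000 ≤ i → i < 79000 → Good i := (good_chain (good_chain (good_chain (good_chain (good_chain (good_chain (good_chain (good_chain (good_chain (good_of_chk c78_0) (good_of_chk c78_1)) (good_of_chk c78_2)) (good_of_chk c78_3)) (good_of_chk c78_4)) (good_of_chk c78_5)) (good_of_chk c78_6)) (good_of_chk c78_7)) (good_of_chk c78_8)) (good_of_chk c78_9))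


end Vale.Agent.P045.R6
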