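import Vale.Agent.P045.R6.Rows

/-! Checks of the rows of a certificate. -/

namespace Vale.Agent.P045.R6

set_option maxRecDepth 100000

theorem c79_0 : chk (nat_lit 79000) (nat_lit 100) = true := by decide +kernel

theorem c79_1 : chk (nat_lit 79100) (nat_lit 100) = true := by decide +kernel

theorem c79_2 : chk (nat_lit 79200) (nat_lit 100) = true := by decide +kernel

theorem c79_3 : chk (nat_lit 79300) (nat_lit 100) = true := by decide +kernel

theorem c79_4 : chk (nat_lit 79400) (nat_lit 100) = true := by decide +kernel

theorem c79_5 : chk (nat_lit 79500) (nat_lit 100) = true := by decide +kernel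

theorem c79_6 : chk (nat_lit 79600) (nat_lit 100) = true := by decide +kernel

theorem c79_7 : chk (nat_lit 79700) (nat_lit 100) = true := by decide +kernel

theorem c79_8 : chk (nat_lit 79800) (nat_lit 100) = true := by decide +kernel

theorem c79_9 : chk (nat_lit 79900) (nat_lit 100) = true := by decide +kernel


theorem all79 : ∀ i, 79000 ≤ i → i < 80000 → Good i := (good_chain (good_chain (good_chain (good_chain (good_chain (good_chain (good_chain (good_chain (good_chain (good_of_chk c79_0) (good_of_chk c79_1)) (good_of_chk c79_2)) (good_of_chk c79_3)) (good_of_chk c79_4)) (good_of_chk c79_5)) (good_of_chk c79_6)) (good_of_chk c79_7)) (good_of_chk c79_8)) (good_of_chk c79_9))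


end Vale.Agent.P045.R6
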