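import Vale.Agent.P045.R6.Rows

/-! Checks of the rows of a certificate. -/

namespace Vale.Agent.P045.R6

set_option maxRecDepth 100000

theorem c8_0 : chk (nat_lit 8000) (nat_lit 100) = true := by decide +kernel

theorem c8_1 : chk (nat_lit 8100) (nat_lit 100) = true := by decide +kernel

theorem c8_2 : chk (nat_lit 8200) (nat_lit 100) = true := by decide +kernel

theorem c8_3 : chk (nat_lit 8300) (nat_lit 100) = true := by decide +kernel

theorem c8_4 : chk (nat_lit 8400) (nat_lit 100) = true := by decide +kernel

theorem c8_5 : chk (nat_lit 8500) (nat_lit 100) = true := by decide +kernel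

theorem c8_6 : chk (nat_lit 8600) (nat_lit 100) = true := by decide +kernel

theorem c8_7 : chk (nat_lit 8700) (nat_lit 100) = true := by decide +kernel

theorem c8_8 : chk (nat_lit 8800) (nat_lit 100) = true := by decide +kernel

theorem c8_9 : chk (nat_lit 8900) (nat_lit 100) = true := by decide +kernel


theorem all8 : ∀ i, 8000 ≤ i → i < 9000 → Good i := (good_chain (good_chain (good_chain (good_chain (good_chain (good_chain (good_chain (good_chain (good_chain (good_of_chk c8_0) (good_of_chk c8_1)) (good_of_chk c8_2)) (good_of_chk c8_3)) (good_of_chk c8_4)) (good_of_chk c8_5)) (good_of_chk c8_6)) (good_of_chk c8_7)) (good_of_chk c8_8)) (good_of_chk c8_9))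


end Vale.Agent.P045.R6
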