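import Vale.Agent.P045.R6.Rows

/-! Checks of the rows of a certificate. -/

namespace Vale.Agent.P045.R6

set_option maxRecDepth 100000

theorem c80_0 : chk (nat_lit 80000) (nat_lit 100) = true := by decide +kernel

theorem c80_1 : chk (nat_lit 80100) (nat_lit 100) = true := by decide +kernel

theorem c80_2 : chk (nat_lit 80200) (nat_lit 100) = true := by decide +kernel

theorem c80_3 : chk (nat_lit 80300) (nat_lit 100) = true := by decide +kernel

theorem c80_4 : chk (nat_lit 80400) (nat_lit 100) = true := by decide +kernel

theorem c80_5 : chk (nat_lit 80500) (nat_lit 100) = true := by decide +kernel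

theorem c80_6 : chk (nat_lit 80600) (nat_lit 100) = true := by decide +kernel

theorem c80_7 : chk (nat_lit 80700) (nat_lit 100) = true := by decide +kernel

theorem c80_8 : chk (nat_lit 80800) (nat_lit 100) = true := by decide +kernel

theorem c80_9 : chk (nat_lit 80900) (nat_lit 100) = true := by decide +kernel


theorem all80 : ∀ i, 80000 ≤ i → i < 81000 → Good i := (good_chain (good_chain (good_chain (good_chain (good_chain (good_chain (good_chain (good_chain (good_chain (good_of_chk c80_0) (good_of_chk c80_1)) (good_of_chk c80_2)) (good_of_chk c80_3)) (good_of_chk c80_4)) (good_of_chk c80_5)) (good_of_chk c80_6)) (good_of_chk c80_7)) (good_of_chk c80_8)) (good_of_chk c80_9))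


end Vale.Agent.P045.R6
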