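import Vale.Agent.P045.R6.Rows

/-! Checks of the rows of a certificate. -/

namespace Vale.Agent.P045.R6

set_option maxRecDepth 100000

theorem c81_0 : chk (nat_lit 81000) (nat_lit 100) = true := by decide +kernel

theorem c81_1 : chk (nat_lit 81100) (nat_lit 100) = true := by decide +kernel

theorem c81_2 : chk (nat_lit 81200) (nat_lit 100) = true := by decide +kernel

theorem c81_3 : chk (nat_lit 81300) (nat_lit 100) = true := by decide +kernel

theorem c81_4 : chk (nat_lit 81400) (nat_lit 100) = true := by decide +kernel

theorem c81_5 : chk (nat_lit 81500) (nat_lit 100) = true := by decide +kernel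

theorem c81_6 : chk (nat_lit 81600) (nat_lit 100) = true := by decide +kernel

theorem c81_7 : chk (nat_lit 81700) (nat_lit 100) = true := by decide +kernel

theorem c81_8 : chk (nat_lit 81800) (nat_lit 100) = true := by decide +kernel

theorem c81_9 : chk (nat_lit 81900) (nat_lit 100) = true := by decide +kernel


theorem all81 : ∀ i, 81000 ≤ i → i < 82000 → Good i := (good_chain (good_chain (good_chain (good_chain (good_chain (good_chain (good_chain (good_chain (good_chain (good_of_chk c81_0) (good_of_chk c81_1)) (good_of_chk c81_2)) (good_of_chk c81_3)) (good_of_chk c81_4)) (good_of_chk c81_5)) (good_of_chk c81_6)) (good_of_chk c81_7)) (good_of_chk c81_8)) (good_of_chk c81_9))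


end Vale.Agent.P045.R6
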