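import Vale.Agent.P045.R6.Rows

/-! Checks of the rows of a certificate. -/

namespace Vale.Agent.P045.R6

set_option maxRecDepth 100000

theorem c82_0 : chk (nat_lit 82000) (nat_lit 100) = true := by decide +kernel

theorem c82_1 : chk (nat_lit 82100) (nat_lit 100) = true := by decide +kernel

theorem c82_2 : chk (nat_lit 82200) (nat_lit 100) = true := by decide +kernel

theorem c82_3 : chk (nat_lit 82300) (nat_lit 100) = true := by decide +kernel

theorem c82_4 : chk (nat_lit 82400) (nat_lit 100) = true := by decide +kernel

theorem c82_5 : chk (nat_lit 82500) (nat_lit 100) = true := by decide +kernel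

theorem c82_6 : chk (nat_lit 82600) (nat_lit 100) = true := by decide +kernel

theorem c82_7 : chk (nat_lit 82700) (nat_lit 100) = true := by decide +kernel

theorem c82_8 : chk (nat_lit 82800) (nat_lit 100) = true := by decide +kernel

theorem c82_9 : chk (nat_lit 82900) (nat_lit 100) = true := by decide +kernel


theorem all82 : ∀ i, 82000 ≤ i → i < 83000 → Good i := (good_chain (good_chain (good_chain (good_chain (good_chain (good_chain (good_chain (good_chain (good_chain (good_of_chk c82_0) (good_of_chk c82_1)) (good_of_chk c82_2)) (good_of_chk c82_3)) (good_of_chk c82_4)) (good_of_chk c82_5)) (good_of_chk c82_6)) (good_of_chk c82_7)) (good_of_chk c82_8)) (good_of_chk c82_9))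


end Vale.Agent.P045.R6
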