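import Vale.Agent.P045.R6.Rows

/-! Checks of the rows of a certificate. -/

namespace Vale.Agent.P045.R6

set_option maxRecDepth 100000

theorem c83_0 : chk (nat_lit 83000) (nat_lit 100) = true := by decide +kernel

theorem c83_1 : chk (nat_lit 83100) (nat_lit 100) = true := by decide +kernel

theorem c83_2 : chk (nat_lit 83200) (nat_lit 100) = true := by decide +kernel

theorem c83_3 : chk (nat_lit 83300) (nat_lit 100) = true := by decide +kernel

theorem c83_4 : chk (nat_lit 83400) (nat_lit 100) = true := by decide +kernel

theorem c83_5 : chk (nat_lit 83500) (nat_lit 100) = true := by decide +kernel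

theorem c83_6 : chk (nat_lit 83600) (nat_lit 100) = true := by decide +kernel

theorem c83_7 : chk (nat_lit 83700) (nat_lit 100) = true := by decide +kernel

theorem c83_8 : chk (nat_lit 83800) (nat_lit 100) = true := by decide +kernel

theorem c83_9 : chk (nat_lit 83900) (nat_lit 100) = true := by decide +kernel


theorem all83 : ∀ i, 83000 ≤ i → i < 84000 → Good i := (good_chain (good_chain (good_chain (good_chain (good_chain (good_chain (good_chain (good_chain (good_chain (good_of_chk c83_0) (good_of_chk c83_1)) (good_of_chk c83_2)) (good_of_chk c83_3)) (good_of_chk c83_4)) (good_of_chk c83_5)) (good_of_chk c83_6)) (good_of_chk c83_7)) (good_of_chk c83_8)) (good_of_chk c83_9))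


end Vale.Agent.P045.R6
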