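import Vale.Agent.P045.R6.Rows

/-! Checks of the rows of a certificate. -/

namespace Vale.Agent.P045.R6

set_option maxRecDepth 100000

theorem c84_0 : chk (nat_lit 84000) (nat_lit 100) = true := by decide +kernel

theorem c84_1 : chk (nat_lit 84100) (nat_lit 100) = true := by decide +kernel

theorem c84_2 : chk (nat_lit 84200) (nat_lit 100) = true := by decide +kernel

theorem c84_3 : chk (nat_lit 84300) (nat_lit 100) = true := by decide +kernel

theorem c84_4 : chk (nat_lit 84400) (nat_lit 100) = true := by decide +kernel

theorem c84_5 : chk (nat_lit 84500) (nat_lit 100) = true := by decide +kernel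

theorem c84_6 : chk (nat_lit 84600) (nat_lit 100) = true := by decide +kernel

theorem c84_7 : chk (nat_lit 84700) (nat_lit 100) = true := by decide +kernel

theorem c84_8 : chk (nat_lit 84800) (nat_lit 100) = true := by decide +kernel

theorem c84_9 : chk (nat_lit 84900) (nat_lit 100) = true := by decide +kernel


theorem all84 : ∀ i, 84000 ≤ i → i < 85000 → Good i := (good_chain (good_chain (good_chain (good_chain (good_chain (good_chain (good_chain (good_chain (good_chain (good_of_chk c84_0) (good_of_chk c84_1)) (good_of_chk c84_2)) (good_of_chk c84_3)) (good_of_chk c84_4)) (good_of_chk c84_5)) (good_of_chk c84_6)) (good_of_chk c84_7)) (good_of_chk c84_8)) (good_of_chk c84_9))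


end Vale.Agent.P045.R6
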