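import Vale.Agent.P045.R6.Rows

/-! Checks of the rows of a certificate. -/

namespace Vale.Agent.P045.R6

set_option maxRecDepth 100000

theorem c85_0 : chk (nat_lit 85000) (nat_lit 100) = true := by decide +kernel

theorem c85_1 : chk (nat_lit 85100) (nat_lit 100) = true := by decide +kernel

theorem c85_2 : chk (nat_lit 85200) (nat_lit 100) = true := by decide +kernel

theorem c85_3 : chk (nat_lit 85300) (nat_lit 100) = true := by decide +kernel

theorem c85_4 : chk (nat_lit 85400) (nat_lit 100) = true := by decide +kernel

theorem c85_5 : chk (nat_lit 85500) (nat_lit 100) = true := by decide +kernel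

theorem c85_6 : chk (nat_lit 85600) (nat_lit 100) = true := by decide +kernel

theorem c85_7 : chk (nat_lit 85700) (nat_lit 100) = true := by decide +kernel

theorem c85_8 : chk (nat_lit 85800) (nat_lit 100) = true := by decide +kernel

theorem c85_9 : chk (nat_lit 85900) (nat_lit 100) = true := by decide +kernel


theorem all85 : ∀ i, 85000 ≤ i → i < 86000 → Good i := (good_chain (good_chain (good_chain (good_chain (good_chain (good_chain (good_chain (good_chain (good_chain (good_of_chk c85_0) (good_of_chk c85_1)) (good_of_chk c85_2)) (good_of_chk c85_3)) (good_of_chk c85_4)) (good_of_chk c85_5)) (good_of_chk c85_6)) (good_of_chk c85_7)) (good_of_chk c85_8)) (good_of_chk c85_9))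


end Vale.Agent.P045.R6
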