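import Vale.Agent.P045.R6.Rows

/-! Checks of the rows of a certificate. -/

namespace Vale.Agent.P045.R6

set_option maxRecDepth 100000

theorem c86_0 : chk (nat_lit 86000) (nat_lit 100) = true := by decide +kernel

theorem c86_1 : chk (nat_lit 86100) (nat_lit 100) = true := by decide +kernel

theorem c86_2 : chk (nat_lit 86200) (nat_lit 100) = true := by decide +kernel

theorem c86_3 : chk (nat_lit 86300) (nat_lit 100) = true := by decide +kernel

theorem c86_4 : chk (nat_lit 86400) (nat_lit 100) = true := by decide +kernel

theorem c86_5 : chk (nat_lit 86500) (nat_lit 100) = true := by decide +kernel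

theorem c86_6 : chk (nat_lit 86600) (nat_lit 100) = true := by decide +kernel

theorem c86_7 : chk (nat_lit 86700) (nat_lit 100) = true := by decide +kernel

theorem c86_8 : chk (nat_lit 86800) (nat_lit 100) = true := by decide +kernel

theorem c86_9 : chk (nat_lit 86900) (nat_lit 100) = true := by decide +kernel


theorem all86 : ∀ i, 86000 ≤ i → i < 87000 → Good i := (good_chain (good_chain (good_chain (good_chain (good_chain (good_chain (good_chain (good_chain (good_chain (good_of_chk c86_0) (good_of_chk c86_1)) (good_of_chk c86_2)) (good_of_chk c86_3)) (good_of_chk c86_4)) (good_of_chk c86_5)) (good_of_chk c86_6)) (good_of_chk c86_7)) (good_of_chk c86_8)) (good_of_chk c86_9))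


end Vale.Agent.P045.R6
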