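import Vale.Agent.P045.R6.Rows

/-! Checks of the rows of a certificate. -/

namespace Vale.Agent.P045.R6

set_option maxRecDepth 100000

theorem c87_0 : chk (nat_lit 87000) (nat_lit 100) = true := by decide +kernel

theorem c87_1 : chk (nat_lit 87100) (nat_lit 100) = true := by decide +kernel

theorem c87_2 : chk (nat_lit 87200) (nat_lit 100) = true := by decide +kernel

theorem c87_3 : chk (nat_lit 87300) (nat_lit 100) = true := by decide +kernel

theorem c87_4 : chk (nat_lit 87400) (nat_lit 100) = true := by decide +kernel

theorem c87_5 : chk (nat_lit 87500) (nat_lit 100) = true := by decide +kernel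

theorem c87_6 : chk (nat_lit 87600) (nat_lit 100) = true := by decide +kernel

theorem c87_7 : chk (nat_lit 87700) (nat_lit 100) = true := by decide +kernel

theorem c87_8 : chk (nat_lit 87800) (nat_lit 100) = true := by decide +kernel

theorem c87_9 : chk (nat_lit 87900) (nat_lit 100) = true := by decide +kernel


theorem all87 : ∀ i, 87000 ≤ i → i < 88000 → Good i := (good_chain (good_chain (good_chain (good_chain (good_chain (good_chain (good_chain (good_chain (good_chain (good_of_chk c87_0) (good_of_chk c87_1)) (good_of_chk c87_2)) (good_of_chk c87_3)) (good_of_chk c87_4)) (good_of_chk c87_5)) (good_of_chk c87_6)) (good_of_chk c87_7)) (good_of_chk c87_8)) (good_of_chk c87_9))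


end Vale.Agent.P045.R6
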