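import Vale.Agent.P045.R6.Rows

/-! Checks of the rows of a certificate. -/

namespace Vale.Agent.P045.R6

set_option maxRecDepth 100000

theorem c88_0 : chk (nat_lit 88000) (nat_lit 100) = true := by decide +kernel

theorem c88_1 : chk (nat_lit 88100) (nat_lit 100) = true := by decide +kernel

theorem c88_2 : chk (nat_lit 88200) (nat_lit 100) = true := by decide +kernel

theorem c88_3 : chk (nat_lit 88300) (nat_lit 100) = true := by decide +kernel

theorem c88_4 : chk (nat_lit 88400) (nat_lit 100) = true := by decide +kernel

theorem c88_5 : chk (nat_lit 88500) (nat_lit 100) = true := by decide +kernel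

theorem c88_6 : chk (nat_lit 88600) (nat_lit 100) = true := by decide +kernel

theorem c88_7 : chk (nat_lit 88700) (nat_lit 100) = true := by decide +kernel

theorem c88_8 : chk (nat_lit 88800) (nat_lit 100) = true := by decide +kernel

theorem c88_9 : chk (nat_lit 88900) (nat_lit 100) = true := by decide +kernel


theorem all88 : ∀ i, 88000 ≤ i → i < 89000 → Good i := (good_chain (good_chain (good_chain (good_chain (good_chain (good_chain (good_chain (good_chain (good_chain (good_of_chk c88_0) (good_of_chk c88_1)) (good_of_chk c88_2)) (good_of_chk c88_3)) (good_of_chk c88_4)) (good_of_chk c88_5)) (good_of_chk c88_6)) (good_of_chk c88_7)) (good_of_chk c88_8)) (good_of_chk c88_9))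


end Vale.Agent.P045.R6
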