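import Vale.Agent.P045.R6.Rows

/-! Checks of the rows of a certificate. -/

namespace Vale.Agent.P045.R6

set_option maxRecDepth 100000

theorem c89_0 : chk (nat_lit 89000) (nat_lit 100) = true := by decide +kernel

theorem c89_1 : chk (nat_lit 89100) (nat_lit 100) = true := by decide +kernel

theorem c89_2 : chk (nat_lit 89200) (nat_lit 100) = true := by decide +kernel

theorem c89_3 : chk (nat_lit 89300) (nat_lit 100) = true := by decide +kernel

theorem c89_4 : chk (nat_lit 89400) (nat_lit 100) = true := by decide +kernel

theorem c89_5 : chk (nat_lit 89500) (nat_lit 100) = true := by decide +kernel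

theorem c89_6 : chk (nat_lit 89600) (nat_lit 100) = true := by decide +kernel

theorem c89_7 : chk (nat_lit 89700) (nat_lit 100) = true := by decide +kernel

theorem c89_8 : chk (nat_lit 89800) (nat_lit 100) = true := by decide +kernel

theorem c89_9 : chk (nat_lit 89900) (nat_lit 100) = true := by decide +kernel


theorem all89 : ∀ i, 89000 ≤ i → i < 90000 → Good i := (good_chain (good_chain (good_chain (good_chain (good_chain (good_chain (good_chain (good_chain (good_chain (good_of_chk c89_0) (good_of_chk c89_1)) (good_of_chk c89_2)) (good_of_chk c89_3)) (good_of_chk c89_4)) (good_of_chk c89_5)) (good_of_chk c89_6)) (good_of_chk c89_7)) (good_of_chk c89_8)) (good_of_chk c89_9))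


end Vale.Agent.P045.R6
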