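import Vale.Agent.P045.R6.Rows

/-! Checks of the rows of a certificate. -/

namespace Vale.Agent.P045.R6

set_option maxRecDepth 100000

theorem c9_0 : chk (nat_lit 9000) (nat_lit 100) = true := by decide +kernel

theorem c9_1 : chk (nat_lit 9100) (nat_lit 100) = true := by decide +kernel

theorem c9_2 : chk (nat_lit 9200) (nat_lit 100) = true := by decide +kernel

theorem c9_3 : chk (nat_lit 9300) (nat_lit 100) = true := by decide +kernel

theorem c9_4 : chk (nat_lit 9400) (nat_lit 100) = true := by decide +kernel

theorem c9_5 : chk (nat_lit 9500) (nat_lit 100) = true := by decide +kernel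

theorem c9_6 : chk (nat_lit 9600) (nat_lit 100) = true := by decide +kernel

theorem c9_7 : chk (nat_lit 9700) (nat_lit 100) = true := by decide +kernel

theorem c9_8 : chk (nat_lit 9800) (nat_lit 100) = true := by decide +kernel

theorem c9_9 : chk (nat_lit 9900) (nat_lit 100) = true := by decide +kernel


theorem all9 : ∀ i, 9000 ≤ i → i < 10000 → Good i := (good_chain (good_chain (good_chain (good_chain (good_chain (good_chain (good_chain (good_chain (good_chain (good_of_chk c9_0) (good_of_chk c9_1)) (good_of_chk c9_2)) (good_of_chk c9_3)) (good_of_chk c9_4)) (good_of_chk c9_5)) (good_of_chk c9_6)) (good_of_chk c9_7)) (good_of_chk c9_8)) (good_of_chk c9_9))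


end Vale.Agent.P045.R6
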