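import Vale.Agent.P045.R6.Rows

/-! Checks of the rows of a certificate. -/

namespace Vale.Agent.P045.R6

set_option maxRecDepth 100000

theorem c90_0 : chk (nat_lit 90000) (nat_lit 100) = true := by decide +kernel

theorem c90_1 : chk (nat_lit 90100) (nat_lit 100) = true := by decide +kernel

theorem c90_2 : chk (nat_lit 90200) (nat_lit 100) = true := by decide +kernel

theorem c90_3 : chk (nat_lit 90300) (nat_lit 100) = true := by decide +kernel

theorem c90_4 : chk (nat_lit 90400) (nat_lit 100) = true := by decide +kernel

theorem c90_5 : chk (nat_lit 90500) (nat_lit 100) = true := by decide +kernel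

theorem c90_6 : chk (nat_lit 90600) (nat_lit 100) = true := by decide +kernel

theorem c90_7 : chk (nat_lit 90700) (nat_lit 100) = true := by decide +kernel

theorem c90_8 : chk (nat_lit 90800) (nat_lit 100) = true := by decide +kernel

theorem c90_9 : chk (nat_lit 90900) (nat_lit 100) = true := by decide +kernel


theorem all90 : ∀ i, 90000 ≤ i → i < 91000 → Good i := (good_chain (good_chain (good_chain (good_chain (good_chain (good_chain (good_chain (good_chain (good_chain (good_of_chk c90_0) (good_of_chk c90_1)) (good_of_chk c90_2)) (good_of_chk c90_3)) (good_of_chk c90_4)) (good_of_chk c90_5)) (good_of_chk c90_6)) (good_of_chk c90_7)) (good_of_chk c90_8)) (good_of_chk c90_9))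


end Vale.Agent.P045.R6
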