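import Vale.Agent.P045.R6.Rows

/-! Checks of the rows of a certificate. -/

namespace Vale.Agent.P045.R6

set_option maxRecDepth 100000

theorem c91_0 : chk (nat_lit 91000) (nat_lit 100) = true := by decide +kernel

theorem c91_1 : chk (nat_lit 91100) (nat_lit 100) = true := by decide +kernel

theorem c91_2 : chk (nat_lit 91200) (nat_lit 100) = true := by decide +kernel

theorem c91_3 : chk (nat_lit 91300) (nat_lit 100) = true := by decide +kernel

theorem c91_4 : chk (nat_lit 91400) (nat_lit 100) = true := by decide +kernel

theorem c91_5 : chk (nat_lit 91500) (nat_lit 100) = true := by decide +kernel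

theorem c91_6 : chk (nat_lit 91600) (nat_lit 100) = true := by decide +kernel

theorem c91_7 : chk (nat_lit 91700) (nat_lit 100) = true := by decide +kernel

theorem c91_8 : chk (nat_lit 91800) (nat_lit 100) = true := by decide +kernel

theorem c91_9 : chk (nat_lit 91900) (nat_lit 100) = true := by decide +kernel


theorem all91 : ∀ i, 91000 ≤ i → i < 92000 → Good i := (good_chain (good_chain (good_chain (good_chain (good_chain (good_chain (good_chain (good_chain (good_chain (good_of_chk c91_0) (good_of_chk c91_1)) (good_of_chk c91_2)) (good_of_chk c91_3)) (good_of_chk c91_4)) (good_of_chk c91_5)) (good_of_chk c91_6)) (good_of_chk c91_7)) (good_of_chk c91_8)) (good_of_chk c91_9))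


end Vale.Agent.P045.R6
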