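import Vale.Agent.P045.R6.Rows

/-! Checks of the rows of a certificate. -/

namespace Vale.Agent.P045.R6

set_option maxRecDepth 100000

theorem c92_0 : chk (nat_lit 92000) (nat_lit 100) = true := by decide +kernel

theorem c92_1 : chk (nat_lit 92100) (nat_lit 100) = true := by decide +kernel

theorem c92_2 : chk (nat_lit 92200) (nat_lit 100) = true := by decide +kernel

theorem c92_3 : chk (nat_lit 92300) (nat_lit 100) = true := by decide +kernel

theorem c92_4 : chk (nat_lit 92400) (nat_lit 100) = true := by decide +kernel

theorem c92_5 : chk (nat_lit 92500) (nat_lit 100) = true := by decide +kernel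

theorem c92_6 : chk (nat_lit 92600) (nat_lit 100) = true := by decide +kernel

theorem c92_7 : chk (nat_lit 92700) (nat_lit 100) = true := by decide +kernel

theorem c92_8 : chk (nat_lit 92800) (nat_lit 100) = true := by decide +kernel

theorem c92_9 : chk (nat_lit 92900) (nat_lit 100) = true := by decide +kernel


theorem all92 : ∀ i, 92000 ≤ i → i < 93000 → Good i := (good_chain (good_chain (good_chain (good_chain (good_chain (good_chain (good_chain (good_chain (good_chain (good_of_chk c92_0) (good_of_chk c92_1)) (good_of_chk c92_2)) (good_of_chk c92_3)) (good_of_chk c92_4)) (good_of_chk c92_5)) (good_of_chk c92_6)) (good_of_chk c92_7)) (good_of_chk c92_8)) (good_of_chk c92_9))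


end Vale.Agent.P045.R6
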