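import Vale.Agent.P045.R6.Rows

/-! Checks of the rows of a certificate. -/

namespace Vale.Agent.P045.R6

set_option maxRecDepth 100000

theorem c93_0 : chk (nat_lit 93000) (nat_lit 100) = true := by decide +kernel

theorem c93_1 : chk (nat_lit 93100) (nat_lit 100) = true := by decide +kernel

theorem c93_2 : chk (nat_lit 93200) (nat_lit 100) = true := by decide +kernel

theorem c93_3 : chk (nat_lit 93300) (nat_lit 100) = true := by decide +kernel

theorem c93_4 : chk (nat_lit 93400) (nat_lit 100) = true := by decide +kernel

theorem c93_5 : chk (nat_lit 93500) (nat_lit 100) = true := by decide +kernel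

theorem c93_6 : chk (nat_lit 93600) (nat_lit 100) = true := by decide +kernel

theorem c93_7 : chk (nat_lit 93700) (nat_lit 100) = true := by decide +kernel

theorem c93_8 : chk (nat_lit 93800) (nat_lit 100) = true := by decide +kernel

theorem c93_9 : chk (nat_lit 93900) (nat_lit 100) = true := by decide +kernel


theorem all93 : ∀ i, 93000 ≤ i → i < 94000 → Good i := (good_chain (good_chain (good_chain (good_chain (good_chain (good_chain (good_chain (good_chain (good_chain (good_of_chk c93_0) (good_of_chk c93_1)) (good_of_chk c93_2)) (good_of_chk c93_3)) (good_of_chk c93_4)) (good_of_chk c93_5)) (good_of_chk c93_6)) (good_of_chk c93_7)) (good_of_chk c93_8)) (good_of_chk c93_9))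


end Vale.Agent.P045.R6
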