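import Vale.Agent.P045.R6.Rows

/-! Checks of the rows of a certificate. -/

namespace Vale.Agent.P045.R6

set_option maxRecDepth 100000

theorem c94_0 : chk (nat_lit 94000) (nat_lit 100) = true := by decide +kernel

theorem c94_1 : chk (nat_lit 94100) (nat_lit 100) = true := by decide +kernel

theorem c94_2 : chk (nat_lit 94200) (nat_lit 100) = true := by decide +kernel

theorem c94_3 : chk (nat_lit 94300) (nat_lit 100) = true := by decide +kernel

theorem c94_4 : chk (nat_lit 94400) (nat_lit 100) = true := by decide +kernel

theorem c94_5 : chk (nat_lit 94500) (nat_lit 100) = true := by decide +kernel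

theorem c94_6 : chk (nat_lit 94600) (nat_lit 100) = true := by decide +kernel

theorem c94_7 : chk (nat_lit 94700) (nat_lit 100) = true := by decide +kernel

theorem c94_8 : chk (nat_lit 94800) (nat_lit 100) = true := by decide +kernel

theorem c94_9 : chk (nat_lit 94900) (nat_lit 100) = true := by decide +kernel


theorem all94 : ∀ i, 94000 ≤ i → i < 95000 → Good i := (good_chain (good_chain (good_chain (good_chain (good_chain (good_chain (good_chain (good_chain (good_chain (good_of_chk c94_0) (good_of_chk c94_1)) (good_of_chk c94_2)) (good_of_chk c94_3)) (good_of_chk c94_4)) (good_of_chk c94_5)) (good_of_chk c94_6)) (good_of_chk c94_7)) (good_of_chk c94_8)) (good_of_chk c94_9))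


end Vale.Agent.P045.R6
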