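import Vale.Agent.P045.R6.Rows

/-! Checks of the rows of a certificate. -/

namespace Vale.Agent.P045.R6

set_option maxRecDepth 100000

theorem c95_0 : chk (nat_lit 95000) (nat_lit 100) = true := by decide +kernel

theorem c95_1 : chk (nat_lit 95100) (nat_lit 100) = true := by decide +kernel

theorem c95_2 : chk (nat_lit 95200) (nat_lit 100) = true := by decide +kernel

theorem c95_3 : chk (nat_lit 95300) (nat_lit 100) = true := by decide +kernel

theorem c95_4 : chk (nat_lit 95400) (nat_lit 100) = true := by decide +kernel

theorem c95_5 : chk (nat_lit 95500) (nat_lit 100) = true := by decide +kernel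

theorem c95_6 : chk (nat_lit 95600) (nat_lit 100) = true := by decide +kernel

theorem c95_7 : chk (nat_lit 95700) (nat_lit 100) = true := by decide +kernel

theorem c95_8 : chk (nat_lit 95800) (nat_lit 100) = true := by decide +kernel

theorem c95_9 : chk (nat_lit 95900) (nat_lit 100) = true := by decide +kernel


theorem all95 : ∀ i, 95000 ≤ i → i < 96000 → Good i := (good_chain (good_chain (good_chain (good_chain (good_chain (good_chain (good_chain (good_chain (good_chain (good_of_chk c95_0) (good_of_chk c95_1)) (good_of_chk c95_2)) (good_of_chk c95_3)) (good_of_chk c95_4)) (good_of_chk c95_5)) (good_of_chk c95_6)) (good_of_chk c95_7)) (good_of_chk c95_8)) (good_of_chk c95_9))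


end Vale.Agent.P045.R6
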