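import Vale.Agent.P045.R6.Rows

/-! Checks of the rows of a certificate. -/

namespace Vale.Agent.P045.R6

set_option maxRecDepth 100000

theorem c96_0 : chk (nat_lit 96000) (nat_lit 100) = true := by decide +kernel

theorem c96_1 : chk (nat_lit 96100) (nat_lit 100) = true := by decide +kernel

theorem c96_2 : chk (nat_lit 96200) (nat_lit 100) = true := by decide +kernel

theorem c96_3 : chk (nat_lit 96300) (nat_lit 100) = true := by decide +kernel

theorem c96_4 : chk (nat_lit 96400) (nat_lit 100) = true := by decide +kernel

theorem c96_5 : chk (nat_lit 96500) (nat_lit 100) = true := by decide +kernel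

theorem c96_6 : chk (nat_lit 96600) (nat_lit 100) = true := by decide +kernel

theorem c96_7 : chk (nat_lit 96700) (nat_lit 100) = true := by decide +kernel

theorem c96_8 : chk (nat_lit 96800) (nat_lit 100) = true := by decide +kernel

theorem c96_9 : chk (nat_lit 96900) (nat_lit 100) = true := by decide +kernel


theorem all96 : ∀ i, 96000 ≤ i → i < 97000 → Good i := (good_chain (good_chain (good_chain (good_chain (good_chain (good_chain (good_chain (good_chain (good_chain (good_of_chk c96_0) (good_of_chk c96_1)) (good_of_chk c96_2)) (good_of_chk c96_3)) (good_of_chk c96_4)) (good_of_chk c96_5)) (good_of_chk c96_6)) (good_of_chk c96_7)) (good_of_chk c96_8)) (good_of_chk c96_9))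


end Vale.Agent.P045.R6
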