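import Vale.Agent.P045.R6.Rows

/-! Checks of the rows of a certificate. -/

namespace Vale.Agent.P045.R6

set_option maxRecDepth 100000

theorem c97_0 : chk (nat_lit 97000) (nat_lit 100) = true := by decide +kernel

theorem c97_1 : chk (nat_lit 97100) (nat_lit 100) = true := by decide +kernel

theorem c97_2 : chk (nat_lit 97200) (nat_lit 100) = true := by decide +kernel

theorem c97_3 : chk (nat_lit 97300) (nat_lit 100) = true := by decide +kernel

theorem c97_4 : chk (nat_lit 97400) (nat_lit 100) = true := by decide +kernel

theorem c97_5 : chk (nat_lit 97500) (nat_lit 100) = true := by decide +kernel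

theorem c97_6 : chk (nat_lit 97600) (nat_lit 100) = true := by decide +kernel

theorem c97_7 : chk (nat_lit 97700) (nat_lit 100) = true := by decide +kernel

theorem c97_8 : chk (nat_lit 97800) (nat_lit 100) = true := by decide +kernel

theorem c97_9 : chk (nat_lit 97900) (nat_lit 100) = true := by decide +kernel


theorem all97 : ∀ i, 97000 ≤ i → i < 98000 → Good i := (good_chain (good_chain (good_chain (good_chain (good_chain (good_chain (good_chain (good_chain (good_chain (good_of_chk c97_0) (good_of_chk c97_1)) (good_of_chk c97_2)) (good_of_chk c97_3)) (good_of_chk c97_4)) (good_of_chk c97_5)) (good_of_chk c97_6)) (good_of_chk c97_7)) (good_of_chk c97_8)) (good_of_chk c97_9))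


end Vale.Agent.P045.R6
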