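import Vale.Agent.P045.R6.Rows

/-! Checks of the rows of a certificate. -/

namespace Vale.Agent.P045.R6

set_option maxRecDepth 100000

theorem c98_0 : chk (nat_lit 98000) (nat_lit 100) = true := by decide +kernel

theorem c98_1 : chk (nat_lit 98100) (nat_lit 100) = true := by decide +kernel

theorem c98_2 : chk (nat_lit 98200) (nat_lit 100) = true := by decide +kernel

theorem c98_3 : chk (nat_lit 98300) (nat_lit 100) = true := by decide +kernel

theorem c98_4 : chk (nat_lit 98400) (nat_lit 100) = true := by decide +kernel

theorem c98_5 : chk (nat_lit 98500) (nat_lit 100) = true := by decide +kernel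

theorem c98_6 : chk (nat_lit 98600) (nat_lit 100) = true := by decide +kernel

theorem c98_7 : chk (nat_lit 98700) (nat_lit 100) = true := by decide +kernel

theorem c98_8 : chk (nat_lit 98800) (nat_lit 100) = true := by decide +kernel

theorem c98_9 : chk (nat_lit 98900) (nat_lit 100) = true := by decide +kernel


theorem all98 : ∀ i, 98000 ≤ i → i < 99000 → Good i := (good_chain (good_chain (good_chain (good_chain (good_chain (good_chain (good_chain (good_chain (good_chain (good_of_chk c98_0) (good_of_chk c98_1)) (good_of_chk c98_2)) (good_of_chk c98_3)) (good_of_chk c98_4)) (good_of_chk c98_5)) (good_of_chk c98_6)) (good_of_chk c98_7)) (good_of_chk c98_8)) (good_of_chk c98_9))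


end Vale.Agent.P045.R6
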