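import Vale.Agent.P045.R6.Rows

/-! Checks of the rows of a certificate. -/

namespace Vale.Agent.P045.R6

set_option maxRecDepth 100000

theorem c99_0 : chk (nat_lit 99000) (nat_lit 100) = true := by decide +kernel

theorem c99_1 : chk (nat_lit 99100) (nat_lit 100) = true := by decide +kernel

theorem c99_2 : chk (nat_lit 99200) (nat_lit 100) = true := by decide +kernel

theorem c99_3 : chk (nat_lit 99300) (nat_lit 100) = true := by decide +kernel

theorem c99_4 : chk (nat_lit 99400) (nat_lit 100) = true := by decide +kernel

theorem c99_5 : chk (nat_lit 99500) (nat_lit 100) = true := by decide +kernel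

theorem c99_6 : chk (nat_lit 99600) (nat_lit 100) = true := by decide +kernel

theorem c99_7 : chk (nat_lit 99700) (nat_lit 100) = true := by decide +kernel

theorem c99_8 : chk (nat_lit 99800) (nat_lit 100) = true := by decide +kernel

theorem c99_9 : chk (nat_lit 99900) (nat_lit 100) = true := by decide +kernel


theorem all99 : ∀ i, 99000 ≤ i → i < 100000 → Good i := (good_chain (good_chain (good_chain (good_chain (good_chain (good_chain (good_chain (good_chain (good_chain (good_of_chk c99_0) (good_of_chk c99_1)) (good_of_chk c99_2)) (good_of_chk c99_3)) (good_of_chk c99_4)) (good_of_chk c99_5)) (good_of_chk c99_6)) (good_of_chk c99_7)) (good_of_chk c99_8)) (good_of_chk c99_9))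


end Vale.Agent.P045.R6
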