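import Vale.Agent.P045.R6.D0
import Vale.Agent.P045.R6.D1
import Vale.Agent.P045.R6.D2
import Vale.Agent.P045.R6.D3
import Vale.Agent.P045.R6.D4
import Vale.Agent.P045.R6.D5
import Vale.Agent.P045.R6.D6
import Vale.Agent.P045.R6.D7
import Vale.Agent.P045.R6.D8
import Vale.Agent.P045.R6.D9
import Vale.Agent.P045.R6.D10
import Vale.Agent.P045.R6.D11
import Vale.Agent.P045.R6.D12
import Vale.Agent.P045.R6.D13
import Vale.Agent.P045.R6.D14
import Vale.Agent.P045.R6.D15
import Vale.Agent.P045.R6.D16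
import Vale.Agent.P045.R6.D17
import Vale.Agent.P045.R6.D18
import Vale.Agent.P045.R6.D19
import Vale.Agent.P045.R6.D20
import Vale.Agent.P045.R6.D21
import Vale.Agent.P045.R6.D22
import Vale.Agent.P045.R6.D23
import Vale.Agent.P045.R6.D24
import Vale.Agent.P045.R6.D25
import Vale.Agent.P045.R6.D26
import Vale.Agent.P045.R6.D27
import Vale.Agent.P045.R6.D28
import Vale.Agent.P045.R6.D29
import Vale.Agent.P045.R6.D30
import Vale.Agent.P045.R6.D31
import Vale.Agent.P045.R6.D32
import Vale.Agent.P045.R6.D33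
import Vale.Agent.P045.R6.D34
import Vale.Agent.P045.R6.D35
import Vale.Agent.P045.R6.D36
import Vale.Agent.P045.R6.D37
import Vale.Agent.P045.R6.D38
import Vale.Agent.P045.R6.D39
import Vale.Agent.P045.R6.D40
import Vale.Agent.P045.R6.D41
import Vale.Agent.P045.R6.D42
import Vale.Agent.P045.R6.D43
import Vale.Agent.P045.R6.D44
import Vale.Agent.P045.R6.D45
import Vale.Agent.P045.R6.D46
import Vale.Agent.P045.R6.D47
import Vale.Agent.P045.R6.D48
import Vale.Agent.P045.R6.D49
import Vale.Agent.P045.R6.D50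
import Vale.Agent.P045.R6.D51
import Vale.Agent.P045.R6.D52
import Vale.Agent.P045.R6.D53
import Vale.Agent.P045.R6.D54

/-! The table of rows of a certificate. -/

namespace Vale.Agent.P045.R6

/-- The rows. -/
noncomputable def rows (i : ℕ) : ℕ := C2.rowsOf [d0, d1, d2, d3, d4, d5, d6, d7, d8, d9, d10, d11, d12, d13, d14, d15, d16, d17, d18, d19, d20, d21, d22, d23, d24, d25, d26, d27, d28, d29, d30, d31, d32, d33, d34, d35, d36, d37, d38, d39, d40, d41, d42, d43, d44, d45, d46, d47, d48, d49, d50, d51, d52, d53, d54] i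

/-- The parts. -/
def ps : List ℕ := [nat_lit 0, nat_lit 1, nat_lit 2, nat_lit 3, nat_lit 4, nat_lit 5]

/-- The start of a pattern. -/
def cur0 : List ℕ := [nat_lit 0, nat_lit 0, nat_lit 0, nat_lit 0, nat_lit 0, nat_lit 0]

/-- The check of a range of rows. -/
noncomputable def chk (a n : ℕ) : Bool :=
  C2.checkRange (nat_lit 6) (nat_lit 1) (nat_lit 5) (nat_lit 4) (nat_lit 5) ps cur0 rows a n

/-- The statement that the rows are right. -/
def Good (i : ℕ) : Prop :=
  C2.checkEntry (nat_lit 6) (nat_lit 1) (nat_lit 5) (nat_lit 4) (nat_lit 5) ps cur0 rows i = true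

lemma good_of_chk {a n : ℕ} (h : chk a n = true) : ∀ i, a ≤ i → i < a + n → Good i :=
  C2.checkRange_spec h

lemma good_chain {a b c : ℕ} (h1 : ∀ i, a ≤ i → i < b → Good i) (h2 : ∀ i, b ≤ i → i < c → Good i) :
    ∀ i, a ≤ i → i < c → Good i := by
  intro i ha hc
  by_cases hb : i < b
  · exact h1 i ha hb
  · exact h2 i (by omega) hc

end Vale.Agent.P045.R6
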